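import Vale.Agent.P363.X.Comp

/-!
# P363 X/Bar  (TASK, sub-lead helper85)

X2, the two barriers, `T = 20`, `c = 1/25`, `VR R x ≥ -1.1 / ‖x‖` for `‖x‖ ≥ 20`.  For `B = M r^a e^{-k r}`: `B1 = (a/r - k) B`, `B2 = ((a/r - k)² - a/r²) B`, `B2 + 2 B1 / r = (k² - 2k(a+1)/r + a(a+1)/r²) B`.
-/

open MeasureTheory Filter Topology Set
open scoped ContDiff

set_option linter.unusedSectionVars false

noncomputable section

namespace Vale.Agent.P363

theorem VR_ge {R : ℝ} (h0 : 0 ≤ R) (h1 : R ≤ 1) {x : E3} (hx : 20 ≤ ‖x‖) :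
    -(11 / 10 / ‖x‖) ≤ VR R x := by
  have hn : ‖R • e3 2‖ ≤ 1 := by
    rw [norm_smul, norm_e3, mul_one, Real.norm_of_nonneg h0]
    exact h1
  have key : ∀ y : E3, ‖x‖ - 1 ≤ ‖y‖ → 1 / 2 / ‖y‖ ≤ 11 / 20 / ‖x‖ := by
    intro y hy
    rw [div_le_div_iff₀ (by linarith) (by linarith)]
    linarith
  have a1 := key (x - R • e3 2) (by linarith [norm_sub_norm_le x (R • e3 2)])
  have a2 := key (x + R • e3 2) (by linarith [norm_sub_le_norm_add x (R • e3 2)])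
  have e : 11 / 10 / ‖x‖ = 11 / 20 / ‖x‖ + 11 / 20 / ‖x‖ := by ring
  rw [VR]
  linarith

theorem xBar_d (M a k : ℝ) {r : ℝ} (hr : 0 < r) :
    HasDerivAt (fun r => M * r ^ a * Real.exp (-k * r))
      ((a / r - k) * (M * r ^ a * Real.exp (-k * r))) r := by
  refine (((Real.hasDerivAt_rpow_const (p := a) (Or.inl hr.ne')).const_mul M).mul
    ((hasDerivAt_id r).const_mul (-k)).exp).congr_deriv ?_
  rw [Real.rpow_sub_one hr.ne']
  simp only [id]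
  field_simp
  ring

theorem xBar_main {R m C M a k : ℝ} (h0 : 0 ≤ R) (h1 : R ≤ 1) (hm : 1 / 10 ≤ m) (hM : 0 ≤ M)
    {u : S e3} (hs : ∀ η : S e3, (∀ᵐ x, 0 ≤ η.f x) → qf (fun x => VR R x + m) u η ≤ 0)
    (hb : ∀ᵐ x, u.f x ≤ C)
    (hsup : ∀ r : ℝ, 20 ≤ r →
      0 ≤ -(1 / 2) * (k ^ 2 - 2 * k * (a + 1) / r + a * (a + 1) / r ^ 2) + (m - 11 / 10 / r))
    (hin : ∀ r : ℝ, 20 ≤ r → r ≤ 21 → C ≤ M * r ^ a * Real.exp (-k * r)) :
    ∀ᵐ x : E3, 20 ≤ ‖x‖ → u.f x ≤ M * ‖x‖ ^ a * Real.exp (-k * ‖x‖) := by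
  have hB : ∀ r : ℝ, 20 ≤ r → 0 ≤ M * r ^ a * Real.exp (-k * r) := fun r hr => by
    have : 0 < r := by linarith
    positivity
  refine compare ((fb_VR R).add (fb_const m)) hs (B := fun r => M * r ^ a * Real.exp (-k * r))
    (B1 := fun r => (a / r - k) * (M * r ^ a * Real.exp (-k * r)))
    (B2 := fun r => ((a / r - k) ^ 2 - a / r ^ 2) * (M * r ^ a * Real.exp (-k * r)))
    (fun r hr => xBar_d M a k hr) (fun r hr => ?_) ?_ (T := 20) (c := 1 / 25) (by norm_num)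
    (by norm_num) hB (fun x hx => ?_) (fun x hx => ?_)
    (hb.mono fun x hx h2 h3 => hx.trans (hin _ h2 (by linarith)))
  · refine (((((hasDerivAt_const r a).div (hasDerivAt_id r) hr.ne').sub_const k)).mul
      (xBar_d M a k hr)).congr_deriv ?_
    simp only [id, Pi.div_apply]
    ring
  · refine ContinuousOn.mul (fun r hr => ?_) fun r hr =>
      (xBar_d M a k hr).continuousAt.continuousWithinAt
    have hr' : r ≠ 0 := ne_of_gt hr
    have hr2 : r ^ 2 ≠ 0 := pow_ne_zero 2 hr'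
    refine ContinuousAt.continuousWithinAt ?_
    fun_prop (disch := assumption)
  · have h2 := mul_nonneg (hsup _ hx) (hB _ hx)
    have h3 := mul_le_mul_of_nonneg_right (VR_ge h0 h1 hx) (hB _ hx)
    have hx0 : ‖x‖ ≠ 0 := by linarith
    generalize M * ‖x‖ ^ a * Real.exp (-k * ‖x‖) = b at h2 h3 ⊢
    have e : ((a / ‖x‖ - k) ^ 2 - a / ‖x‖ ^ 2) * b + 2 / ‖x‖ * ((a / ‖x‖ - k) * b) =
        (k ^ 2 - 2 * k * (a + 1) / ‖x‖ + a * (a + 1) / ‖x‖ ^ 2) * b := by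
      field_simp
      ring
    rw [e]
    linarith
  · have h2 := VR_ge h0 h1 hx
    have h3 : 11 / 10 / ‖x‖ ≤ 11 / 10 / 20 :=
      div_le_div_of_nonneg_left (by norm_num) (by norm_num) hx
    linarith

theorem decay_exp {R m C : ℝ} (h0 : 0 ≤ R) (h1 : R ≤ 1) (hm : 1 / 10 ≤ m) (hC : 0 ≤ C) {u : S e3}
    (hs : ∀ η : S e3, (∀ᵐ x, 0 ≤ η.f x) → qf (fun x => VR R x + m) u η ≤ 0)
    (hb : ∀ᵐ x, u.f x ≤ C) : ∀ᵐ x, u.f x ≤ C * Real.exp 6 * Real.exp (-‖x‖ / 4) := by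
  have hin : ∀ r : ℝ, r ≤ 21 → C ≤ C * Real.exp 6 * Real.exp (-r / 4) := fun r hr => by
    rw [mul_assoc, ← Real.exp_add]
    exact le_mul_of_one_le_right hC (Real.one_le_exp (by linarith))
  have e : ∀ r : ℝ, C * Real.exp 6 * r ^ (0 : ℝ) * Real.exp (-(1 / 4) * r) =
      C * Real.exp 6 * Real.exp (-r / 4) := fun r => by
    rw [Real.rpow_zero, mul_one, show -(1 / 4) * r = -r / 4 by ring]
  have h := xBar_main (M := C * Real.exp 6) (a := 0) (k := 1 / 4) h0 h1 hm (by positivity) hs hb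
    (fun r hr => by
      have h3 : 1 / r ≤ 1 / 20 := one_div_le_one_div_of_le (by norm_num) hr
      have e1 : 2 * (1 / 4) * (0 + 1) / r = 1 / 2 * (1 / r) := by ring
      have e2 : 11 / 10 / r = 11 / 10 * (1 / r) := by ring
      rw [e1, e2, zero_mul, zero_div]
      linarith)
    fun r _ hr => by rw [e]; exact hin r hr
  filter_upwards [h, hb] with x hx hx'
  rcases le_total 20 ‖x‖ with h2 | h2
  · rw [← e]
    exact hx h2
  · exact hx'.trans (hin _ (by linarith))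

theorem decay_pow {R κ C : ℝ} (h0 : 0 ≤ R) (h1 : R ≤ 1) (hκ : 12 / 25 ≤ κ) (hκ1 : κ ≤ 1)
    (hC : 0 ≤ C) {u : S e3}
    (hs : ∀ η : S e3, (∀ᵐ x, 0 ≤ η.f x) → qf (fun x => VR R x + κ ^ 2 / 2) u η ≤ 0)
    (hb : ∀ᵐ x, u.f x ≤ C) : ∀ᵐ x : E3, 20 ≤ ‖x‖ →
      u.f x ≤ C * Real.exp 21 * ‖x‖ ^ (3 / 2 : ℝ) * Real.exp (-κ * ‖x‖) := by
  refine xBar_main h0 h1 (by nlinarith) (by positivity) hs hb (fun r hr => ?_) fun r hr hr' => ?_
  · have h3 : 1 / r ≤ 1 / 20 := one_div_le_one_div_of_le (by norm_num) hr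
    have h4 : 0 ≤ 1 / r := one_div_nonneg.2 (by linarith)
    have e1 : 2 * κ * (3 / 2 + 1) / r = 5 * κ * (1 / r) := by ring
    have e2 : 11 / 10 / r = 11 / 10 * (1 / r) := by ring
    have e3 : 3 / 2 * (3 / 2 + 1) / r ^ 2 = 15 / 4 * ((1 / r) * (1 / r)) := by ring
    rw [e1, e2, e3]
    nlinarith [mul_nonneg h4 (sub_nonneg.2 h3), mul_nonneg h4 (sub_nonneg.2 hκ)]
  · have h3 : 1 ≤ r ^ (3 / 2 : ℝ) := Real.one_le_rpow (by linarith) (by norm_num)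
    have h4 : 1 ≤ Real.exp (21 + -κ * r) := Real.one_le_exp (by nlinarith)
    calc C ≤ C * (r ^ (3 / 2 : ℝ) * Real.exp (21 + -κ * r)) :=
          le_mul_of_one_le_right hC (one_le_mul_of_one_le_of_one_le h3 h4)
      _ = _ := by rw [Real.exp_add]; ring

end Vale.Agent.P363
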