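import Vale.Agent.P363.X.Split

/-!
# P363 X/Core  (TASK, sub-lead helper85)

X1, the equation of the core pairing.  `prd_eigen`: `qf_prd_left`, `qf_orb`, `ip_tens`, `prd_eq_tens`, `ip_congr`.  `core_eq`: `dys_eq` with `U = ∑ V0`; the difference of the potentials times `ψ` is a sum of
eight functions in `L²` (`memLp_VR_slot`, `memLp_point` with centre `0`, `memLp_Wee`), `pair_memLp`, `hn_pr_le`; move the term `(E' - E) * ip d ξ` into the source.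
-/

open MeasureTheory Filter Topology Set
open scoped ContDiff

set_option linter.unusedSectionVars false

noncomputable section

namespace Vale.Agent.P363

theorem prd_eigen {n : ℕ} (j : Fin (n + 1) → Fin 5) (b : S (eN (n + 1))) :
    qf (fun X => ∑ i, V0 (X i)) (prd fun i => orb (j i)) b =
      (∑ i, lev (j i)) * ip (prd fun i => orb (j i)) b := by
  rw [qf_prd_left fb_V0, Finset.sum_mul]
  refine Finset.sum_congr rfl fun i _ => ?_
  rw [qf_orb, ← ip_tens]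
  exact congrArg _ (ip_congr (ae_of_all _ fun X => (prd_eq_tens i (fun i => orb (j i)) X).symm) b)

theorem core_norm : ∫ Y, (prd ![orb 4, orb 0, orb 4]).f Y ^ 2 = 1 := by
  rw [← ip_self, ip_prd, Fin.prod_univ_three]
  simp [ip_orb]

section
variable {α : Type} [MeasurableSpace α] {μ : Measure α}

theorem xCore_sum {m : ℕ} {f : Fin m → α → ℝ} {K : ℝ}
    (h : ∀ i, MemLp (f i) 2 μ ∧ ∫ x, f i x ^ 2 ∂μ ≤ K) :
    MemLp (fun x => ∑ i, f i x) 2 μ ∧ ∫ x, (∑ i, f i x) ^ 2 ∂μ ≤ m * (m * K) := by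
  have hm : MemLp (fun x => ∑ i, f i x) 2 μ := memLp_finsetSum _ fun i _ => (h i).1
  refine ⟨hm, ?_⟩
  have hi : ∀ i ∈ Finset.univ, Integrable (fun x => f i x ^ 2) μ := fun i _ => (h i).1.integrable_sq
  calc ∫ x, (∑ i, f i x) ^ 2 ∂μ ≤ ∫ x, m * ∑ i, f i x ^ 2 ∂μ :=
        integral_mono hm.integrable_sq ((integrable_finsetSum _ hi).const_mul _) fun x => by
          simpa using sq_sum_le_card_mul_sum_sq (s := Finset.univ) (f := fun i => f i x)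
    _ = m * ∑ i, ∫ x, f i x ^ 2 ∂μ := by rw [integral_const_mul, integral_finsetSum _ hi]
    _ ≤ m * (m * K) := by
        refine mul_le_mul_of_nonneg_left ?_ (Nat.cast_nonneg m)
        simpa using Finset.sum_le_card_nsmul Finset.univ _ K fun i _ => (h i).2

theorem xCore_add {f g : α → ℝ} {K L : ℝ} (hf : MemLp f 2 μ ∧ ∫ x, f x ^ 2 ∂μ ≤ K)
    (hg : MemLp g 2 μ ∧ ∫ x, g x ^ 2 ∂μ ≤ L) :
    MemLp (fun x => f x + g x) 2 μ ∧ ∫ x, (f x + g x) ^ 2 ∂μ ≤ 2 * K + 2 * L := by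
  have hm : MemLp (fun x => f x + g x) 2 μ := hf.1.add hg.1
  have i1 := hf.1.integrable_sq.const_mul 2
  have i2 := hg.1.integrable_sq.const_mul 2
  refine ⟨hm, ?_⟩
  calc ∫ x, (f x + g x) ^ 2 ∂μ ≤ ∫ x, 2 * f x ^ 2 + 2 * g x ^ 2 ∂μ :=
        integral_mono hm.integrable_sq (i1.add i2) fun x => by
          nlinarith [sq_nonneg (f x - g x)]
    _ ≤ _ := by
        rw [integral_add i1 i2, integral_const_mul, integral_const_mul]
        linarith [hf.2, hg.2]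

theorem xCore_mul {f : α → ℝ} {K B : ℝ} (hf : MemLp f 2 μ ∧ ∫ x, f x ^ 2 ∂μ ≤ K) {c : ℝ}
    (hc : c ^ 2 ≤ B) : MemLp (fun x => c * f x) 2 μ ∧ ∫ x, (c * f x) ^ 2 ∂μ ≤ B * K := by
  refine ⟨hf.1.const_mul c, ?_⟩
  simp only [mul_pow]
  rw [integral_const_mul]
  exact mul_le_mul hc hf.2 (integral_nonneg fun x => sq_nonneg _) ((sq_nonneg c).trans hc)

end

theorem xCore_W (C : ℝ) : ∃ K : ℝ, ∀ {R lam : ℝ} {ψ : S (eN 4)}, 0 ≤ lam → lam ≤ 1 → kin ψ ψ ≤ C →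
    MemLp (fun X : Cfg 4 => (UN R lam X - ∑ j : Fin 3, V0 ((Fin.removeNth 0 X : Cfg 3) j)) * ψ.f X)
      2 volume ∧
    ∫ X : Cfg 4, ((UN R lam X - ∑ j : Fin 3, V0 ((Fin.removeNth 0 X : Cfg 3) j)) * ψ.f X) ^ 2 ≤ K := by
  refine ⟨2 * (2 * ((4 : ℕ) * ((4 : ℕ) * (8 * C))) + 2 * (1 * (2048 * C))) +
    2 * ((3 : ℕ) * ((3 : ℕ) * (8 * C))), fun {R lam ψ} h0 h1 hk => ?_⟩
  have a1 := xCore_sum (K := 8 * C) (f := fun (i : Fin 4) (X : Cfg 4) => VR R (X i) * ψ.f X)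
    fun i => ⟨(memLp_VR_slot R i ψ).1, (memLp_VR_slot R i ψ).2.trans (by linarith)⟩
  have a2 := xCore_mul (K := 2048 * C) (B := 1) (f := fun X : Cfg 4 => Wee X * ψ.f X)
    ⟨(memLp_Wee ψ).1, (memLp_Wee ψ).2.trans (by push_cast; linarith)⟩ (c := lam) (by nlinarith)
  have a3 := xCore_sum (K := 8 * C)
    (f := fun (j : Fin 3) (X : Cfg 4) => 1 / ‖X ((0 : Fin 4).succAbove j) - 0‖ * ψ.f X)
    fun j => ⟨(memLp_point ψ _ 0).1, (memLp_point ψ _ 0).2.trans (by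
      linarith [kinI_le ((0 : Fin 4).succAbove j) ψ])⟩
  have e : ∀ X : Cfg 4, (UN R lam X - ∑ j : Fin 3, V0 ((Fin.removeNth 0 X : Cfg 3) j)) * ψ.f X =
      ∑ i, VR R (X i) * ψ.f X + lam * (Wee X * ψ.f X) +
        ∑ j : Fin 3, 1 / ‖X ((0 : Fin 4).succAbove j) - 0‖ * ψ.f X := fun X => by
    simp only [UN, V0, Fin.removeNth, sub_zero, Finset.sum_neg_distrib, ← Finset.sum_mul]
    ring
  simp only [e]
  exact xCore_add (xCore_add a1 a2) a3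

theorem core_eq (C : ℝ) : ∃ K : ℝ, ∀ {R lam E : ℝ} {ψ : S (eN 4)}, 0 ≤ lam → lam ≤ 1 → |E| ≤ 2 →
    ip ψ ψ = 1 → kin ψ ψ ≤ C → (∀ b, qf (UN R lam) ψ b = E * ip ψ b) →
    ∃ s : E3 → ℝ, MemLp s 2 volume ∧ ∫ x, s x ^ 2 ≤ K ∧ ∀ ξ : S e3,
      kin ((slotFib 0 ψ).pr (prd ![orb 4, orb 0, orb 4]).mem) ξ = ∫ x, s x * ξ.f x := by
  obtain ⟨K, hK⟩ := xCore_W C
  refine ⟨2 * (1 * K) + 2 * (9 * 1), fun {R lam E ψ} h0 h1 hE hn hk he => ?_⟩
  obtain ⟨w1, w2⟩ := hK (R := R) h0 h1 hk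
  have hΞ : ∀ b, qf (fun X => ∑ i, V0 (X i)) (prd ![orb 4, orb 0, orb 4]) b =
      -(3 / 4) * ip (prd ![orb 4, orb 0, orb 4]) b := fun b => by
    have e : (![orb 4, orb 0, orb 4] : Fin 3 → S e3) = fun i => orb (![4, 0, 4] i) := by
      funext i
      fin_cases i <;> rfl
    have l : ∑ i : Fin 3, lev (![4, 0, 4] i) = -(3 / 4) := by
      rw [Fin.sum_univ_three]
      simp [lev]
      norm_num
    rw [e, prd_eigen, l]
  obtain ⟨p1, p2, -⟩ := pair_memLp 0 w1 (prd ![orb 4, orb 0, orb 4]).mem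
  obtain ⟨q1, q2, -⟩ := pair_memLp 0 ψ.mem (prd ![orb 4, orb 0, orb 4]).mem
  rw [core_norm, mul_one] at p2 q2
  rw [← ip_self, hn] at q2
  have hc : (3 / 4 + E) ^ 2 ≤ 9 := by
    have := abs_le.1 hE
    nlinarith
  have r1 := xCore_mul ⟨p1, p2.trans w2⟩ (c := -1) (B := 1) (by norm_num)
  have r2 := xCore_mul ⟨q1, q2⟩ hc
  obtain ⟨s1, s2⟩ := xCore_add r1 r2
  refine ⟨_, s1, s2, fun ξ => ?_⟩
  have d := dys_eq fb_V0.slots (fb_UN R lam) 0 he hΞ w1 ξ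
  have t := integral_add (r1.1.integrable_mul ξ.mem) (r2.1.integrable_mul ξ.mem)
  simp only [Pi.mul_apply, ← add_mul] at t
  rw [t]
  simp only [neg_one_mul, mul_assoc (3 / 4 + E)]
  rw [integral_const_mul, ← d]
  have : ip ((slotFib 0 ψ).pr (prd ![orb 4, orb 0, orb 4]).mem) ξ =
    ∫ x, pair 0 ψ.f (prd ![orb 4, orb 0, orb 4]).f x * ξ.f x := rfl
  rw [← this]
  ring

end Vale.Agent.P363
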