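import Vale.Agent.P363.X.Lb2

/-!
# P363 X/Lb4  (block X5)

The identity obtained by testing with `x 2 * (β₁ - β₀) ‖x‖ * lbf κ a ‖x‖`.
-/

open MeasureTheory Filter Topology Set
open scoped ContDiff

set_option linter.unusedSectionVars false

noncomputable section

namespace Vale.Agent.P363

theorem lb_im {f g : E3 → ℝ} (hf : MemLp f 2 volume) (hg : MemLp g 2 volume) :
    Integrable fun x => f x * g x := hf.integrable_mul hg

theorem lb4_lin {f₁ f₂ f₃ f₄ f₅ F : E3 → ℝ} (h1 : Integrable f₁) (h2 : Integrable f₂)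
    (h3 : Integrable f₃) (h4 : Integrable f₄) (h5 : Integrable f₅) (c₁ c₂ c₃ c₄ c₅ : ℝ)
    (hF : ∀ x, F x = c₁ * f₁ x + c₂ * f₂ x + c₃ * f₃ x + c₄ * f₄ x + c₅ * f₅ x) :
    ∫ x, F x = c₁ * (∫ x, f₁ x) + c₂ * (∫ x, f₂ x) + c₃ * (∫ x, f₃ x) + c₄ * (∫ x, f₄ x) +
      c₅ * ∫ x, f₅ x := by
  have a1 := h1.const_mul c₁
  have a2 : Integrable fun x => c₁ * f₁ x + c₂ * f₂ x := a1.add (h2.const_mul c₂)
  have a3 : Integrable fun x => c₁ * f₁ x + c₂ * f₂ x + c₃ * f₃ x := a2.add (h3.const_mul c₃)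
  have a4 : Integrable fun x => c₁ * f₁ x + c₂ * f₂ x + c₃ * f₃ x + c₄ * f₄ x :=
    a3.add (h4.const_mul c₄)
  simp only [hF]
  rw [integral_add a4 (h5.const_mul c₅), integral_add a3 (h4.const_mul c₄),
    integral_add a2 (h3.const_mul c₃), integral_add a1 (h2.const_mul c₂)]
  simp only [integral_const_mul]

theorem lb4_abs {K T m κ a : ℝ} {β₀ β₁ : ℝ → ℝ} (h0 : LbCut K T β₀) (h1 : LbCut K m β₁)
    (a0 : 1 ≤ a) {x : E3} (hx : 1 ≤ ‖x‖) :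
    |x 2 * ((β₁ ‖x‖ - β₀ ‖x‖) * lbf κ a ‖x‖)| ≤ ‖x‖ * lbf κ a ‖x‖ ∧
      ‖x‖ * lbf κ a ‖x‖ ≤ Real.exp (κ * ‖x‖) := by
  refine ⟨?_, lbf_le a0 hx⟩
  have e1 : |β₁ ‖x‖ - β₀ ‖x‖| ≤ 1 :=
    abs_le.2 ⟨by linarith [(h1.bd ‖x‖).1, (h0.bd ‖x‖).2], by linarith [(h1.bd ‖x‖).2, (h0.bd ‖x‖).1]⟩
  have e2 := lbf_pos κ a ‖x‖
  rw [abs_mul, abs_mul, abs_of_pos e2]
  exact mul_le_mul (abs_coord_le x 2) (mul_le_of_le_one_left e2.le e1) (by positivity)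
    (norm_nonneg _)

theorem lb4_zero {K T m : ℝ} {β₀ β₁ : ℝ → ℝ} (h0 : LbCut K T β₀) (h1 : LbCut K m β₁) (hm : T ≤ m)
    {t : ℝ} (ht : t ≤ T ∨ m + 1 ≤ t) : β₁ t - β₀ t = 0 := by
  rcases ht with ht | ht
  · rw [h1.one t (by linarith), h0.one t ht, sub_self]
  · rw [h1.zero t ht, h0.zero t (by linarith), sub_self]

theorem lb4_mem {K T m κ a : ℝ} {β₀ β₁ : ℝ → ℝ} (h0 : LbCut K T β₀) (h1 : LbCut K m β₁)
    (hT : 1 ≤ T) (hm : T ≤ m) (k0 : 0 ≤ κ) (a0 : 1 ≤ a) {w : ℝ → ℝ} (hw : Measurable w) {W : ℝ}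
    (hW : ∀ t, 1 ≤ t → |w t| ≤ W) :
    MemLp (fun x : E3 => x 2 * ((β₁ ‖x‖ - β₀ ‖x‖) * lbf κ a ‖x‖) * w ‖x‖) 2 volume := by
  have m0 := h0.sm.continuous.measurable
  have m1 := h1.sm.continuous.measurable
  have m2 := lbf_meas κ a
  have hW0 : 0 ≤ W := (abs_nonneg _).trans (hW 1 le_rfl)
  refine (lb_mem (C := Real.exp (κ * (m + 1)) * W) (R := m + 1) (by fun_prop) (fun x hx => ?_)
    fun x hx => ?_).1
  · by_cases h : ‖x‖ ≤ T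
    · rw [lb4_zero h0 h1 hm (Or.inl h)]
      simp only [zero_mul, mul_zero, abs_zero]
      positivity
    · have hx1 : 1 ≤ ‖x‖ := by linarith [not_le.1 h]
      obtain ⟨e1, e2⟩ := lb4_abs (κ := κ) h0 h1 a0 hx1
      rw [abs_mul]
      refine mul_le_mul (e1.trans (e2.trans ?_)) (hW _ hx1) (abs_nonneg _) (Real.exp_pos _).le
      exact Real.exp_le_exp.2 (mul_le_mul_of_nonneg_left hx k0)
  · rw [lb4_zero h0 h1 hm (Or.inr hx)]
    simp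

theorem lb4_memN {K r κ a : ℝ} {β : ℝ → ℝ} (h : LbCut K r β) (hr : 1 ≤ r) (k0 : 0 ≤ κ) (k1 : κ ≤ 1)
    (a0 : 1 ≤ a) (a1 : a ≤ 5) : MemLp (fun x : E3 => x 2 * lbN κ a β ‖x‖) 2 volume ∧
      ∫ x : E3, (x 2 * lbN κ a β ‖x‖) ^ 2 ≤
        (17 * K * Real.exp (r + 1)) ^ 2 * volume.real (Metric.closedBall (0 : E3) (r + 1)) := by
  have m1 := lbN_meas κ a β
  have hK : 0 ≤ K := (abs_nonneg _).trans (h.d1 0)
  refine lb_mem (by fun_prop) (fun x hx => (lbN_le h hr k0 k1 a0 a1 x).trans ?_) fun x hx => ?_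
  · have : κ * ‖x‖ ≤ r + 1 := (mul_le_of_le_one_left (norm_nonneg _) k1).trans hx
    gcongr
  · rw [lbN_zero h κ a (Or.inr hx), mul_zero]

theorem lb_ident {K T m κ a μ : ℝ} {β₀ β₁ : ℝ → ℝ} (h0 : LbCut K T β₀) (h1 : LbCut K m β₁)
    (hT : 1 ≤ T) (hm : T ≤ m) (k0 : 0 ≤ κ) (k1 : κ ≤ 1) (a0 : 1 ≤ a) (a1 : a ≤ 5)
    (hμ : (a - 2) * κ = μ) {d : S e3} {s : E3 → ℝ} (hs : MemLp s 2 volume)
    (heq : ∀ ξ : S e3, kin d ξ + κ ^ 2 / 2 * ip d ξ = ∫ x, s x * ξ.f x) :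
    ∫ x, d.f x * (x 2 * lbN κ a β₀ ‖x‖) = (∫ x, d.f x * (x 2 * lbN κ a β₁ ‖x‖)) +
      2 * ∫ x, x 2 * ((β₁ ‖x‖ - β₀ ‖x‖) * lbf κ a ‖x‖) *
        (s x - μ / ‖x‖ * d.f x + (a ^ 2 - 3 * a) / (2 * ‖x‖ ^ 2) * d.f x) := by
  obtain ⟨ξ, hξ, hk⟩ := lb_test d (F := fun t => (β₁ t - β₀ t) * lbf κ a t)
    (F1 := fun t => (deriv β₁ t - deriv β₀ t) * lbf κ a t +
      (β₁ t - β₀ t) * ((κ - a / t) * lbf κ a t))
    (F2 := fun t => (deriv (deriv β₁) t - deriv (deriv β₀) t) * lbf κ a t +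
      2 * (deriv β₁ t - deriv β₀ t) * ((κ - a / t) * lbf κ a t) +
      (β₁ t - β₀ t) * (((κ - a / t) ^ 2 + a / t ^ 2) * lbf κ a t))
    (fun t ht => ((h1.sm.sub h0.sm).of_le (by norm_cast)).contDiffAt.mul
      ((contDiffAt_const.mul contDiffAt_id).sub
        (contDiffAt_const.mul (Real.contDiffAt_log.2 ht.ne'))).exp)
    (fun t ht => ((h1.hd1 t).sub (h0.hd1 t)).mul (lbf_deriv κ a ht))
    (fun t ht => by
      have e1 : HasDerivAt (fun t : ℝ => κ - a / t) (a / t ^ 2) t := by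
        have := ((hasDerivAt_inv ht.ne').const_mul a).const_sub κ
        refine (this.congr_deriv ?_).congr_of_eventuallyEq (Eventually.of_forall fun y => ?_)
        · ring
        · simp only [div_eq_mul_inv]
      have e2 := (((h1.hd2 t).sub (h0.hd2 t)).mul (lbf_deriv κ a ht)).add
        (((h1.hd1 t).sub (h0.hd1 t)).mul (e1.mul (lbf_deriv κ a ht)))
      refine e2.congr_deriv ?_
      simp only [Pi.sub_apply, Pi.mul_apply]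
      ring)
    (r := T) (s := m + 1) (by linarith) (fun t ht => by rw [lb4_zero h0 h1 hm ht, zero_mul])
  have hq := heq ξ
  have g0 := lb4_mem (κ := κ) h0 h1 hT hm k0 a0 (w := fun _ => 1) measurable_const (W := 1)
    fun _ _ => by simp
  have g1 := lb4_mem (κ := κ) h0 h1 hT hm k0 a0 (w := fun t => μ / t) (by fun_prop) (W := |μ|)
    fun t ht => by
      rw [abs_div, abs_of_pos (by linarith : 0 < t)]
      exact div_le_self (abs_nonneg _) ht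
  have g2 := lb4_mem (κ := κ) h0 h1 hT hm k0 a0 (w := fun t => (a ^ 2 - 3 * a) / (2 * t ^ 2))
    (by fun_prop) (W := |a ^ 2 - 3 * a|) fun t ht => by
      rw [abs_div, abs_of_pos (by positivity : 0 < 2 * t ^ 2)]
      exact div_le_self (abs_nonneg _) (by nlinarith)
  simp only [mul_one] at g0
  have i0 := lb_im d.mem (lb4_memN h0 hT k0 k1 a0 a1).1
  have i1 := lb_im d.mem (lb4_memN h1 (hT.trans hm) k0 k1 a0 a1).1
  have j0 := lb_im d.mem g0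
  have j1 := lb_im d.mem g1
  have j2 := lb_im d.mem g2
  have j3 := lb_im hs g0
  rw [hk, lb4_lin i1 i0 j0 j1 j2 1 (-1) (κ ^ 2) (-2) 2 (fun x => by
    simp only [lbN, ← hμ]
    ring), ip] at hq
  simp only [hξ] at hq
  rw [lb4_lin j3 j1 j2 j2 j2 1 (-1) 1 0 0
    (F := fun x => x 2 * ((β₁ ‖x‖ - β₀ ‖x‖) * lbf κ a ‖x‖) *
      (s x - μ / ‖x‖ * d.f x + (a ^ 2 - 3 * a) / (2 * ‖x‖ ^ 2) * d.f x)) fun x => by ring]
  linarith

end Vale.Agent.P363
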