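import Vale.Agent.P363.X.Lb3
import Vale.Agent.P363.X.Lb4

/-!
# P363 X/Lb  (block X5, helper86)

The Dyson function cannot decay faster than `e ^ (-κ r)`.
-/

open MeasureTheory Filter Topology Set
open scoped ContDiff

set_option linter.unusedSectionVars false

noncomputable section

namespace Vale.Agent.P363

theorem lb_pt {κ a r : ℝ} (ha : 15 / 4 ≤ a) (hr : 1 ≤ r) :
    r * lbf κ a r * (1 / r ^ 2 * (r ^ (3 / 2 : ℝ) * Real.exp (-κ * r))) ≤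
      Real.exp 4 * (1 + r) ^ (-(13 / 4) : ℝ) := by
  have h0 : 0 < r := by linarith
  have h1 : 0 ≤ Real.log r := Real.log_nonneg hr
  have h2 : Real.log (1 + r) ≤ 1 + Real.log r := by
    have e1 : Real.log (1 + r) ≤ Real.log (2 * r) := Real.log_le_log (by linarith) (by linarith)
    have e2 : Real.log 2 ≤ 2 - 1 := Real.log_le_sub_one_of_pos (by norm_num)
    rw [Real.log_mul (by norm_num) h0.ne'] at e1
    linarith
  have h3 : r * (1 / r ^ 2) = Real.exp (-Real.log r) := by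
    rw [Real.exp_neg, Real.exp_log h0]
    field_simp
  calc _ = r * (1 / r ^ 2) * lbf κ a r * r ^ (3 / 2 : ℝ) * Real.exp (-κ * r) := by ring
    _ ≤ _ := by
      rw [h3, lbf, Real.rpow_def_of_pos h0, Real.rpow_def_of_pos (by linarith), ← Real.exp_add,
        ← Real.exp_add, ← Real.exp_add, ← Real.exp_add]
      exact Real.exp_le_exp.2 (by nlinarith)

theorem lb_G0 : Integrable fun x : E3 => (1 + ‖x‖) ^ (-(13 / 4) : ℝ) :=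
  integrable_one_add_norm (by simp only [finrank_euclideanSpace, Fintype.card_fin]; norm_num)

theorem lb_abs_le {F G : E3 → ℝ} (hG : Integrable G) {T : ℝ}
    (h : ∀ᵐ x, (T ≤ ‖x‖ → |F x| ≤ G x) ∧ (‖x‖ ≤ T → F x = 0)) :
    |∫ x, F x| ≤ ∫ x in {x : E3 | T ≤ ‖x‖}, G x := by
  have hm : MeasurableSet {x : E3 | T ≤ ‖x‖} := measurableSet_le measurable_const measurable_norm
  rw [← integral_indicator hm, ← Real.norm_eq_abs]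
  refine norm_integral_le_of_norm_le (hG.indicator hm) ?_
  filter_upwards [h] with x hx
  by_cases hT : T ≤ ‖x‖
  · rw [indicator_of_mem (show x ∈ {x : E3 | T ≤ ‖x‖} from hT)]
    exact hx.1 hT
  · rw [indicator_of_notMem (show x ∉ {x : E3 | T ≤ ‖x‖} from hT), hx.2 (not_le.1 hT).le, norm_zero]

theorem lb_bulk {K T m κ a μ M C : ℝ} {β₀ β₁ : ℝ → ℝ} (h0 : LbCut K T β₀) (h1 : LbCut K m β₁)
    (hT : 1 ≤ T) (hm : T ≤ m) (a0 : 15 / 4 ≤ a) (a1 : a ≤ 5) {d u s : E3 → ℝ}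
    (e1 : ∀ᵐ x, 1 ≤ ‖x‖ → |s x - μ / ‖x‖ * d x| ≤ C / ‖x‖ ^ 2 * u x) (e2 : ∀ᵐ x, |d x| ≤ u x)
    (e3 : ∀ᵐ x, T ≤ ‖x‖ → u x ≤ M * ‖x‖ ^ (3 / 2 : ℝ) * Real.exp (-κ * ‖x‖)) :
    |∫ x, x 2 * ((β₁ ‖x‖ - β₀ ‖x‖) * lbf κ a ‖x‖) *
        (s x - μ / ‖x‖ * d x + (a ^ 2 - 3 * a) / (2 * ‖x‖ ^ 2) * d x)| ≤
      (|C| + 5) * |M| * Real.exp 4 *
        ∫ x in {x : E3 | T ≤ ‖x‖}, (1 + ‖x‖) ^ (-(13 / 4) : ℝ) := by
  rw [← integral_const_mul]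
  refine lb_abs_le (lb_G0.const_mul _) ?_
  filter_upwards [e1, e2, e3] with x x1 x2 x3
  refine ⟨fun hx => ?_, fun hx => by rw [lb4_zero h0 h1 hm (Or.inl hx)]; simp⟩
  have hx1 : 1 ≤ ‖x‖ := hT.trans hx
  have hu : 0 ≤ u x := (abs_nonneg _).trans x2
  have b1 := (lb4_abs (κ := κ) h0 h1 (by linarith : 1 ≤ a) hx1).1
  have b2 : |(a ^ 2 - 3 * a) / (2 * ‖x‖ ^ 2) * d x| ≤ 5 * (1 / ‖x‖ ^ 2 * u x) := by
    have : |a ^ 2 - 3 * a| ≤ 10 := abs_le.2 ⟨by nlinarith, by nlinarith⟩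
    rw [abs_mul, abs_div, abs_of_pos (by positivity : 0 < 2 * ‖x‖ ^ 2)]
    calc _ ≤ 10 / (2 * ‖x‖ ^ 2) * u x := by gcongr
      _ = _ := by ring
  have b3 : C / ‖x‖ ^ 2 * u x ≤ |C| * (1 / ‖x‖ ^ 2 * u x) := by
    calc _ = C * (1 / ‖x‖ ^ 2 * u x) := by ring
      _ ≤ _ := mul_le_mul_of_nonneg_right (le_abs_self C) (by positivity)
  have b4 : u x ≤ |M| * (‖x‖ ^ (3 / 2 : ℝ) * Real.exp (-κ * ‖x‖)) := by
    refine (x3 hx).trans ?_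
    rw [mul_assoc]
    exact mul_le_mul_of_nonneg_right (le_abs_self M) (by positivity)
  have b5 := lbf_pos κ a ‖x‖
  rw [abs_mul]
  calc _ ≤ ‖x‖ * lbf κ a ‖x‖ * ((|C| + 5) * (1 / ‖x‖ ^ 2 * u x)) :=
        mul_le_mul b1 ((abs_add_le _ _).trans (by linarith [x1 hx1])) (abs_nonneg _)
          (by positivity)
    _ ≤ ‖x‖ * lbf κ a ‖x‖ * ((|C| + 5) *
        (1 / ‖x‖ ^ 2 * (|M| * (‖x‖ ^ (3 / 2 : ℝ) * Real.exp (-κ * ‖x‖))))) := by gcongr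
    _ = (|C| + 5) * |M| * (‖x‖ * lbf κ a ‖x‖ *
        (1 / ‖x‖ ^ 2 * (‖x‖ ^ (3 / 2 : ℝ) * Real.exp (-κ * ‖x‖)))) := by ring
    _ ≤ (|C| + 5) * |M| * (Real.exp 4 * (1 + ‖x‖) ^ (-(13 / 4) : ℝ)) :=
        mul_le_mul_of_nonneg_left (lb_pt a0 hx1) (by positivity)
    _ = _ := by ring

theorem lb_outer {K m κ a k0 : ℝ} {β : ℝ → ℝ} (h : LbCut K m β) (hm : 1 ≤ m) (k1 : 0 ≤ κ)
    (k2 : κ ≤ 1) (a0 : 1 ≤ a) (a1 : a ≤ 5) {d u : E3 → ℝ} (e2 : ∀ᵐ x, |d x| ≤ u x)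
    (hi : Integrable fun x => Real.exp (2 * k0 * ‖x‖) * u x ^ 2 +
      ‖x‖ ^ 0 * Real.exp (-(2 * (k0 - κ)) * ‖x‖)) :
    |∫ x, d x * (x 2 * lbN κ a β ‖x‖)| ≤ 17 * K * ∫ x in {x : E3 | m ≤ ‖x‖},
      (Real.exp (2 * k0 * ‖x‖) * u x ^ 2 + ‖x‖ ^ 0 * Real.exp (-(2 * (k0 - κ)) * ‖x‖)) := by
  have hK : 0 ≤ K := (abs_nonneg _).trans (h.d1 0)
  rw [← integral_const_mul]
  refine lb_abs_le (hi.const_mul _) ?_
  filter_upwards [e2] with x x2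
  refine ⟨fun _ => ?_, fun hx => by rw [lbN_zero h κ a (Or.inl hx)]; simp⟩
  have b1 : Real.exp (κ * ‖x‖) = Real.exp (k0 * ‖x‖) * Real.exp (-(k0 - κ) * ‖x‖) := by
    rw [← Real.exp_add]
    congr 1
    ring
  have b2 : Real.exp (2 * k0 * ‖x‖) = Real.exp (k0 * ‖x‖) ^ 2 := by
    rw [← Real.exp_nat_mul]
    congr 1
    push_cast
    ring
  have b3 : Real.exp (-(2 * (k0 - κ)) * ‖x‖) = Real.exp (-(k0 - κ) * ‖x‖) ^ 2 := by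
    rw [← Real.exp_nat_mul]
    congr 1
    push_cast
    ring
  have hu : 0 ≤ u x := (abs_nonneg _).trans x2
  rw [abs_mul]
  calc _ ≤ u x * (17 * K * Real.exp (κ * ‖x‖)) :=
        mul_le_mul x2 (lbN_le h hm k1 k2 a0 a1 x) (abs_nonneg _) hu
    _ = 17 * K * (Real.exp (k0 * ‖x‖) * u x * Real.exp (-(k0 - κ) * ‖x‖)) := by
        rw [b1]
        ring
    _ ≤ _ := by
        rw [b2, b3, pow_zero, one_mul]
        refine mul_le_mul_of_nonneg_left ?_ (by positivity)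
        nlinarith [sq_nonneg (Real.exp (k0 * ‖x‖) * u x - Real.exp (-(k0 - κ) * ‖x‖)),
          sq_nonneg (Real.exp (k0 * ‖x‖) * u x), sq_nonneg (Real.exp (-(k0 - κ) * ‖x‖))]

theorem lb_rho (ρ : S e3) {g : E3 → ℝ} (hg : MemLp g 2 volume) {δ : ℝ} (hδ : 0 < δ) :
    |∫ x, ρ.f x * g x| ≤ δ⁻¹ * hn ρ + δ * ∫ x, g x ^ 2 := by
  have h1 : |∫ x, ρ.f x * g x| ≤ ∫ x, (δ⁻¹ * ρ.f x ^ 2 + δ * g x ^ 2) := by
    rw [← Real.norm_eq_abs]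
    refine norm_integral_le_of_norm_le ((ρ.int_sq.const_mul _).add (hg.integrable_sq.const_mul _))
      (ae_of_all _ fun x => ?_)
    have e1 : δ⁻¹ * ρ.f x ^ 2 + δ * g x ^ 2 - 2 * (|ρ.f x| * |g x|) =
        δ⁻¹ * (|ρ.f x| - δ * |g x|) ^ 2 := by
      rw [← sq_abs (ρ.f x), ← sq_abs (g x)]
      field_simp
      ring
    have e2 : 0 ≤ δ⁻¹ * (|ρ.f x| - δ * |g x|) ^ 2 := by positivity
    have e3 : 0 ≤ |ρ.f x| * |g x| := by positivity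
    rw [Real.norm_eq_abs, abs_mul]
    linarith
  rw [integral_add (ρ.int_sq.const_mul _) (hg.integrable_sq.const_mul _), integral_const_mul,
    integral_const_mul, ← ip_self] at h1
  have h2 := mul_le_mul_of_nonneg_left (ip_le_hn ρ) (inv_pos.2 hδ).le
  linarith

theorem lb_par {κ lam η : ℝ} (hη : η ≤ 1 / 112) (hκ : 0 < κ) (h1 : |κ ^ 2 / 2 - 1 / 8| ≤ η)
    (l0 : 0 ≤ lam) (l1 : lam ≤ η) :
    |κ - 1 / 2| ≤ 28 * η ∧ |2 + (1 - 3 * lam) / κ - 4| ≤ 28 * η := by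
  obtain ⟨h2, h3⟩ := abs_le.1 h1
  have h0 : 0 ≤ η := l0.trans l1
  have e1 : κ - 1 / 2 ≤ 4 * η := by nlinarith
  have e2 : -(4 * η) ≤ κ - 1 / 2 := by nlinarith
  refine ⟨abs_le.2 ⟨by linarith, by linarith⟩, ?_⟩
  have e3 : 2 + (1 - 3 * lam) / κ - 4 = (1 - 3 * lam - 2 * κ) / κ := by
    field_simp
    ring
  rw [e3, abs_div, abs_of_pos hκ, div_le_iff₀ hκ]
  have e4 : 11 * η ≤ 28 * η * κ := by nlinarith
  exact abs_le.2 ⟨by linarith, by linarith⟩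

theorem x5_core (M C T0 : ℝ) : ∃ η₀ : ℝ, 0 < η₀ ∧ ∀ {κ lam η b : ℝ} {d : S e3} {u s : E3 → ℝ},
    η ≤ η₀ → 0 < κ → |κ ^ 2 / 2 - 1 / 8| ≤ η → 0 ≤ lam → lam ≤ η → MemLp u 2 volume →
    MemLp s 2 volume → (∀ ξ : S e3, kin d ξ + κ ^ 2 / 2 * ip d ξ = ∫ x, s x * ξ.f x) →
    (∀ᵐ x, 1 ≤ ‖x‖ → |s x - (1 - 3 * lam) / ‖x‖ * d.f x| ≤ C / ‖x‖ ^ 2 * u x) →
    (∀ᵐ x, |d.f x| ≤ u x) →
    (∀ᵐ x, T0 ≤ ‖x‖ → u x ≤ M * ‖x‖ ^ (3 / 2 : ℝ) * Real.exp (-κ * ‖x‖)) → 1 / 2 ≤ |b| →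
    hn (d - b • orb 4) ≤ η → ∀ k0 : ℝ, κ < k0 →
      ¬Integrable fun x => Real.exp (2 * k0 * ‖x‖) * u x ^ 2 := by
  obtain ⟨K, hK, hc⟩ := lb_cut
  obtain ⟨c, hc0, hce⟩ : ∃ c : ℝ, 0 < c ∧ nrm 4 * Real.pi / 3 = c :=
    ⟨_, by have := nrm_pos 4; have := Real.pi_pos; positivity, rfl⟩
  have t1 := ((lb_tail lb_G0).const_mul ((|C| + 5) * |M| * Real.exp 4)).eventually
    (gt_mem_nhds (show (|C| + 5) * |M| * Real.exp 4 * 0 < c / 16 by rw [mul_zero]; positivity))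
  obtain ⟨T, hT1, hT2, hT3⟩ := (t1.and ((tendsto_natCast_atTop_atTop (R := ℝ)).eventually
    ((eventually_ge_atTop (20 : ℝ)).and (eventually_ge_atTop T0)))).exists
  obtain ⟨β₀, h0⟩ := hc T (by linarith)
  obtain ⟨D, hD0, hD⟩ : ∃ D : ℝ, 0 ≤ D ∧ (17 * K * Real.exp ((T : ℝ) + 1)) ^ 2 *
      volume.real (Metric.closedBall (0 : E3) ((T : ℝ) + 1)) = D := ⟨_, by positivity, rfl⟩
  obtain ⟨δ, hδ0, hδ⟩ : ∃ δ : ℝ, 0 < δ ∧ δ * D ≤ c / 16 :=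
    ⟨c / 16 / (D + 1), by positivity, by
      rw [div_mul_eq_mul_div, div_le_iff₀ (by positivity)]
      nlinarith⟩
  refine ⟨min (δ * (c / 16)) (1 / (112 * ((T : ℝ) + 1))), by positivity, ?_⟩
  intro κ lam η b d u s hη hκ p1 l0 l1 _ hs heq e1 e2 e3 hb hd k0 hk hi
  have η0 : 0 ≤ η := l0.trans l1
  have η1 : η ≤ δ * (c / 16) := hη.trans (min_le_left _ _)
  have η2 : η * (112 * ((T : ℝ) + 1)) ≤ 1 :=
    (le_div_iff₀ (by positivity)).1 (hη.trans (min_le_right _ _))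
  have η3 : η ≤ 1 / 112 := by nlinarith
  obtain ⟨q1, q2⟩ := lb_par η3 hκ p1 l0 l1
  obtain ⟨a, ha⟩ : ∃ a : ℝ, 2 + (1 - 3 * lam) / κ = a := ⟨_, rfl⟩
  have hμ : (a - 2) * κ = 1 - 3 * lam := by
    rw [← ha]
    field_simp
    ring
  rw [ha] at q2
  have k1 : κ ≤ 1 := by linarith [(abs_le.1 q1).2]
  have a0 : 15 / 4 ≤ a := by linarith [(abs_le.1 q2).1]
  have a1 : a ≤ 5 := by linarith [(abs_le.1 q2).2]
  have hi2 : Integrable fun x => Real.exp (2 * k0 * ‖x‖) * u x ^ 2 +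
      ‖x‖ ^ 0 * Real.exp (-(2 * (k0 - κ)) * ‖x‖) :=
    hi.add (integrable_pow_exp 0 (c := 2 * (k0 - κ)) (by linarith))
  have t2 := ((lb_tail hi2).const_mul (17 * K)).eventually
    (gt_mem_nhds (show 17 * K * 0 < c / 8 by rw [mul_zero]; positivity))
  obtain ⟨m, hm1, hm2⟩ := (t2.and ((tendsto_natCast_atTop_atTop (R := ℝ)).eventually
    (eventually_ge_atTop (T : ℝ)))).exists
  obtain ⟨β₁, h1⟩ := hc m (by linarith)
  have r1 := lb_ident h0 h1 (by linarith) hm2 hκ.le k1 (by linarith) a1 hμ hs heq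
  have r2 := lb_bulk (M := M) (κ := κ) h0 h1 (by linarith) hm2 a0 a1 e1 e2
    (e3.mono fun x hx h => hx (hT3.trans h))
  have r3 := lb_outer h1 (by linarith) hκ.le k1 (by linarith) a1 e2 hi2
  have r4 := lb_main h0 hT2 q1 q2 (by linarith)
  obtain ⟨g1, g2⟩ := lb4_memN h0 (by linarith) hκ.le k1 (by linarith : 1 ≤ a) a1
  have r5 := lb_rho (d - b • orb 4) g1 hδ0
  have r6 : ∫ x, (d - b • orb 4).f x * (x 2 * lbN κ a β₀ ‖x‖) =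
      (∫ x, d.f x * (x 2 * lbN κ a β₀ ‖x‖)) - b * ∫ x, (orb 4).f x * (x 2 * lbN κ a β₀ ‖x‖) := by
    rw [← integral_const_mul, ← integral_sub (lb_im d.mem g1) ((lb_im (orb 4).mem g1).const_mul b)]
    refine integral_congr_ae (ae_of_all _ fun x => ?_)
    simp only [S.sub_f, S.smul_f]
    ring
  have r7 : δ⁻¹ * hn (d - b • orb 4) ≤ c / 16 := by
    rw [inv_mul_le_iff₀ hδ0]
    exact hd.trans η1
  have r8 := mul_le_mul_of_nonneg_left (g2.trans hD.le) hδ0.le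
  rw [hce] at r4
  have r9 : c / 2 ≤ |b * ∫ x, (orb 4).f x * (x 2 * lbN κ a β₀ ‖x‖)| := by
    rw [abs_mul]
    have : c ≤ |∫ x, (orb 4).f x * (x 2 * lbN κ a β₀ ‖x‖)| := le_abs.2 (Or.inr (by linarith))
    nlinarith
  rw [r6] at r5
  have s2 := abs_le.1 (r2.trans hT1.le)
  have s3 := abs_le.1 (r3.trans hm1.le)
  have s5 := abs_le.1 r5
  have s9 : |b * ∫ x, (orb 4).f x * (x 2 * lbN κ a β₀ ‖x‖)| ≤ 3 * c / 8 :=
    abs_le.2 ⟨by linarith [s2.1, s2.2, s3.1, s3.2, s5.1, s5.2],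
      by linarith [s2.1, s2.2, s3.1, s3.2, s5.1, s5.2]⟩
  linarith

end Vale.Agent.P363
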