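import Vale.Agent.P363.Iface
import Vale.Agent.P363.B.Wt

/-!
# P363 X/Low

X1, lower bound on the shell via the heat kernel.
-/

open MeasureTheory Filter Topology Set
open scoped ContDiff

set_option linter.unusedSectionVars false

noncomputable section

namespace Vale.Agent.P363

theorem GT_orb_ge : ∃ c₀ : ℝ, 0 < c₀ ∧ ∀ t : ℝ, 0 < t → t ≤ 1 / 48 → ∀ x : E3, ‖x‖ ≤ 6 →
    c₀ ≤ GT 0 t (orb 0).f x := by
  have n0 := nrm_pos 0
  have e0 := Real.exp_pos (-6)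
  refine ⟨nrm 0 * Real.exp (-6) * (1 / 2), by positivity, fun t ht ht' x hx => ?_⟩
  obtain ⟨i2, b2⟩ := integral_Gk_normSq ht
  have i1 := integrable_Gk ht
  have i3 : Integrable fun h => Gk t h * (orb 0).f (x - h) := by
    have := ((memLp_Gk ht x).integrable_mul (orb 0).mem).comp_sub_left x
    simpa only [Pi.mul_apply, sub_sub_cancel] using this
  have e : ∫ h, nrm 0 * Real.exp (-6) * (3 / 4 * Gk t h - Gk t h * ‖h‖ ^ 2) =
      nrm 0 * Real.exp (-6) * (3 / 4 - ∫ h, Gk t h * ‖h‖ ^ 2) := by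
    rw [integral_const_mul, integral_sub (i1.const_mul _) i2, integral_const_mul, integral_Gk ht,
      mul_one]
  rw [duh_flip]
  refine le_trans ?_ (e.symm.le.trans (integral_mono
    (((i1.const_mul _).sub i2).const_mul _) i3 fun h => ?_))
  · exact mul_le_mul_of_nonneg_left (by linarith) (by positivity)
  · have g0 := Gk_pos ht h
    have h1 : ‖x - h‖ ≤ 6 + ‖h‖ := (norm_sub_le x h).trans (by linarith)
    have h2 : Real.exp (-6) * (3 / 4 - ‖h‖ ^ 2) ≤ Real.exp (-‖x - h‖) := by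
      calc Real.exp (-6) * (3 / 4 - ‖h‖ ^ 2) ≤ Real.exp (-6) * Real.exp (-‖h‖) := by
            refine mul_le_mul_of_nonneg_left ?_ e0.le
            nlinarith [Real.add_one_le_exp (-‖h‖), sq_nonneg (‖h‖ - 1 / 2)]
        _ = Real.exp (-6 + -‖h‖) := (Real.exp_add _ _).symm
        _ ≤ _ := Real.exp_le_exp.2 (by linarith)
    have h3 := mul_le_mul_of_nonneg_left h2 (mul_pos n0 g0).le
    simp only [orb_f, raw_zero]
    linarith

theorem shell_low (K : ℝ) : ∃ c η₀ : ℝ, 0 < c ∧ 0 < η₀ ∧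
    ∀ {d : S e3} {s : E3 → ℝ} {b η : ℝ}, η ≤ η₀ → MemLp s 2 volume → ∫ x, s x ^ 2 ≤ K →
      (∀ ξ : S e3, kin d ξ = ∫ x, s x * ξ.f x) → 1 / 4 ≤ |b| → hn (d - b • orb 0) ≤ η →
      ∀ᵐ x : E3, ‖x‖ ≤ 6 → c ≤ d.f x ^ 2 := by
  obtain ⟨c₀, hc, hG⟩ := GT_orb_ge
  have k0 := Real.sqrt_nonneg K
  obtain ⟨τ, τ0, τ1, τ2⟩ : ∃ τ : ℝ, 0 < τ ∧ τ ≤ 1 / 4 ∧ τ ≤ c₀ / (64 * (√K + 1)) :=
    ⟨min (1 / 4) (c₀ / (64 * (√K + 1))), by positivity, min_le_left _ _, min_le_right _ _⟩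
  have t0 : 0 < τ ^ 4 := by positivity
  have t1 : τ ^ 4 ≤ 1 / 48 := (pow_le_pow_left₀ τ0.le τ1 4).trans (by norm_num)
  have t2 : (τ ^ 4) ^ (1 / 4 : ℝ) = τ := by
    rw [one_div]
    exact_mod_cast Real.pow_rpow_inv_natCast τ0.le (by norm_num : (4 : ℕ) ≠ 0)
  obtain ⟨A, hA, A0⟩ : ∃ A : ℝ, (τ ^ 4) ^ (-(3 / 4) : ℝ) = A ∧ 0 < A := ⟨_, rfl, by positivity⟩
  refine ⟨(c₀ / 8) ^ 2, (c₀ / 16 / A) ^ 2, by positivity, by positivity,
    fun {d s b η} hη hs hK he hb hd => ?_⟩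
  filter_upwards [duhamel_eq d hs (m := 0) (fun ξ => by simpa using he ξ) t0] with x hx h6
  have b1 := (duh_abs_le hs 0 t0 x).2
  have b2 := GT_abs_le (d - b • orb 0).mem 0 t0 x
  have b3 := hG _ t0 t1 x h6
  rw [abs_zero, zero_mul, Real.exp_zero, mul_one, t2] at b1
  rw [neg_zero, zero_mul, Real.exp_zero, one_mul, hA, ← ip_self] at b2
  have c1 : 4 * τ * √(∫ y, s y ^ 2) ≤ c₀ / 16 := by
    have := Real.sqrt_le_sqrt hK
    rw [le_div_iff₀ (by positivity)] at τ2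
    nlinarith
  have c2 : A * √(ip (d - b • orb 0) (d - b • orb 0)) ≤ c₀ / 16 := by
    have h1 : √(ip (d - b • orb 0) (d - b • orb 0)) ≤ c₀ / 16 / A :=
      Real.sqrt_le_iff.2 ⟨by positivity, (ip_le_hn _).trans (hd.trans hη)⟩
    rwa [le_div_iff₀' A0] at h1
  have e1 : GT 0 (τ ^ 4) d.f x =
      b * GT 0 (τ ^ 4) (orb 0).f x + GT 0 (τ ^ 4) (d - b • orb 0).f x := by
    have e2 : d.f = fun y => (b • orb 0).f y + (d - b • orb 0).f y := by
      funext y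
      simp only [S.sub_f]
      ring
    have e3 : GT 0 (τ ^ 4) (b • orb 0).f x = b * GT 0 (τ ^ 4) (orb 0).f x := by
      simp only [duh_0, S.smul_f, mul_left_comm _ b, integral_const_mul]
    conv_lhs => rw [e2]
    rw [GT_add (b • orb 0).mem (d - b • orb 0).mem 0 t0, e3]
  have c3 : c₀ / 4 ≤ |b * GT 0 (τ ^ 4) (orb 0).f x| := by
    rw [abs_mul, abs_of_nonneg (hc.le.trans b3)]
    nlinarith
  have c4 : c₀ / 8 ≤ |d.f x| := by
    have h1 := abs_le.1 (b1.trans c1)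
    have h2 := abs_le.1 (b2.trans c2)
    rw [hx, e1]
    rcases le_abs.1 c3 with h | h
    · exact le_abs.2 (Or.inl (by linarith [h1.1, h2.1]))
    · exact le_abs.2 (Or.inr (by linarith [h1.2, h2.2]))
  rw [← sq_abs (d.f x)]
  exact pow_le_pow_left₀ (by positivity) c4 2

end Vale.Agent.P363
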