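import Vale.Agent.P363.X.Ker

/-!
# P363 X/Dys  (TASK, sub-lead helper85)

X3, the Dyson function `d = (slotFib 0 ψ).pr Φ.mem`, `d.f = pair 0 ψ.f Φ.f`.  `x3`: `dys_eq` with `U = UN R lam`, `UN_ins`; `s x = -(VR R x * d x + lam * ∫ Y, Wx x Y * ψ(x,Y) * Φ Y)` for almost every `x`
(`ψ(x,·)` is in `L²` with squared norm `rho 0 ψ.f x`, `Fib.mem_ae`), Cauchy-Schwarz with `KerB`, and `|VR R x + 1/‖x‖| ≤ 1/‖x‖²` for `R ≤ 1/2`, `‖x‖ ≥ 1`.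
`dys_odd`: substitute `Y ↦ rf 2 ∘ Y` (`exists_sym_rfN`, `Sym.integral`), `ev 2` through `ae_ins`, `oΦ`.  `dys_le`: `pr_sq_le`.
-/

open MeasureTheory Filter Topology Set
open scoped ContDiff

set_option linter.unusedSectionVars false

noncomputable section

namespace Vale.Agent.P363

variable {R lam c C η : ℝ} {ψ : S (eN 4)} {Φ : S (eN 3)} {E₄ E₃ g : ℝ}

theorem xdys_inv {x v : E3} (hx : 1 ≤ ‖x‖) (hv : ‖v‖ ≤ 1 / 2) :
    |1 / ‖x‖ - 1 / ‖x - v‖| ≤ 1 / ‖x‖ ^ 2 := by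
  have a1 : |‖x - v‖ - ‖x‖| ≤ 1 / 2 := by
    refine (abs_norm_sub_norm_le _ _).trans ?_
    rwa [sub_sub_cancel_left, norm_neg]
  have a2 := abs_le.1 a1
  have x0 : 0 < ‖x‖ := by linarith
  have y0 : 0 < ‖x - v‖ := by linarith
  rw [div_sub_div _ _ x0.ne' y0.ne', one_mul, mul_one, abs_div, abs_of_pos (mul_pos x0 y0),
    div_le_div_iff₀ (mul_pos x0 y0) (by positivity)]
  have a3 := mul_le_mul_of_nonneg_right a1 (sq_nonneg ‖x‖)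
  nlinarith

theorem xdys_VR {R : ℝ} (h0 : 0 ≤ R) (h1 : R ≤ 1 / 2) {x : E3} (hx : 1 ≤ ‖x‖) :
    |VR R x + 1 / ‖x‖| ≤ 1 / ‖x‖ ^ 2 := by
  have n1 : ‖R • e3 2‖ ≤ 1 / 2 := by
    rwa [norm_smul, norm_e3, mul_one, Real.norm_of_nonneg h0]
  have a1 := abs_le.1 (xdys_inv hx n1)
  have a2 := abs_le.1 (xdys_inv hx (v := -(R • e3 2)) (by rwa [norm_neg]))
  rw [hd_VR, abs_le]
  constructor <;> linarith [a1.1, a1.2, a2.1, a2.2]

theorem dys_le (h : Exact R lam c C η ψ Φ E₄ E₃ g) :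
    ∀ᵐ x, |((slotFib 0 ψ).pr Φ.mem).f x| ≤ √(rho 0 ψ.f x) := by
  filter_upwards [(slotFib 0 ψ).pr_sq_le Φ.mem] with x hx
  rw [← ip_self, h.nΦ, mul_one, slotFib_n] at hx
  exact Real.abs_le_sqrt hx

theorem dys_odd (h : Exact R lam c C η ψ Φ E₄ E₃ g) :
    ∀ᵐ x, ((slotFib 0 ψ).pr Φ.mem).f (rf 2 x) = -((slotFib 0 ψ).pr Φ.mem).f x := by
  obtain ⟨T, hT⟩ := exists_sym_rfN 3 2
  filter_upwards [(ae_ins 0 (h.ev 2)).1] with x hx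
  rw [slotFib_pr, pair, pair, ← hT.integral, ← integral_neg]
  refine integral_congr_ae ?_
  filter_upwards [hx, h.oΦ] with Y h1 h2
  have e : (Fin.insertNth 0 (rf 2 x) (fun i => rf 2 (Y i)) : Cfg 4) =
      fun i => rf 2 ((Fin.insertNth 0 x Y : Cfg 4) i) := by
    rw [Fin.insertNth_eq_iff]
    refine ⟨by simp, ?_⟩
    funext j
    simp [Fin.removeNth]
  rw [e, h1, h2, mul_neg]

theorem x3 (h : Exact R lam c C η ψ Φ E₄ E₃ g) (hη : η ≤ 1 / 2) {K : ℝ} (hK : 0 ≤ K)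
    (hΦ : KerB K Φ) : ∃ s : E3 → ℝ, MemLp s 2 volume ∧
      (∀ ξ : S e3, kin ((slotFib 0 ψ).pr Φ.mem) ξ + (E₃ - E₄) * ip ((slotFib 0 ψ).pr Φ.mem) ξ =
        ∫ x, s x * ξ.f x) ∧
      ∀ᵐ x : E3, 1 ≤ ‖x‖ → |s x - (1 - 3 * lam) / ‖x‖ * ((slotFib 0 ψ).pr Φ.mem).f x| ≤
        (K + 2) / ‖x‖ ^ 2 * √(rho 0 ψ.f x) := by
  have e0 : ∀ X : Cfg 4, UN R lam X - UN R lam (Fin.removeNth 0 X) =
      VR R (X 0) + lam * Wx (X 0) (Fin.removeNth 0 X) := fun X => by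
    rw [UN_ins R lam 0 X]
    ring
  have hW : MemLp (fun X : Cfg 4 => (UN R lam X - UN R lam (Fin.removeNth 0 X)) * ψ.f X) 2
      volume := by
    simp only [e0, add_mul, mul_assoc]
    exact (memLp_VR_slot R 0 ψ).1.add ((memLp_Wx 0 ψ).const_mul lam)
  refine ⟨fun x => -pair 0 (fun X => (UN R lam X - UN R lam (Fin.removeNth 0 X)) * ψ.f X) Φ.f x,
    (pair_memLp 0 hW Φ.mem).1.neg, dys_eq (fb_UN R lam) (fb_UN R lam) 0 h.eψ h.eΦ hW, ?_⟩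
  filter_upwards [(slotFib 0 ψ).mem_ae, dys_le h] with x hx hd h1
  have m1 : MemLp (fun Y : Cfg 3 => ψ.f (Fin.insertNth 0 x Y)) 2 volume := hx.1
  obtain ⟨m2, b2⟩ := hΦ x h1
  have i1 : Integrable fun Y : Cfg 3 => ψ.f (Fin.insertNth 0 x Y) * Φ.f Y :=
    m1.integrable_mul Φ.mem
  have i2 : Integrable fun Y : Cfg 3 =>
      ψ.f (Fin.insertNth 0 x Y) * ((Wx x Y - 3 / ‖x‖) * Φ.f Y) := m1.integrable_mul m2
  set d := ((slotFib 0 ψ).pr Φ.mem).f x with hdd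
  set J := ∫ Y : Cfg 3, ψ.f (Fin.insertNth 0 x Y) * ((Wx x Y - 3 / ‖x‖) * Φ.f Y) with hJ
  have e1 : pair 0 (fun X => (UN R lam X - UN R lam (Fin.removeNth 0 X)) * ψ.f X) Φ.f x =
      (VR R x + lam * (3 / ‖x‖)) * d + lam * J := by
    have e2 : d = ∫ Y : Cfg 3, ψ.f (Fin.insertNth 0 x Y) * Φ.f Y := rfl
    rw [e2, hJ, ← integral_const_mul, ← integral_const_mul,
      ← integral_add (i1.const_mul _) (i2.const_mul _), pair]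
    refine integral_congr_ae (Eventually.of_forall fun Y => ?_)
    beta_reduce
    rw [e0, Fin.insertNth_apply_same, Fin.removeNth_insertNth]
    ring
  have x0 : 0 < ‖x‖ := by linarith
  have b1 : |J| ≤ K / ‖x‖ ^ 2 * √(rho 0 ψ.f x) := by
    have r0 : 0 ≤ rho 0 ψ.f x := integral_nonneg fun _ => sq_nonneg _
    refine abs_le_of_sq_le_sq' ?_ (by positivity) |> abs_le.2
    rw [mul_pow, Real.sq_sqrt r0, mul_comm]
    exact (pauli_cs m1 m2).trans (mul_le_mul_of_nonneg_left b2 r0)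
  have b3 : |(VR R x + 1 / ‖x‖) * d| ≤ 1 / ‖x‖ ^ 2 * √(rho 0 ψ.f x) := by
    rw [abs_mul]
    exact mul_le_mul (xdys_VR h.R_pos.le (h.R_le.trans hη) h1) hd (abs_nonneg _) (by positivity)
  have b4 : |lam * J| ≤ K / ‖x‖ ^ 2 * √(rho 0 ψ.f x) := by
    rw [abs_mul, abs_of_pos h.lam_pos]
    refine le_trans (mul_le_of_le_one_left (abs_nonneg _) ?_) b1
    linarith [h.lam_le]
  have e3' : -((VR R x + lam * (3 / ‖x‖)) * d + lam * J) - (1 - 3 * lam) / ‖x‖ * d =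
      -((VR R x + 1 / ‖x‖) * d + lam * J) := by ring
  rw [e1, e3', abs_neg]
  refine (abs_add_le _ _).trans ((add_le_add b3 b4).trans ?_)
  have b5 : 0 ≤ 1 / ‖x‖ ^ 2 * √(rho 0 ψ.f x) := by positivity
  have e4 : (K + 2) / ‖x‖ ^ 2 * √(rho 0 ψ.f x) = 1 / ‖x‖ ^ 2 * √(rho 0 ψ.f x) +
      K / ‖x‖ ^ 2 * √(rho 0 ψ.f x) + 1 / ‖x‖ ^ 2 * √(rho 0 ψ.f x) := by ring
  linarith

end Vale.Agent.P363
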