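import Vale.Agent.P363.X.Q0
import Vale.Agent.P363.X.Dys

/-!
# P363 X/Q1

X4, the tested inequality.  `P = tens 0 d Φ`, `Q = ψ - P`, `b = ζ² (X 0) Q` (`exists_mul1Slot` with `Mul1.mul`).  `qf UN ψ b = qf UN Q b + qf UN P b`, `qf_split` for both.  The pairing of `b` with `Φ` vanishes (`q_orth`), so
`kinI_tens`, `pot_tens`, `ip_tens` give zero; the slices of `P` are `d x • Φ`, those of `b` are `ζ x ^ 2 • rsl 0 Q x`, orthogonal to `Φ` and `Anti 1 2` (`anti_rsl`, `aΦ`): `eΦ`, `gap`.  The `Wx` term of `Q` is nonnegative,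
that of `P` is `∫ ζ² d ∫ (Wx x Y - 3/‖x‖) Φ Q(x,·)`, bounded by `KerB` and Cauchy-Schwarz, `|d| √(ρ - d²) ≤ ρ`.  `VR R x ≥ -2/T` where `ζ ≠ 0`.
-/

open MeasureTheory Filter Topology Set
open scoped ContDiff

set_option linter.unusedSectionVars false

noncomputable section

namespace Vale.Agent.P363

variable {R lam c C η : ℝ} {ψ : S (eN 4)} {Φ : S (eN 3)} {E₄ E₃ g : ℝ}

theorem xq1_VR {R T : ℝ} (h0 : 0 ≤ R) (h1 : R ≤ 1 / 2) (hT : 1 ≤ T) {x : E3} (hx : T ≤ ‖x‖) :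
    -(2 / T) ≤ VR R x := by
  have hn : ‖R • e3 2‖ = R := by rw [norm_smul, norm_e3, mul_one, Real.norm_of_nonneg h0]
  have a1 : T / 2 ≤ ‖x - R • e3 2‖ := by linarith [norm_sub_norm_le x (R • e3 2)]
  have a2 : T / 2 ≤ ‖x + R • e3 2‖ := by
    have := norm_sub_norm_le x (-(R • e3 2))
    rw [sub_neg_eq_add, norm_neg] at this
    linarith
  have b1 : 1 / 2 / ‖x - R • e3 2‖ ≤ 1 / 2 / (T / 2) :=
    div_le_div_of_nonneg_left (by norm_num) (by linarith) a1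
  have b2 : 1 / 2 / ‖x + R • e3 2‖ ≤ 1 / 2 / (T / 2) :=
    div_le_div_of_nonneg_left (by norm_num) (by linarith) a2
  have e : 1 / 2 / (T / 2) = 1 / T := by field_simp
  have e' : 2 / T = 1 / T + 1 / T := by ring
  rw [VR]
  linarith

theorem xq1_ker {K : ℝ} (hK : 0 ≤ K) (hΦ : KerB K Φ) {x : E3} (hx : 1 ≤ ‖x‖) (q : S (eN 3))
    (hq : ip Φ q = 0) : |∫ Y, Wx x Y * Φ.f Y * q.f Y| ≤ K / ‖x‖ ^ 2 * √(ip q q) := by
  obtain ⟨h1, h2⟩ := hΦ x hx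
  have i1 : Integrable fun Y => (Wx x Y - 3 / ‖x‖) * Φ.f Y * q.f Y := h1.integrable_mul q.mem
  have e : ∫ Y, Wx x Y * Φ.f Y * q.f Y = ∫ Y, (Wx x Y - 3 / ‖x‖) * Φ.f Y * q.f Y := by
    have : ∫ Y, Wx x Y * Φ.f Y * q.f Y =
        ∫ Y, ((Wx x Y - 3 / ‖x‖) * Φ.f Y * q.f Y + 3 / ‖x‖ * (Φ.f Y * q.f Y)) :=
      integral_congr_ae (Eventually.of_forall fun Y => by ring)
    rw [this, integral_add i1 ((Φ.int_mul q).const_mul _), integral_const_mul]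
    change _ + 3 / ‖x‖ * ip Φ q = _
    rw [hq, mul_zero, add_zero]
  rw [e]
  have h3 := xsplit_cs h1 q.mem
  rw [← ip_self] at h3
  refine abs_le_of_sq_le_sq ?_ (by positivity)
  rw [mul_pow, Real.sq_sqrt (ip_nonneg q)]
  exact h3.trans (mul_le_mul_of_nonneg_right h2 (ip_nonneg q))

theorem xq1_cross {K T : ℝ} (hK : 0 ≤ K) (hΦ : KerB K Φ) (hT : 1 ≤ T) {ζ : E3 → ℝ}
    (hz : ∀ x, ‖x‖ < T → ζ x = 0) {Q b : S (eN 4)} {d : S e3}
    (hb : ∀ X, b.f X = ζ (X 0) * ζ (X 0) * Q.f X)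
    (iρ : Integrable fun x => ζ x ^ 2 * rho 0 ψ.f x)
    (hq : ∀ᵐ x : E3, ip Φ (rsl 0 Q x) = 0 ∧ rho 0 Q.f x = rho 0 ψ.f x - d.f x ^ 2)
    (hdl : ∀ᵐ x, |d.f x| ≤ √(rho 0 ψ.f x)) :
    -(K / T * ∫ x, ζ x ^ 2 * rho 0 ψ.f x) ≤
      pot (fun X => Wx (X 0) (Fin.removeNth 0 X)) (tens 0 d Φ) b := by
  have hKT : 0 ≤ K / T := by positivity
  obtain ⟨j1, -, -, -, j2, -⟩ := integral_ins 0 ((fb_Wx 0).int (tens 0 d Φ) b)
  rw [pot, j2, ← integral_const_mul, ← integral_neg]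
  refine integral_mono_ae (iρ.const_mul _).neg j1 ?_
  filter_upwards [hq, ip_rsl_self 0 Q, rsl_ae 0 Q, hdl] with x h1 h2 h3 h4
  simp only [tens_f, hb, Fin.insertNth_apply_same, Fin.removeNth_insertNth, ← h3.1]
  have e : ∫ Y : Cfg 3, Wx x Y * (d.f x * Φ.f Y * (ζ x * ζ x * (rsl 0 Q x).f Y)) =
      ζ x ^ 2 * (d.f x * ∫ Y : Cfg 3, Wx x Y * Φ.f Y * (rsl 0 Q x).f Y) := by
    rw [← integral_const_mul, ← integral_const_mul]
    exact integral_congr_ae (Eventually.of_forall fun Y => by ring)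
  rw [e]
  by_cases hx : ‖x‖ < T
  · rw [hz _ hx]; simp
  · have hx' := not_lt.1 hx
    have k1 := xq1_ker hK hΦ (hT.trans hx') _ h1.1
    rw [h2] at k1
    have hρ0 : 0 ≤ rho 0 ψ.f x := integral_nonneg fun _ => sq_nonneg _
    have k2 : √(rho 0 Q.f x) ≤ √(rho 0 ψ.f x) :=
      Real.sqrt_le_sqrt (by rw [h1.2]; linarith [sq_nonneg (d.f x)])
    have k3 : K / ‖x‖ ^ 2 ≤ K / T :=
      div_le_div_of_nonneg_left hK (by linarith) (by nlinarith)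
    have k4 : |d.f x * ∫ Y : Cfg 3, Wx x Y * Φ.f Y * (rsl 0 Q x).f Y| ≤ K / T * rho 0 ψ.f x := by
      rw [abs_mul]
      calc _ ≤ √(rho 0 ψ.f x) * (K / T * √(rho 0 ψ.f x)) :=
            mul_le_mul h4 (k1.trans (mul_le_mul k3 k2 (Real.sqrt_nonneg _) hKT)) (abs_nonneg _)
              (Real.sqrt_nonneg _)
        _ = K / T * (√(rho 0 ψ.f x) * √(rho 0 ψ.f x)) := by ring
        _ = _ := by rw [Real.mul_self_sqrt hρ0]
    nlinarith [mul_le_mul_of_nonneg_left (abs_le.1 k4).1 (sq_nonneg (ζ x))]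

theorem x4_test (h : Exact R lam c C η ψ Φ E₄ E₃ g) (hη : η ≤ 1 / 2) {K : ℝ} (hK : 0 ≤ K)
    (hΦ : KerB K Φ) {ζ : E3 → ℝ} (hζ : Mul1 ζ) {T : ℝ} (hT : 1 ≤ T) (hz : ∀ x, ‖x‖ < T → ζ x = 0) :
    (E₃ - E₄ + g - 2 / T) * ∫ x, ζ x ^ 2 * (rho 0 ψ.f x - ((slotFib 0 ψ).pr Φ.mem).f x ^ 2) ≤
      1 / 2 * (∫ x, ‖fderiv ℝ ζ x‖ ^ 2 * (rho 0 ψ.f x - ((slotFib 0 ψ).pr Φ.mem).f x ^ 2)) +
        K / T * ∫ x, ζ x ^ 2 * rho 0 ψ.f x := by
  have hq := q_orth 0 ψ h.nΦ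
  have hdl := dys_le h
  obtain ⟨d, hd⟩ : ∃ d, d = (slotFib 0 ψ).pr Φ.mem := ⟨_, rfl⟩
  rw [← hd] at hq hdl ⊢
  obtain ⟨Q, hQ⟩ : ∃ Q, Q = ψ - tens 0 d Φ := ⟨_, rfl⟩
  rw [← hQ] at hq
  have hψ : ψ = Q + tens 0 d Φ := by rw [hQ, sub_add_cancel]
  have hQf : ∀ X, Q.f X = ψ.f X - d.f (X 0) * Φ.f (Fin.removeNth 0 X) := fun X => by
    rw [hQ, S.sub_f, tens_f]
  obtain ⟨b, hb, hbg, -⟩ := exists_mul1Slot 0 Q (hζ.mul hζ)
  obtain ⟨Cz, hCz⟩ := hζ.2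
  have hζc : Continuous ζ := hζ.1.continuous
  have hζb : ∀ x, ‖ζ x ^ 2‖ ≤ Cz ^ 2 := fun x => by
    rw [Real.norm_of_nonneg (sq_nonneg _), ← sq_abs]
    exact pow_le_pow_left₀ (abs_nonneg _) (hCz x).1 2
  have hsb : ∀ᵐ x : E3, (rsl 0 b x).f =ᵐ[volume] ((ζ x * ζ x) • rsl 0 Q x).f := by
    filter_upwards [rsl_ae 0 b, rsl_ae 0 Q] with x h1 h2
    refine Eventually.of_forall fun Y => ?_
    rw [h1.1, hb, S.smul_f, h2.1, Fin.insertNth_apply_same]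
  have hob : ∀ᵐ x : E3, ip Φ (rsl 0 b x) = 0 := by
    filter_upwards [hsb, hq] with x h1 h2
    rw [bil_ip.symm, ip_congr h1, bil_ip.smul, bil_ip.symm, h2.1, mul_zero]
  have hpb : ((slotFib 0 b).pr Φ.mem).f =ᵐ[volume] (0 : S e3).f := by
    filter_upwards [hob, ip_rsl_pr 0 b Φ] with x h1 h2
    rw [← h2, h1, S.zero_f]
  have p1 : ip (tens 0 d Φ) b = 0 := by
    rw [ip_tens, bil_ip.symm, ip_congr hpb, bil_ip.zero_left]
  have p2 : kinI 0 (tens 0 d Φ) b = 0 := by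
    rw [kinI_tens, bil_kin.symm, kin_congr hpb, bil_kin.zero_left]
  have p3 : pot (fun X => VR R (X 0)) (tens 0 d Φ) b = 0 := by
    rw [pot_tens (fb_VR R), (fb_VR R).bil_pot.symm, pot_congr _ hpb, (fb_VR R).bil_pot.zero_left]
  have p4 : ∫ x, qf (UN R lam) (rsl 0 (tens 0 d Φ) x) (rsl 0 b x) = 0 := by
    refine integral_eq_zero_of_ae ?_
    filter_upwards [rsl_tens 0 d Φ, hob] with x h1 h2
    rw [qf_congr _ h1, (fb_UN R lam).bil_qf.smul, h.eΦ, h2, mul_zero, mul_zero, Pi.zero_apply]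
  have iQ : Integrable fun X : Cfg 4 => ζ (X 0) ^ 2 * Q.f X ^ 2 :=
    Q.int_sq.bdd_mul (c := Cz ^ 2) ((hζc.comp (continuous_apply 0)).pow 2).aestronglyMeasurable
      (Eventually.of_forall fun X => hζb _)
  obtain ⟨iy, ey⟩ := integral_slot 0 Q (w := fun x => ζ x ^ 2) iQ
  have q1 : ip Q b = ∫ x, ζ x ^ 2 * rho 0 Q.f x := by
    rw [← ey, ip]
    exact integral_congr_ae (Eventually.of_forall fun X => by simp only [hb]; ring)
  have q2 := kinI_mul_ge 0 Q b hζ hbg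
  have q3 : -(2 / T) * ∫ x, ζ x ^ 2 * rho 0 Q.f x ≤ pot (fun X => VR R (X 0)) Q b := by
    rw [← ey, ← integral_const_mul]
    refine integral_mono (iQ.const_mul _) (((fb_VR R).slot 0).int Q b) fun X => ?_
    beta_reduce
    rw [hb]
    by_cases hx : ‖X 0‖ < T
    · rw [hz _ hx]; simp
    · have := xq1_VR h.R_pos.le (h.R_le.trans hη) hT (not_lt.1 hx)
      have e : VR R (X 0) * (Q.f X * (ζ (X 0) * ζ (X 0) * Q.f X)) =
          VR R (X 0) * (ζ (X 0) ^ 2 * Q.f X ^ 2) := by ring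
      rw [e]
      exact mul_le_mul_of_nonneg_right this (by positivity)
  have q4 : 0 ≤ pot (fun X => Wx (X 0) (Fin.removeNth 0 X)) Q b := by
    refine integral_nonneg fun X => mul_nonneg (Wx_nonneg _ _) ?_
    rw [hb]
    nlinarith [sq_nonneg (ζ (X 0) * Q.f X)]
  obtain ⟨iq, sQ⟩ := qf_split R lam 0 Q b
  have ha : Anti ((0 : Fin 4).succAbove 1) ((0 : Fin 4).succAbove 2) ψ.f := h.a23
  have hQs : ∀ᵐ x : E3, ∀ Y, (rsl 0 Q x).f Y = ψ.f (Fin.insertNth 0 x Y) - d.f x * Φ.f Y := by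
    filter_upwards [rsl_ae 0 Q] with x hx Y
    rw [hx.1, hQf, Fin.insertNth_apply_same, Fin.removeNth_insertNth]
  have q5 : (E₃ + g) * ∫ x, ζ x ^ 2 * rho 0 Q.f x ≤ ∫ x, qf (UN R lam) (rsl 0 Q x) (rsl 0 b x) := by
    rw [← integral_const_mul]
    refine integral_mono_ae (iy.const_mul _) iq ?_
    filter_upwards [hsb, hq, ip_rsl_self 0 Q, hQs, ha.slice 0] with x h1 h2 h3 h4 h5
    have hA : Anti 1 2 (rsl 0 Q x).f := by
      filter_upwards [h5, h.aΦ] with Y y1 y2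
      rw [h4, h4, y1, y2]
      ring
    have hg := h.gap _ hA
    rw [h2.1, h3] at hg
    rw [qf_congr' _ _ h1, (fb_UN R lam).bil_qf.smul_right]
    nlinarith [mul_le_mul_of_nonneg_left hg (mul_self_nonneg (ζ x))]
  have iρ : Integrable fun x => ζ x ^ 2 * rho 0 ψ.f x :=
    (slotFib 0 ψ).int_n.bdd_mul (c := Cz ^ 2) (hζc.pow 2).aestronglyMeasurable
      (Eventually.of_forall hζb)
  have hKT : 0 ≤ K / T := by positivity
  have p5 := xq1_cross hK hΦ hT hz hb iρ hq hdl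
  have sP := (qf_split R lam 0 (tens 0 d Φ) b).2
  have he := h.eψ b
  rw [hψ, (fb_UN R lam).bil_qf.add, bil_ip.add, p1, q1, sQ, sP, p2, p3, p4] at he
  have e1 : ∫ x, ζ x ^ 2 * (rho 0 ψ.f x - d.f x ^ 2) = ∫ x, ζ x ^ 2 * rho 0 Q.f x :=
    integral_congr_ae (hq.mono fun x hx => by simp only [hx.2])
  have e2 : ∫ x, ‖fderiv ℝ ζ x‖ ^ 2 * (rho 0 ψ.f x - d.f x ^ 2) =
      ∫ x, ‖fderiv ℝ ζ x‖ ^ 2 * rho 0 Q.f x :=
    integral_congr_ae (hq.mono fun x hx => by simp only [hx.2])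
  rw [e1, e2]
  have hI : 0 ≤ K / T * ∫ x, ζ x ^ 2 * rho 0 ψ.f x :=
    mul_nonneg hKT (integral_nonneg fun x => mul_nonneg (sq_nonneg _)
      (integral_nonneg fun _ => sq_nonneg _))
  have l1 := mul_nonneg h.lam_pos.le q4
  have l2 := mul_le_mul_of_nonneg_left p5 h.lam_pos.le
  have l3 := mul_le_mul_of_nonneg_right (show lam ≤ 1 by linarith [h.lam_le]) hI
  linarith

end Vale.Agent.P363
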