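import Vale.Agent.P363.Iface
import Vale.Agent.P363.B.Wt

/-!
# P363 X/Q2  (TASK, sub-lead helper85)

X4, real analysis.  `γ = m - k²/2 > 0`, `E x = e^{-k jb (x - p)}` (`mul1_exp_jb`), `ζ = (1 - β ‖x‖) E` with `β` switching on `[T, T + 1]` (`exists_cut`, constant `K₀`).
`‖∇ζ‖ ≤ k ζ + K₀ E 1_{‖x‖ ≤ T+1}`, so `‖∇ζ‖² ≤ (1 + δ) k² ζ² + (1 + 1/δ) K₀² E² 1_{‖x‖ ≤ T+1}`; `δ k²/2 ≤ γ/4`, `2/T ≤ γ/4`, `2 K/(γ T) ≤ ε`.
`E² ≤ ζ² + E² 1_{‖x‖ ≤ T+1}`, `ζ² ≤ E²`, and `E x ≤ e^{k (T + 1)} e^{-k ‖p‖}` for `‖x‖ ≤ T + 1` (`norm_le_jb`).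
-/

open MeasureTheory Filter Topology Set
open scoped ContDiff

set_option linter.unusedSectionVars false

noncomputable section

namespace Vale.Agent.P363

theorem xQ2_int {f w : E3 → ℝ} (hf : Integrable f) (hw : Continuous w) {C : ℝ}
    (h : ∀ x, |w x| ≤ C) : Integrable fun x => w x ^ 2 * f x :=
  hf.bdd_mul (c := C ^ 2) (hw.pow 2).aestronglyMeasurable (Eventually.of_forall fun x => by
    rw [Real.norm_eq_abs, abs_pow]
    exact pow_le_pow_left₀ (abs_nonneg _) (h x) 2)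

theorem xQ2_wn {f : E3 → ℝ} (h : ∀ᵐ x, 0 ≤ f x) (k : ℝ) (p : E3) :
    wn k (fun x => √(f x)) p = ∫ x, Real.exp (-k * jb (x - p)) ^ 2 * f x :=
  integral_congr_ae (h.mono fun x hx => by simp only [mul_pow, Real.sq_sqrt hx])

theorem xQ2_cut {k : ℝ} (hk : 0 < k) : ∃ M : ℝ, ∀ T : ℝ, 1 ≤ T → ∀ p : E3, ∃ ζ : E3 → ℝ, Mul1 ζ ∧
    (∀ x, ‖x‖ < T → ζ x = 0) ∧ ∀ x, ζ x ^ 2 ≤ Real.exp (-k * jb (x - p)) ^ 2 ∧
      Real.exp (-k * jb (x - p)) ^ 2 ≤ ζ x ^ 2 + Real.exp (k * (T + 1) - k * ‖p‖) ^ 2 ∧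
      ‖fderiv ℝ ζ x‖ ^ 2 ≤ k ^ 2 * ζ x ^ 2 + M ^ 2 * Real.exp (k * (T + 1) - k * ‖p‖) ^ 2 := by
  obtain ⟨K, hK, H⟩ := exists_cut
  refine ⟨k + K, fun T hT p => ?_⟩
  obtain ⟨β, -, -, b1, b2, b3, -, -, -, b4, -, b5, -⟩ := H T (T + 1) (by linarith) (lt_add_one T)
  obtain ⟨e1, e2⟩ := mul1_exp_jb hk.le p
  simp only [add_sub_cancel_left, div_one] at b5
  have m1 : Mul1 fun x : E3 => 1 - β ‖x‖ :=
    ⟨contDiff_const.sub (b4.of_le (by simp)), 1 + K, fun x => ⟨by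
      rw [abs_of_nonneg (by linarith [(b1 ‖x‖).2])]
      linarith [(b1 ‖x‖).1], by rw [fderiv_const_sub, norm_neg]; linarith [b5 x]⟩⟩
  refine ⟨_, m1.mul e1, fun x hx => by rw [b2 _ hx.le, sub_self, zero_mul], fun x => ?_⟩
  have c1 := b1 ‖x‖
  have c2 := e2 x
  have hD := Real.exp_pos (k * (T + 1) - k * ‖p‖)
  have hE := Real.exp_pos (-k * jb (x - p))
  have c3 : (1 - β ‖x‖) * Real.exp (-k * jb (x - p)) ≤ Real.exp (-k * jb (x - p)) := by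
    nlinarith [c1.1]
  refine ⟨pow_le_pow_left₀ (mul_nonneg (by linarith [c1.2]) hE.le) c3 2, ?_⟩
  rcases le_or_gt ‖x‖ (T + 1) with h | h
  · have c4 : Real.exp (-k * jb (x - p)) ≤ Real.exp (k * (T + 1) - k * ‖p‖) := by
      have := norm_le_jb (x - p)
      have := norm_sub_norm_le p x
      rw [norm_sub_rev] at this
      exact Real.exp_le_exp.2 (by nlinarith)
    refine ⟨le_add_of_nonneg_of_le (sq_nonneg _) (pow_le_pow_left₀ hE.le c4 2),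
      le_add_of_nonneg_of_le (by positivity) ?_⟩
    rw [← mul_pow]
    refine pow_le_pow_left₀ (norm_nonneg _) ?_ 2
    rw [fderiv_fun_mul (m1.1.differentiable one_ne_zero x) (e1.1.differentiable one_ne_zero x),
      fderiv_const_sub]
    refine (norm_add_le _ _).trans ?_
    rw [norm_smul, norm_smul, norm_neg, Real.norm_of_nonneg hE.le,
      Real.norm_of_nonneg (by linarith [c1.2])]
    have c5 := mul_le_mul (show 1 - β ‖x‖ ≤ 1 by linarith [c1.1]) c2 (norm_nonneg _) zero_le_one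
    have c6 := mul_le_mul_of_nonneg_left (b5 x) hE.le
    nlinarith
  · have c4 : (fun y : E3 => (1 - β ‖y‖) * Real.exp (-k * jb (y - p))) =ᶠ[𝓝 x]
        fun y => Real.exp (-k * jb (y - p)) := by
      filter_upwards [(isOpen_lt continuous_const continuous_norm).mem_nhds h] with y hy
      rw [b3 _ (le_of_lt hy), sub_zero, one_mul]
    rw [c4.fderiv_eq, b3 _ h.le, sub_zero, one_mul, ← mul_pow]
    exact ⟨le_add_of_nonneg_right (sq_nonneg _),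
      le_add_of_le_of_nonneg (pow_le_pow_left₀ (norm_nonneg _) c2 2) (by positivity)⟩

theorem x4_wn {ρ y : E3 → ℝ} {m K k : ℝ} (hk : 0 < k) (hm : k ^ 2 / 2 < m) (hK : 0 ≤ K)
    (hρ : Integrable ρ) (hy : AEStronglyMeasurable y volume) (h0 : ∀ᵐ x, 0 ≤ y x ∧ y x ≤ ρ x)
    (ht : ∀ ζ : E3 → ℝ, Mul1 ζ → ∀ T : ℝ, 1 ≤ T → (∀ x, ‖x‖ < T → ζ x = 0) →
      (m - 2 / T) * ∫ x, ζ x ^ 2 * y x ≤
        1 / 2 * (∫ x, ‖fderiv ℝ ζ x‖ ^ 2 * y x) + K / T * ∫ x, ζ x ^ 2 * ρ x)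
    {ε : ℝ} (hε : 0 < ε) : ∃ Cε : ℝ, ∀ p : E3, wn k (fun x => √(y x)) p ≤
      ε * wn k (fun x => √(ρ x)) p + Cε * Real.exp (-2 * k * ‖p‖) := by
  obtain ⟨M, hM⟩ := xQ2_cut hk
  obtain ⟨γ, hγ, rfl⟩ : ∃ γ, 0 < γ ∧ m = k ^ 2 / 2 + γ := ⟨m - k ^ 2 / 2, by linarith, by ring⟩
  obtain ⟨T, T1, T2, T3⟩ : ∃ T : ℝ, 1 ≤ T ∧ 2 / T ≤ γ / 2 ∧ K / T ≤ γ / 2 * ε := by
    have a1 : 0 < 4 / γ := by positivity
    have a2 : 0 ≤ K / (γ / 2 * ε) := by positivity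
    refine ⟨1 + 4 / γ + K / (γ / 2 * ε), by linarith, ?_, ?_⟩
    · rw [div_le_iff₀ (by positivity)]
      have : γ / 2 * (4 / γ) = 2 := by field_simp; norm_num
      nlinarith [mul_nonneg hγ.le a2]
    · rw [div_le_iff₀ (by positivity)]
      have : γ / 2 * ε * (K / (γ / 2 * ε)) = K := by field_simp
      nlinarith [mul_pos (mul_pos hγ hε) a1, mul_pos hγ hε]
  have hyi : Integrable y := hρ.mono' hy (h0.mono fun x hx => by
    rw [Real.norm_of_nonneg hx.1]; exact hx.2)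
  have y0 : ∀ᵐ x, 0 ≤ y x := h0.mono fun x hx => hx.1
  have r0 : ∀ᵐ x, 0 ≤ ρ x := h0.mono fun x hx => hx.1.trans hx.2
  refine ⟨(1 + M ^ 2 / γ) * (∫ x, y x) * Real.exp (2 * k * (T + 1)), fun p => ?_⟩
  obtain ⟨ζ, ⟨z1, C, z2⟩, z3, z4⟩ := hM T T1 p
  obtain ⟨⟨e1, C', e2⟩, -⟩ := mul1_exp_jb hk.le p
  have key := ht ζ ⟨z1, C, z2⟩ T T1 z3
  have eD : Real.exp (2 * k * (T + 1)) * Real.exp (-2 * k * ‖p‖) =
      Real.exp (k * (T + 1) - k * ‖p‖) ^ 2 := by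
    rw [← Real.exp_add, ← Real.exp_nat_mul]
    congr 1
    push_cast
    ring
  rw [xQ2_wn y0, xQ2_wn r0, mul_assoc, eD]
  generalize Real.exp (k * (T + 1) - k * ‖p‖) ^ 2 = D at z4 ⊢
  have i1 := xQ2_int hyi z1.continuous fun x => (z2 x).1
  have a1 : ∫ x, Real.exp (-k * jb (x - p)) ^ 2 * y x ≤ (∫ x, ζ x ^ 2 * y x) + D * ∫ x, y x := by
    rw [← integral_const_mul, ← integral_add i1 (hyi.const_mul D)]
    refine integral_mono_ae (xQ2_int hyi e1.continuous fun x => (e2 x).1)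
      (i1.add (hyi.const_mul D)) (y0.mono fun x hx => ?_)
    simp only [← add_mul]
    exact mul_le_mul_of_nonneg_right (z4 x).2.1 hx
  have a2 : ∫ x, ‖fderiv ℝ ζ x‖ ^ 2 * y x ≤
      k ^ 2 * (∫ x, ζ x ^ 2 * y x) + M ^ 2 * D * ∫ x, y x := by
    rw [← integral_const_mul, ← integral_const_mul,
      ← integral_add (i1.const_mul _) (hyi.const_mul _)]
    refine integral_mono_ae (xQ2_int hyi (z1.continuous_fderiv one_ne_zero).norm
      fun x => (abs_norm _).trans_le (z2 x).2) ((i1.const_mul _).add (hyi.const_mul _))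
      (y0.mono fun x hx => ?_)
    simp only [← mul_assoc, ← add_mul]
    exact mul_le_mul_of_nonneg_right (z4 x).2.2 hx
  have a3 : ∫ x, ζ x ^ 2 * ρ x ≤ ∫ x, Real.exp (-k * jb (x - p)) ^ 2 * ρ x :=
    integral_mono_ae (xQ2_int hρ z1.continuous fun x => (z2 x).1)
      (xQ2_int hρ e1.continuous fun x => (e2 x).1)
      (r0.mono fun x hx => mul_le_mul_of_nonneg_right (z4 x).1 hx)
  have a4 : 0 ≤ ∫ x, ζ x ^ 2 * y x :=
    integral_nonneg_of_ae (y0.mono fun x hx => mul_nonneg (sq_nonneg _) hx)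
  have a5 : 0 ≤ ∫ x, ζ x ^ 2 * ρ x :=
    integral_nonneg_of_ae (r0.mono fun x hx => mul_nonneg (sq_nonneg _) hx)
  have a6 := mul_le_mul T3 a3 a5 (by positivity)
  have a7 := mul_le_mul_of_nonneg_right T2 a4
  generalize ∫ x, ζ x ^ 2 * y x = A at *
  generalize ∫ x, y x = Y at *
  generalize ∫ x, Real.exp (-k * jb (x - p)) ^ 2 * ρ x = W at *
  have a8 : A ≤ ε * W + M ^ 2 / γ * Y * D := by
    refine le_of_mul_le_mul_left ?_ hγ
    have : γ * (M ^ 2 / γ * Y * D) = M ^ 2 * D * Y := by field_simp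
    rw [mul_add, this]
    linarith
  linarith

end Vale.Agent.P363
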