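import Vale.Agent.P363.X.S6a
import Vale.Agent.P363.B.Rellich

/-!
# P363 X/S6b

The blow-up limit.
-/

open MeasureTheory Filter Topology Set
open scoped ContDiff

set_option linter.unusedSectionVars false

noncomputable section

namespace Vale.Agent.P363

theorem x6b_shift (k : ℝ) (f : E3 → ℝ) (p x : E3) (c : ℝ) :
    wn k (fun y => f (p + y) / c) x = wn k f (p + x) / c ^ 2 := by
  rw [wn, wn, ← integral_add_left_eq_self (fun z => (Real.exp (-k * jb (z - (p + x))) * f z) ^ 2) p,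
    ← integral_div]
  refine integral_congr_ae (Eventually.of_forall fun y => ?_)
  simp only [add_sub_add_left_eq_sub]
  ring

theorem x6b_bound {k₁ k₂ C : ℝ} (h1 : 0 ≤ k₁) (h12 : k₁ < k₂) {r : ℝ} {y : E3}
    (hr : |r| ≤ C * Real.exp (k₁ * ‖y‖)) (x : E3) :
    ‖(Real.exp (-k₂ * jb (y - x)) * r) ^ 2‖ ≤
      C ^ 2 * Real.exp (2 * k₂ * ‖x‖) * (‖y‖ ^ 0 * Real.exp (-(2 * (k₂ - k₁)) * ‖y‖)) := by
  rw [Real.norm_of_nonneg (sq_nonneg _), mul_pow, ← sq_abs r]
  refine (mul_le_mul_of_nonneg_left (pow_le_pow_left₀ (abs_nonneg _) hr 2) (sq_nonneg _)).trans ?_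
  rw [mul_pow, pow_zero, one_mul, mul_left_comm, mul_assoc]
  refine mul_le_mul_of_nonneg_left ?_ (sq_nonneg _)
  rw [← Real.exp_nat_mul, ← Real.exp_nat_mul, ← Real.exp_add, ← Real.exp_add, Real.exp_le_exp]
  have b1 := norm_le_jb (y - x)
  have b2 : ‖y‖ ≤ ‖y - x‖ + ‖x‖ := by
    have := norm_add_le (y - x) x
    rwa [sub_add_cancel] at this
  push_cast
  nlinarith

theorem x6b_meas (k : ℝ) {F : E3 → ℝ} (hF : AEStronglyMeasurable F volume) (x : E3) :
    AEStronglyMeasurable (fun y => (Real.exp (-k * jb (y - x)) * F y) ^ 2) volume :=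
  (((wt_cont k).comp (f := fun y => (y, x)) (by fun_prop)).aestronglyMeasurable.mul hF).pow 2

theorem x6b_int {k₁ k₂ C : ℝ} (h1 : 0 ≤ k₁) (h12 : k₁ < k₂) {F : E3 → ℝ}
    (hF : AEStronglyMeasurable F volume) (hb : ∀ y, |F y| ≤ C * Real.exp (k₁ * ‖y‖)) (x : E3) :
    Integrable fun y => (Real.exp (-k₂ * jb (y - x)) * F y) ^ 2 :=
  ((integrable_pow_exp 0 (c := 2 * (k₂ - k₁)) (by linarith)).const_mul _).mono' (x6b_meas k₂ hF x)
    (Eventually.of_forall fun y => x6b_bound h1 h12 (hb y) x)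

theorem x6b_dom {k₁ k₂ C : ℝ} (h1 : 0 ≤ k₁) (h12 : k₁ < k₂) {F : ℕ → E3 → ℝ} {f : E3 → ℝ}
    (hF : ∀ m, AEStronglyMeasurable (F m) volume)
    (hb : ∀ m y, |F m y| ≤ C * Real.exp (k₁ * ‖y‖))
    (hl : ∀ y, Tendsto (fun m => F m y) atTop (𝓝 (f y))) (x : E3) :
    Tendsto (fun m => wn k₂ (F m) x) atTop (𝓝 (wn k₂ f x)) :=
  tendsto_integral_of_dominated_convergence _ (fun m => x6b_meas k₂ (hF m) x)
    ((integrable_pow_exp 0 (c := 2 * (k₂ - k₁)) (by linarith)).const_mul _)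
    (fun m => Eventually.of_forall fun y => x6b_bound h1 h12 (hb m y) x)
    (Eventually.of_forall fun y => ((hl y).const_mul _).pow 2)

theorem x6b_sml {k₁ k₂ K : ℝ} (h1 : 0 ≤ k₁) (h12 : k₁ < k₂) {u F : E3 → ℝ} (hF : Sml k₂ u F)
    (h0 : ∀ p, 0 ≤ F p) (hpos : ∀ p, 0 < wn k₂ u p) {q : ℕ → E3}
    (hq : ∀ m x, √(wn k₂ u (q m + x)) ≤ K * Real.exp (k₁ * ‖x‖) * √(wn k₂ u (q m)))
    (hq' : Tendsto (fun m => Real.exp (k₁ * ‖q m‖) * √(wn k₂ u (q m))) atTop atTop) (x : E3) :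
    Tendsto (fun m => F (q m + x) / √(wn k₂ u (q m)) ^ 2) atTop (𝓝 0) := by
  refine tendsto_order.2 ⟨fun a ha => Eventually.of_forall fun m =>
    ha.trans_le (div_nonneg (h0 _) (sq_nonneg _)), fun a ha => ?_⟩
  obtain ⟨ε, ε0, hε⟩ := exists_pos_mul_lt (half_pos ha) ((K * Real.exp (k₁ * ‖x‖)) ^ 2)
  obtain ⟨C, hC⟩ := hF ε ε0
  have t1 : Tendsto (fun m => |C| * Real.exp (2 * k₂ * ‖x‖) *
      (Real.exp (k₁ * ‖q m‖) * √(wn k₂ u (q m)))⁻¹ ^ 2) atTop (𝓝 0) := by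
    simpa using (hq'.inv_tendsto_atTop.pow 2).const_mul (|C| * Real.exp (2 * k₂ * ‖x‖))
  filter_upwards [t1.eventually (gt_mem_nhds (half_pos ha))] with m hm
  have Y0 : 0 < √(wn k₂ u (q m)) := Real.sqrt_pos.2 (hpos _)
  set Y := √(wn k₂ u (q m))
  have a1 : wn k₂ u (q m + x) ≤ (K * Real.exp (k₁ * ‖x‖)) ^ 2 * Y ^ 2 := by
    rw [← mul_pow, ← Real.sq_sqrt (wn_nonneg k₂ u (q m + x))]
    exact pow_le_pow_left₀ (Real.sqrt_nonneg _) (hq m x) 2
  have a2 : Real.exp (-2 * k₂ * ‖q m + x‖) ≤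
      Real.exp (2 * k₂ * ‖x‖) * (Real.exp (k₁ * ‖q m‖))⁻¹ ^ 2 := by
    rw [← Real.exp_neg, ← Real.exp_nat_mul, ← Real.exp_add, Real.exp_le_exp]
    have b2 : ‖q m‖ ≤ ‖q m + x‖ + ‖x‖ := by
      have := norm_sub_le (q m + x) x
      rwa [add_sub_cancel_right] at this
    push_cast
    nlinarith [norm_nonneg (q m)]
  have a3 : C * Real.exp (-2 * k₂ * ‖q m + x‖) ≤ |C| * Real.exp (2 * k₂ * ‖x‖) *
      (Real.exp (k₁ * ‖q m‖) * Y)⁻¹ ^ 2 * Y ^ 2 := by
    refine (mul_le_mul (le_abs_self C) a2 (Real.exp_pos _).le (abs_nonneg _)).trans (le_of_eq ?_)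
    field_simp
  rw [div_lt_iff₀ (by positivity)]
  have a4 := mul_le_mul_of_nonneg_left a1 ε0.le
  have a5 := mul_lt_mul_of_pos_right hε (show 0 < Y ^ 2 by positivity)
  have a6 := mul_lt_mul_of_pos_right hm (show 0 < Y ^ 2 by positivity)
  have a7 := hC (q m + x)
  nlinarith

theorem x6b_near {k : ℝ} (hk : 0 ≤ k) {u G : E3 → ℝ} (hu : MemLp u 2 volume)
    (hG : MemLp G 2 volume) (p : E3) :
    |√(wn k u p) - √(wn k G p)| ≤ √(wn k (fun x => u x - |G x|) p) := by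
  have a1 := sqrt_wn_add hk (hu.sub hG.abs) hG.abs p
  have a2 := sqrt_wn_add hk (hG.abs.sub hu) hu p
  have e1 : wn k |G| p = wn k G p := by
    simp only [wn, mul_pow, Pi.abs_apply, sq_abs]
  have e2 : wn k (|G| - u) p = wn k (fun x => u x - |G x|) p := by
    simp only [wn, mul_pow, Pi.abs_apply, Pi.sub_apply, sub_sq_comm (u _)]
  have e3' : (fun x => (u - |G|) x + |G| x) = u := by
    funext x
    simp
  have e4 : (fun x => (|G| - u) x + u x) = |G| := by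
    funext x
    simp
  rw [e3', e1] at a1
  rw [e4, e1, e2] at a2
  have e5 : wn k (u - |G|) p = wn k (fun x => u x - |G x|) p := rfl
  rw [e5] at a1
  rw [abs_le]
  constructor <;> linarith

theorem x6_lim {u G : E3 → ℝ} {m k₁ k₂ K K' : ℝ} (h1 : 0 ≤ k₁) (h12 : k₁ < k₂) (hK : 0 ≤ K)
    (hu : MemLp u 2 volume) (hG : MemLp G 2 volume) (hGc : Continuous G)
    (hb : ∀ x, |G x| ≤ K * √(wn k₂ u x) ∧
      ∀ x', ‖x' - x‖ ≤ 1 → |G x' - G x| ≤ K * ‖x' - x‖ * √(wn k₂ u x))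
    (hs1 : Sml k₂ u (wn k₂ fun x => u x - |G x|))
    (hs2 : ∀ t : ℝ, 0 < t → Sml k₂ u fun p => (GT m t G p - G p) ^ 2)
    (hpos : ∀ p, 0 < wn k₂ u p) {q : ℕ → E3}
    (hq : ∀ j x, √(wn k₂ u (q j + x)) ≤ K' * Real.exp (k₁ * ‖x‖) * √(wn k₂ u (q j)))
    (hq' : Tendsto (fun j => Real.exp (k₁ * ‖q j‖) * √(wn k₂ u (q j))) atTop atTop) :
    ∃ (φ : ℕ → ℕ) (D : E3 → ℝ) (C : ℝ), StrictMono φ ∧ Continuous D ∧
      (∀ x, |D x| ≤ C * Real.exp (k₁ * ‖x‖)) ∧
      (∀ x, Tendsto (fun j => G (q (φ j) + x) / √(wn k₂ u (q (φ j)))) atTop (𝓝 (D x))) ∧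
      (∀ t : ℝ, 0 < t → ∀ x, GT m t D x = D x) ∧
      (∀ x, Tendsto (fun j => √(wn k₂ u (q (φ j) + x)) / √(wn k₂ u (q (φ j)))) atTop
        (𝓝 √(wn k₂ D x))) ∧
      ∀ L : ℝ, (∀ j, IntegrableOn
          (fun x => (u (q (φ j) + x) / √(wn k₂ u (q (φ j))) - |D x|) ^ 2) (Metric.ball 0 L)) ∧
        Tendsto (fun j => ∫ x in Metric.ball (0 : E3) L,
          (u (q (φ j) + x) / √(wn k₂ u (q (φ j))) - |D x|) ^ 2) atTop (𝓝 0) := by
  have h2 : 0 ≤ k₂ := h1.trans h12.le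
  have Y0 : ∀ p, 0 < √(wn k₂ u p) := fun p => Real.sqrt_pos.2 (hpos p)
  set Dm : ℕ → E3 → ℝ := fun j x => G (q j + x) / √(wn k₂ u (q j)) with hDm
  have Dc : ∀ j, Continuous (Dm j) := fun j => (hGc.comp (continuous_const.add continuous_id)).div_const _
  have Db : ∀ j x, |Dm j x| ≤ K * K' * Real.exp (k₁ * ‖x‖) := by
    intro j x
    simp only [hDm]
    rw [abs_div, abs_of_pos (Y0 _), div_le_iff₀ (Y0 _)]
    refine (hb _).1.trans ((mul_le_mul_of_nonneg_left (hq j x) hK).trans (le_of_eq ?_))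
    ring
  obtain ⟨φ, D, hφ, hD, hl⟩ := exists_subseq_pointwise (D := Dm) (fun x => ⟨_, fun j => Db j x⟩) (by
    intro x ε hε
    obtain ⟨δ, δ0, hδ⟩ := exists_pos_mul_lt hε (K * |K'| * Real.exp (k₁ * ‖x‖))
    refine ⟨min 1 δ, lt_min one_pos δ0, fun j x' hx' => ?_⟩
    rw [lt_min_iff, dist_eq_norm] at hx'
    have a1 := (hb (q j + x)).2 (q j + x') (by rw [add_sub_add_left_eq_sub]; exact hx'.1.le)
    rw [add_sub_add_left_eq_sub] at a1
    simp only [hDm]
    rw [← sub_div, abs_div, abs_of_pos (Y0 _), div_le_iff₀ (Y0 _)]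
    have a2 : √(wn k₂ u (q j + x)) ≤ |K'| * Real.exp (k₁ * ‖x‖) * √(wn k₂ u (q j)) :=
      (hq j x).trans (mul_le_mul_of_nonneg_right (mul_le_mul_of_nonneg_right (le_abs_self _)
        (Real.exp_pos _).le) (Y0 _).le)
    refine a1.trans ((mul_le_mul (mul_le_mul_of_nonneg_left hx'.2.le hK) a2 (Y0 _).le
      (by positivity)).trans ?_)
    have a3 := mul_le_mul_of_nonneg_right hδ.le (Y0 (q j)).le
    linarith)
  have Dbl : ∀ x, |D x| ≤ K * K' * Real.exp (k₁ * ‖x‖) := fun x =>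
    le_of_tendsto' (hl x).abs fun j => Db _ x
  have hqφ : ∀ j x, √(wn k₂ u (q (φ j) + x)) ≤
      K' * Real.exp (k₁ * ‖x‖) * √(wn k₂ u (q (φ j))) := fun j => hq (φ j)
  have hqφ' := hq'.comp hφ.tendsto_atTop
  have sm1 := x6b_sml h1 h12 hs1 (wn_nonneg _ _) hpos hqφ hqφ'
  refine ⟨φ, D, K * K', hφ, hD, Dbl, hl, fun t ht x => ?_, fun x => ?_, fun L => ?_⟩
  · have a1 := x6b_sml h1 h12 (hs2 t ht) (fun _ => sq_nonneg _) hpos hqφ hqφ' x
    have a2 : Tendsto (fun j => GT m t (Dm (φ j)) x) atTop (𝓝 (GT m t D x)) := by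
      refine Tendsto.const_mul _ (tendsto_integral_of_dominated_convergence
        (fun y => Gk t (x - y) * (K * K' * Real.exp (k₁ * ‖y‖))) (fun j => ?_) ?_ (fun j => ?_) ?_)
      · exact (((contDiff_Gk t).continuous.comp (continuous_const.sub continuous_id)).mul
          (Dc _)).aestronglyMeasurable
      · refine integrable_Gk_mul (C := |K * K'|) (c := k₁) (by fun_prop) (fun y => ?_) ht x
        rw [abs_mul, Real.abs_exp]
      · refine Eventually.of_forall fun y => ?_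
        rw [Real.norm_eq_abs, abs_mul, abs_of_pos (Gk_pos ht _)]
        exact mul_le_mul_of_nonneg_left (Db _ y) (Gk_pos ht _).le
      · exact Eventually.of_forall fun y => (hl y).const_mul _
    have a3 : ∀ j, (GT m t (Dm (φ j)) x - Dm (φ j) x) ^ 2 =
        (GT m t G (q (φ j) + x) - G (q (φ j) + x)) ^ 2 / √(wn k₂ u (q (φ j))) ^ 2 := by
      intro j
      have e : GT m t (Dm (φ j)) x = GT m t G (q (φ j) + x) / √(wn k₂ u (q (φ j))) := by
        rw [← GT_shift]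
        simp only [GT, hDm, ← mul_div_assoc, integral_div]
      rw [e, ← div_pow, sub_div]
    have a4 := (a2.sub (hl x)).pow 2
    simp only [a3] at a4
    exact sub_eq_zero.1 (pow_eq_zero_iff two_ne_zero |>.1 (tendsto_nhds_unique a4 a1))
  · have a1 := (x6b_dom h1 h12 (fun j => (Dc (φ j)).aestronglyMeasurable) (fun j => Db (φ j)) hl x).sqrt
    have a2 := (sm1 x).sqrt
    rw [Real.sqrt_zero] at a2
    have a3 : Tendsto (fun j => √(wn k₂ u (q (φ j) + x)) / √(wn k₂ u (q (φ j))) -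
        √(wn k₂ (Dm (φ j)) x)) atTop (𝓝 0) := by
      refine squeeze_zero_norm (fun j => ?_) a2
      simp only [hDm]
      rw [x6b_shift, Real.sqrt_div (wn_nonneg _ _ _), Real.sqrt_div (wn_nonneg _ _ _),
        Real.sqrt_sq (Y0 _).le, ← sub_div, Real.norm_eq_abs, abs_div, abs_of_pos (Y0 _)]
      exact div_le_div_of_nonneg_right (x6b_near h2 hu hG _) (Y0 _).le
    simpa using a3.add a1
  · have b1 : ∀ j y, |Dm (φ j) y - D y| ≤ 2 * (K * K') * Real.exp (k₁ * ‖y‖) := fun j y =>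
      (abs_sub _ _).trans (by linarith [Db (φ j) y, Dbl y])
    have m1 : ∀ j, AEStronglyMeasurable (fun y => Dm (φ j) y - D y) volume := fun j =>
      ((Dc _).sub hD).aestronglyMeasurable
    have a1 := x6b_dom h1 h12 (f := fun _ => 0) m1 b1 (fun y => by simpa using (hl y).sub_const (D y)) 0
    have e0 : wn k₂ (fun _ => 0) 0 = 0 := by simp [wn]
    rw [e0] at a1
    have mu : ∀ j, MemLp (fun y => (u (q (φ j) + y) - |G (q (φ j) + y)|) / √(wn k₂ u (q (φ j)))) 2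
        volume := fun j => by
      simp only [div_eq_mul_inv]
      exact ((hu.sub hG.abs).comp_measurePreserving
        (measurePreserving_add_left volume (q (φ j)))).mul_const _
    set E : ℝ := 2 * Real.exp (2 * k₂ * (L + 1)) with hE
    have i1 : ∀ j, Integrable fun y => E * ((Real.exp (-k₂ * jb (y - 0)) *
        ((u (q (φ j) + y) - |G (q (φ j) + y)|) / √(wn k₂ u (q (φ j))))) ^ 2 +
        (Real.exp (-k₂ * jb (y - 0)) * (Dm (φ j) y - D y)) ^ 2) := fun j =>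
      ((wn_int h2 (mu j) 0).integrable_sq.add (x6b_int h1 h12 (m1 j) (b1 j) 0)).const_mul E
    have pt : ∀ j, ∀ y ∈ Metric.ball (0 : E3) L,
        (u (q (φ j) + y) / √(wn k₂ u (q (φ j))) - |D y|) ^ 2 ≤ E * ((Real.exp (-k₂ * jb (y - 0)) *
        ((u (q (φ j) + y) - |G (q (φ j) + y)|) / √(wn k₂ u (q (φ j))))) ^ 2 +
        (Real.exp (-k₂ * jb (y - 0)) * (Dm (φ j) y - D y)) ^ 2) := by
      intro j y hy
      rw [mem_ball_zero_iff] at hy
      have c1 : |G (q (φ j) + y)| / √(wn k₂ u (q (φ j))) = |Dm (φ j) y| := by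
        simp only [hDm]
        rw [abs_div, abs_of_pos (Y0 _)]
      rw [sub_div, c1, mul_pow, mul_pow, ← mul_add, ← mul_assoc, sub_zero]
      have c2 : 2 ≤ E * Real.exp (-k₂ * jb y) ^ 2 := by
        rw [hE, mul_assoc, ← Real.exp_nat_mul, ← Real.exp_add]
        refine le_mul_of_one_le_right zero_le_two (Real.one_le_exp ?_)
        push_cast
        nlinarith [jb_le y]
      refine le_trans ?_ (mul_le_mul_of_nonneg_right c2 (by positivity))
      have c3 := sq_le_sq.2 ((abs_abs_sub_abs_le_abs_sub (Dm (φ j) y) (D y)))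
      nlinarith [sq_nonneg (u (q (φ j) + y) / √(wn k₂ u (q (φ j))) - |Dm (φ j) y| -
        (|Dm (φ j) y| - |D y|))]
    have m2 : ∀ j, AEStronglyMeasurable
        (fun y => (u (q (φ j) + y) / √(wn k₂ u (q (φ j))) - |D y|) ^ 2) volume := fun j => by
      simp only [div_eq_mul_inv]
      exact ((((hu.comp_measurePreserving (measurePreserving_add_left volume
        (q (φ j)))).1).mul_const _).sub hD.abs.aestronglyMeasurable).pow 2
    have i2 : ∀ j, IntegrableOn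
        (fun y => (u (q (φ j) + y) / √(wn k₂ u (q (φ j))) - |D y|) ^ 2) (Metric.ball 0 L) :=
      fun j => (i1 j).integrableOn.mono' (m2 j).restrict
        ((ae_restrict_mem measurableSet_ball).mono fun y hy => by
          rw [Real.norm_of_nonneg (sq_nonneg _)]
          exact pt j y hy)
    refine ⟨i2, squeeze_zero (fun j => integral_nonneg fun y => sq_nonneg _) (fun j => ?_)
      (by simpa using ((sm1 0).add a1).const_mul E)⟩
    refine (setIntegral_mono_on (i2 j) (i1 j).integrableOn measurableSet_ball (pt j)).trans ?_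
    refine (setIntegral_le_integral (i1 j) (Eventually.of_forall fun y => by positivity)).trans
      (le_of_eq ?_)
    rw [integral_const_mul, integral_add (wn_int h2 (mu j) 0).integrable_sq
      (x6b_int h1 h12 (m1 j) (b1 j) 0)]
    have e := x6b_shift k₂ (fun x => u x - |G x|) (q (φ j)) 0 √(wn k₂ u (q (φ j)))
    rw [add_zero] at e
    rw [← e]
    rfl

end Vale.Agent.P363
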