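import Vale.Agent.P363.A.Log

/-!
# P363 X/S6c  (TASK)

No change of sign.  Take `r ≤ 1`, `δ > 0` with `δ ≤ D y` and `D (y + h) ≤ -δ` on `B = ball a r`, `A = ball 0 L`.  Fix `η > 0`.  `D` is uniformly continuous on `closedBall 0 L`, and for `y ∈ B` the function
`t ↦ D (y + t • h)` has a zero in `[0,1]` (`intermediate_value_Icc'`), so `μ y = ∫ t in Icc 0 1, indicator {|D (y + t • h)| < η} ≥ σ > 0` with `σ` independent of `y`.
`wt (y, t) = (if |D (y + t • h)| < η then 1 else 0) / max (μ y) σ` is measurable (`StronglyMeasurable.integral_prod_right`), `≤ 1/σ`, has `t`-integral `≤ 1`, and `= 1` for `y ∈ B`.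
`line_ineq` for `b = S.of (log_mem f _ hη)`, `b.f = log (1 + f/η)`.  With `Λ = log (1 + c δ/(2η)) - log (1 + 2 |C|) ≥ 0` and `e x = (v x - |D x|)²`, a.e. on `B × [0,1]`:
`wt (b (y + t h) - b y)² ≥ Λ² wt - (Λ²/σ) (e y / (δ/2)² + e (y + t h) / η²)` (if both brackets are `< 1` then `v y ≥ δ/2`, and `v (y + t h) ≤ 2η` where `wt ≠ 0`).
Integrate: `Λ² |B| - (Λ²/σ) (4/δ² + 1/η²) ε ≤ ‖h‖² K`; `ε → 0`, then `η → 0` makes `Λ → ∞`.
(The map `(y, t) ↦ y + t • h` pulls null sets back to null sets, and `∫_{B × [0,1]} e (y + t h) ≤ ∫_A e`: Fubini with `t` outside and translation invariance.)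
-/

open MeasureTheory Filter Topology Set
open scoped ContDiff

set_option linter.unusedSectionVars false

noncomputable section

namespace Vale.Agent.P363

theorem xs6c_sel (T : Finset ℝ) {U : ℝ → Set E3} (hU : ∀ t, MeasurableSet (U t)) :
    ∃ τ : E3 → ℝ, Measurable τ ∧ ∀ y, τ y ∈ insert 0 T ∧ ((∃ t ∈ T, y ∈ U t) → y ∈ U (τ y)) := by
  classical
  induction T using Finset.induction_on with
  | empty => exact ⟨0, measurable_const, fun y => by simp⟩
  | insert t T _ ih =>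
    obtain ⟨τ, h1, h2⟩ := ih
    refine ⟨fun y => if y ∈ U t then t else τ y, measurable_const.ite (hU t) h1, fun y => ?_⟩
    by_cases h : y ∈ U t
    · simp [h]
    · simp only [h, if_false, Finset.exists_mem_insert, false_or]
      exact ⟨Finset.insert_subset_insert _ (Finset.subset_insert _ _) (h2 y).1, (h2 y).2⟩

theorem xs6c_ae (T : Finset ℝ) (h : E3) {P : E3 → Prop} (hP : ∀ᵐ x, P x) :
    ∀ᵐ y, ∀ t ∈ T, P (y + t • h) :=
  (eventually_all_finset T).2 fun t _ =>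
    (measurePreserving_add_right (volume : Measure E3) (t • h)).quasiMeasurePreserving.ae hP

theorem xs6c_shift {e : E3 → ℝ} {A B : Set E3} (hA : MeasurableSet A) (hB : MeasurableSet B)
    (he : IntegrableOn e A) (h0 : ∀ x, 0 ≤ e x) {w : E3} (h : ∀ y ∈ B, y + w ∈ A) :
    IntegrableOn (fun y => e (y + w)) B ∧ ∫ y in B, e (y + w) ≤ ∫ x in A, e x := by
  have h1 := ((integrable_indicator_iff hA).2 he).comp_add_right w
  have h2 : EqOn (fun y => A.indicator e (y + w)) (fun y => e (y + w)) B := fun y hy =>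
    indicator_of_mem (h y hy) _
  refine ⟨h1.integrableOn.congr_fun h2 hB, ?_⟩
  rw [← setIntegral_congr_fun hB h2, ← integral_indicator hA,
    ← integral_add_right_eq_self (A.indicator e) w]
  exact setIntegral_le_integral h1 (Eventually.of_forall fun y => indicator_nonneg (fun x _ => h0 x) _)

theorem xs6c_line (b : S e3) (h : E3) {A B : Set E3} (hA : MeasurableSet A) (hB : MeasurableSet B)
    (hAB : ∀ y ∈ B, ∀ s ∈ Icc (0 : ℝ) 1, y + s • h ∈ A) {τ : E3 → ℝ} (hτ : Measurable τ)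
    {T : Finset ℝ} (hT : ∀ y, τ y ∈ T) (h1 : ∀ t ∈ T, t ∈ Icc (0 : ℝ) 1) :
    IntegrableOn (fun y => (b.f (y + τ y • h) - b.f y) ^ 2) B ∧
      ∫ y in B, (b.f (y + τ y • h) - b.f y) ^ 2 ≤ ‖h‖ ^ 2 * ∫ x in A, ∑ k, b.g k x ^ 2 := by
  have r := Measure.absolutelyContinuous_restrict (μ := (volume : Measure E3)) (s := B)
  have q1 := (Measure.QuasiMeasurePreserving.id (volume : Measure E3)).mono_left r
  have m : Measurable fun y => y + τ y • h := by fun_prop
  have q2 : Measure.QuasiMeasurePreserving (fun y => y + τ y • h) volume volume :=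
    ⟨m, Measure.AbsolutelyContinuous.mk fun s hs h0 => by
      rw [Measure.map_apply m hs, measure_eq_zero_iff_ae_notMem]
      exact (xs6c_ae T h (measure_eq_zero_iff_ae_notMem.1 h0)).mono fun y hy => hy _ (hT y)⟩
  exact ln_real (((b.mem.1.comp_quasiMeasurePreserving (q2.mono_left r)).sub b.mem.1.restrict).pow 2)
    (fun y => sq_nonneg _) (ln_nn b h A) (ln_core b h hA hB hAB q1 (q2.mono_left r)
      (Eventually.of_forall fun y => ⟨_, h1 _ (hT y), rfl⟩) fun F _ => le_rfl)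

theorem xs6c_log {c C δ η Λ f f' v v' d d' : ℝ} (hc : 0 < c) (hη : 0 < η) (hΛ : 0 ≤ Λ)
    (he : c * δ = η * ((1 + 2 * |C|) * Real.exp Λ)) (h1 : c * v ≤ f) (h2 : 0 ≤ f')
    (h3 : f' ≤ C * v') (h4 : 2 * δ ≤ d) (h5 : |d'| < η) (h6 : |v - abs d| < δ)
    (h7 : |v' - abs d'| < η) : Λ ^ 2 ≤ (Real.log (1 + f' / η) - Real.log (1 + f / η)) ^ 2 := by
  have a1 := abs_lt.1 h6
  have a2 := abs_lt.1 h7
  have a3 : c * δ ≤ f := le_trans (mul_le_mul_of_nonneg_left (by linarith [le_abs_self d]) hc.le) h1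
  have a4 : |v'| ≤ 2 * η := abs_le.2 ⟨by linarith [abs_nonneg d'], by linarith⟩
  have a5 : f' / η ≤ 2 * |C| := by
    rw [div_le_iff₀ hη]
    have := mul_le_mul_of_nonneg_left a4 (abs_nonneg C)
    linarith [le_abs_self (C * v'), abs_mul C v']
  have a6 : (1 + 2 * |C|) * Real.exp Λ ≤ f / η := by
    rw [le_div_iff₀' hη]
    linarith
  have a7 := Real.log_le_log (by positivity) (add_le_add_right a5 1)
  have a8 := Real.log_le_log (by positivity) (a6.trans (le_add_of_nonneg_left zero_le_one))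
  rw [Real.log_mul (by positivity) (by positivity), Real.log_exp] at a8
  rw [← neg_sq (_ - _)]
  exact pow_le_pow_left₀ hΛ (by linarith) 2

theorem x6_nosign {D : E3 → ℝ} (hD : Continuous D) {c C L K : ℝ} (hc : 0 < c) {a h : E3}
    (ha : 0 < D a) (hb : D (a + h) < 0) (hL : ‖a‖ + ‖h‖ + 1 ≤ L)
    (H : ∀ η : ℝ, 0 < η → ∀ ε : ℝ, 0 < ε → ∃ (f : S e3) (v : E3 → ℝ), (∀ᵐ x, 0 ≤ f.f x) ∧
      (∀ᵐ x, x ∈ Metric.ball (0 : E3) L → c * v x ≤ f.f x ∧ f.f x ≤ C * v x) ∧
      IntegrableOn (fun x => (v x - |D x|) ^ 2) (Metric.ball 0 L) ∧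
      ∫ x in Metric.ball (0 : E3) L, (v x - |D x|) ^ 2 ≤ ε ∧
      ∫ x in Metric.ball (0 : E3) L, ∑ k, (f.g k x / (f.f x + η)) ^ 2 ≤ K) : False := by
  have ev : ∀ᶠ y in 𝓝 a, D a / 2 < D y ∧ D (y + h) < 0 ∧ dist y a < 1 :=
    (hD.continuousAt.eventually (lt_mem_nhds (half_lt_self ha))).and
      (((hD.comp (continuous_add_const h)).continuousAt.eventually (gt_mem_nhds hb)).and
        (Metric.ball_mem_nhds a one_pos))
  obtain ⟨r, hr, hB⟩ := Metric.nhds_basis_closedBall.eventually_iff.1 ev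
  have mB : MeasurableSet (Metric.closedBall a r) := measurableSet_closedBall
  have mA : MeasurableSet (Metric.ball (0 : E3) L) := measurableSet_ball
  have hAB : ∀ y ∈ Metric.closedBall a r, ∀ s ∈ Icc (0 : ℝ) 1,
      y + s • h ∈ Metric.ball (0 : E3) L := fun y hy s hs => by
    have h1 := (hB hy).2.2
    have h2 : ‖s • h‖ ≤ ‖h‖ := by
      rw [norm_smul, Real.norm_of_nonneg hs.1]
      exact mul_le_of_le_one_left (norm_nonneg _) hs.2
    rw [dist_eq_norm] at h1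
    rw [mem_ball_zero_iff]
    linarith [norm_add_le y (s • h), norm_le_insert' y a]
  have hfin : volume (Metric.closedBall a r) ≠ ⊤ := measure_closedBall_lt_top.ne
  obtain ⟨m, hm⟩ : ∃ m, m = volume.real (Metric.closedBall a r) := ⟨_, rfl⟩
  have m0 : 0 < m := hm ▸ ENNReal.toReal_pos (Metric.measure_closedBall_pos _ _ hr).ne' hfin
  obtain ⟨Λ, hΛ⟩ : ∃ Λ, Λ = 2 * (‖h‖ ^ 2 * |K|) / m + 1 := ⟨_, rfl⟩
  have Λ1 : 1 ≤ Λ := hΛ ▸ le_add_of_nonneg_left (by positivity)
  obtain ⟨η, hη⟩ : ∃ η, η = c * (D a / 4) / ((1 + 2 * |C|) * Real.exp Λ) := ⟨_, rfl⟩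
  have η0 : 0 < η := by
    rw [hη]
    positivity
  have oU : ∀ t : ℝ, IsOpen {y | |D (y + t • h)| < η} := fun t =>
    isOpen_lt (by fun_prop) continuous_const
  obtain ⟨T, hT1, hT2, hT3⟩ := (isCompact_closedBall a r).elim_finite_subcover_image
    (b := Icc (0 : ℝ) 1) (fun t _ => oU t) fun y hy => by
      obtain ⟨t, ht, e⟩ := intermediate_value_Icc' (f := fun t : ℝ => D (y + t • h)) zero_le_one
        (by fun_prop) (show (0 : ℝ) ∈ _ from
          ⟨by simpa using (hB hy).2.1.le, by simpa using by linarith [(hB hy).1]⟩)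
      exact mem_biUnion ht (by simpa [e] using η0)
  lift T to Finset ℝ using hT2
  obtain ⟨τ, hτ, hτ'⟩ := xs6c_sel T fun t => (oU t).measurableSet
  have hT4 : ∀ t ∈ insert 0 T, t ∈ Icc (0 : ℝ) 1 := fun t ht =>
    (Finset.mem_insert.1 ht).elim (fun e => e.symm ▸ left_mem_Icc.2 zero_le_one) fun ht => hT1 ht
  have h0T := Finset.mem_insert_self 0 T
  generalize insert 0 T = T' at hτ' hT4 h0T
  have n0 : (0 : ℝ) < T'.card := Nat.cast_pos.2 (Finset.card_pos.2 ⟨0, h0T⟩)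
  obtain ⟨ρ, hρ⟩ : ∃ ρ, ρ = min (D a / 4) η := ⟨_, rfl⟩
  have ρ0 : 0 < ρ := by
    rw [hρ]
    positivity
  obtain ⟨f, v, f0, f1, i1, i2, i3⟩ := H η η0 (ρ ^ 2 * m / (2 * T'.card)) (by positivity)
  obtain ⟨j1, j2⟩ := xs6c_line (S.of (log_mem f f0 η0)) h mA mB hAB hτ (fun y => (hτ' y).1) hT4
  have j3 := fun t (ht : t ∈ T') => xs6c_shift mA mB i1 (fun x => sq_nonneg _)
    fun y hy => hAB y hy t (hT4 t ht)
  have j4 := (integrable_finsetSum T' fun t ht => (j3 t ht).1).const_mul (Λ ^ 2 / ρ ^ 2)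
  have key := setIntegral_mono_ae_restrict (integrableOn_const (C := Λ ^ 2) hfin) (j1.add j4) (by
    filter_upwards [ae_restrict_mem mB, ae_restrict_of_ae (xs6c_ae T' h (f0.and f1))] with y hy h1
    by_cases h2 : ∀ t ∈ T', (v (y + t • h) - |D (y + t • h)|) ^ 2 < ρ ^ 2
    · have h3 := abs_lt_of_sq_lt_sq (h2 0 h0T) ρ0.le
      have h4 := abs_lt_of_sq_lt_sq (h2 _ (hτ' y).1) ρ0.le
      have h5 := ((h1 0 h0T).2 (hAB y hy 0 (hT4 0 h0T))).1
      have h6 := h1 _ (hτ' y).1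
      rw [zero_smul, add_zero] at h3 h5
      exact le_add_of_le_of_nonneg (xs6c_log hc η0 (by linarith) (δ := D a / 4)
        (by rw [hη, div_mul_cancel₀ _ (by positivity)]) h5 h6.1
        (h6.2 (hAB y hy _ (hT4 _ (hτ' y).1))).2 (by linarith [(hB hy).1])
        ((hτ' y).2 (by simpa using hT3 hy)) (h3.trans_le (hρ ▸ min_le_left _ _))
        (h4.trans_le (hρ ▸ min_le_right _ _))) (by positivity)
    · push Not at h2
      obtain ⟨t, ht, h2⟩ := h2
      refine le_add_of_nonneg_of_le (sq_nonneg _) (le_trans (le_of_eq (by field_simp))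
        (mul_le_mul_of_nonneg_left (h2.trans (Finset.single_le_sum
          (f := fun t : ℝ => (v (y + t • h) - |D (y + t • h)|) ^ 2) (fun _ _ => sq_nonneg _) ht))
          (by positivity))))
  rw [setIntegral_const, ← hm, smul_eq_mul, integral_add' j1 j4, integral_const_mul,
    integral_finsetSum _ fun t ht => (j3 t ht).1] at key
  have k1 := mul_le_mul_of_nonneg_left (Finset.sum_le_card_nsmul T' _ _ fun t ht =>
    (j3 t ht).2.trans i2) (show 0 ≤ Λ ^ 2 / ρ ^ 2 by positivity)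
  rw [nsmul_eq_mul, show Λ ^ 2 / ρ ^ 2 * (T'.card * (ρ ^ 2 * m / (2 * T'.card))) =
    m * Λ ^ 2 / 2 by field_simp] at k1
  have k2 := j2.trans (mul_le_mul_of_nonneg_left (i3.trans (le_abs_self K)) (sq_nonneg ‖h‖))
  have k3 : m * Λ = 2 * (‖h‖ ^ 2 * |K|) + m := by
    rw [hΛ]
    field_simp
  have k4 : m * Λ ≤ m * Λ ^ 2 := mul_le_mul_of_nonneg_left (by nlinarith) m0.le
  linarith

end Vale.Agent.P363
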