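import Vale.Agent.P363.B.Wt

/-!
# P363 X/S7  (TASK)

`x7_geo`: `‖p‖ > 0` because `p 2 ≠ 0`.  One step with `v = ± β • e3 0` gives a point with `p 0 ≠ 0`.  Then step with `v = -(β * sign (p 2)) • e3 2`: the new point `p'` has `p' 0 = (1 + H/‖p‖) p 0`,
`|p' 2| = (1 + H/‖p‖) |p 2| - H β`, so `w = |p 2| / |p 0|` drops by `H β / |p' 0|` and `|p' 0| ≤ |p 0| + H`.  Induction: after `n` steps `0 < w ≤ w₀ - β ∑_{i<n} 1/(n₀ + i + 1)` when `|p 0| ≤ n₀ H`;
the harmonic series diverges (`Real.tendsto_sum_range_one_div_nat_succ_atTop`).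
`x7_chain`: choose `β ∈ (0,1)` with `κ (1 + β) < k₁ (1 - β)`, `δ = 1 - exp (κ - k₁)/…` with `exp (-k₁) < (1 - δ) exp (-κ)`, `H ≥ 1` with `exp (κ (H (1+β) + 1)) ≤ (1 - δ) exp (k₁ H (1-β))`; take `M` from `h6 (2 H + 1) δ`
and apply `x7_geo` to `P p := M ≤ exp (k₁ ‖p‖) Y p`.  Given `P p` let `q` maximise `exp (-k₁ ‖p - q‖) Y q` (`Continuous.exists_forall_ge'`, the function tends to `0` along `cocompact`).  Then `q` satisfies both
hypotheses of `h6`.  If `1 ≤ ‖p - q‖`, the point `q + ‖p - q‖⁻¹ • (p - q)` contradicts maximality; so `‖p - q‖ < 1`, `H < |p 2|`, and for `h = H • (‖p‖⁻¹ • p + v)`: `‖h‖ ≤ H (1 + β)`,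
`‖p + h‖ ≥ ‖p‖ + H - H β`, `Y (p + h) = Y (q + (p - q + h))`, `Y p ≤ Y q`.
`x7_int`: `F (p, x) = exp (2 k₀ ‖p‖) (exp (-k₂ jb (x - p)) u x)²` is integrable on the product (`integrable_prod_iff`, `wn_int`, `integrable_pow_exp 0`), it dominates
`c * indicator {‖x - p‖ < 1} * exp (2 k₀ ‖x‖) u x ^ 2` (`jb_le`); integrate over `p` (`Integrable.integral_prod_right`, `Measure.addHaar_ball_center`).
-/

open MeasureTheory Filter Topology Set
open scoped ContDiff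

set_option linter.unusedSectionVars false

noncomputable section

namespace Vale.Agent.P363

theorem xs7_step {P : E3 → Prop} {H β : ℝ} (hH : 0 < H) (hβ : 0 < β)
    (h1 : ∀ p, P p → H * β < |p 2|)
    (h2 : ∀ p, P p → ∀ v : E3, ‖v‖ ≤ β → P (p + H • (‖p‖⁻¹ • p + v))) {p : E3} (hp : P p)
    (h0 : p 0 ≠ 0) : ∃ q, P q ∧ q 0 ≠ 0 ∧ |q 0| ≤ |p 0| + H ∧
      |q 2| / |q 0| ≤ |p 2| / |p 0| - H * β / |q 0| := by
  obtain ⟨s, s1, s2⟩ : ∃ s : ℝ, |s| = 1 ∧ s * p 2 = |p 2| := by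
    rcases le_total 0 (p 2) with h | h
    · exact ⟨1, abs_one, by rw [one_mul, abs_of_nonneg h]⟩
    · exact ⟨-1, by simp, by rw [neg_one_mul, abs_of_nonpos h]⟩
  have a0 := abs_pos.2 h0
  have a1 := abs_coord_le p 0
  have a2 : 0 < ‖p‖ := a0.trans_le a1
  have a3 := h1 p hp
  have t0 : 0 < H * ‖p‖⁻¹ := by positivity
  have e0 : |(p + H • (‖p‖⁻¹ • p + -(β * s) • e3 2)) 0| = (1 + H * ‖p‖⁻¹) * |p 0| := by
    rw [← abs_of_pos (show 0 < 1 + H * ‖p‖⁻¹ by linarith), ← abs_mul]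
    congr 1
    simp [e3_apply]
    ring
  have e2 : |(p + H • (‖p‖⁻¹ • p + -(β * s) • e3 2)) 2| = (1 + H * ‖p‖⁻¹) * |p 2| - H * β := by
    have : s * s = 1 := by rw [← abs_mul_abs_self, s1, one_mul]
    rw [← abs_of_nonneg (show 0 ≤ (1 + H * ‖p‖⁻¹) * |p 2| - H * β by nlinarith [abs_nonneg (p 2)]),
      ← one_mul |(1 + H * ‖p‖⁻¹) * |p 2| - H * β|]
    nth_rewrite 1 [← s1]
    rw [← abs_mul, ← s2]
    congr 1
    simp [e3_apply]
    linear_combination (-(1 + H * ‖p‖⁻¹) * p 2) * this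
  refine ⟨_, h2 p hp (-(β * s) • e3 2) ?_, abs_pos.1 (by rw [e0]; positivity), ?_, ?_⟩
  · rw [norm_smul, norm_e3, norm_neg, Real.norm_eq_abs, abs_mul, s1, abs_of_pos hβ]
    simp
  · have : ‖p‖⁻¹ * |p 0| ≤ 1 := by rw [inv_mul_le_iff₀ a2]; linarith
    rw [e0]
    nlinarith
  · rw [e0, e2, sub_div, mul_div_mul_left _ _ (by linarith)]

theorem x7_geo {P : E3 → Prop} {H β : ℝ} (hH : 0 < H) (hβ : 0 < β)
    (h1 : ∀ p, P p → H * β < |p 2|)
    (h2 : ∀ p, P p → ∀ v : E3, ‖v‖ ≤ β → P (p + H • (‖p‖⁻¹ • p + v))) (p : E3) : ¬P p := by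
  intro hp
  obtain ⟨p, hp, h0⟩ : ∃ p, P p ∧ p 0 ≠ 0 := by
    by_cases h0 : p 0 = 0
    · refine ⟨_, h2 p hp (β • e3 0) (by rw [norm_smul, norm_e3, Real.norm_of_nonneg hβ.le, mul_one]),
        ?_⟩
      simp [h0, e3_apply, hH.ne', hβ.ne']
    · exact ⟨p, hp, h0⟩
  have a0 := abs_pos.2 h0
  have k : ∀ n : ℕ, ∃ q, P q ∧ q 0 ≠ 0 ∧ |q 0| ≤ |p 0| + n * H ∧ |q 2| / |q 0| ≤
      |p 2| / |p 0| - H * β / (|p 0| + H) * ∑ i ∈ Finset.range n, 1 / ((i : ℝ) + 1) := by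
    intro n
    induction n with
    | zero => exact ⟨p, hp, h0, by simp, by simp⟩
    | succ n ih =>
      obtain ⟨q, b1, b2, b3, b4⟩ := ih
      obtain ⟨r, c1, c2, c3, c4⟩ := xs7_step hH hβ h1 h2 b1 b2
      have n0 : (0 : ℝ) ≤ n := n.cast_nonneg
      refine ⟨r, c1, c2, by push_cast; linarith, ?_⟩
      have : H * β / (|p 0| + H) * (1 / ((n : ℝ) + 1)) ≤ H * β / |r 0| := by
        rw [div_mul_div_comm, mul_one]
        exact div_le_div_of_nonneg_left (by positivity) (abs_pos.2 c2) (by nlinarith)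
      rw [Finset.sum_range_succ]
      linarith
  obtain ⟨n, hn⟩ := ((Real.tendsto_sum_range_one_div_nat_succ_atTop.const_mul_atTop
    (show 0 < H * β / (|p 0| + H) by positivity)).eventually_gt_atTop (|p 2| / |p 0|)).exists
  obtain ⟨q, -, -, -, h⟩ := k n
  linarith [show 0 ≤ |q 2| / |q 0| by positivity]

theorem xs7_max {L : E3 → ℝ} {k B : ℝ} (hk : 0 < k) (hL : Continuous L) (hB : ∀ p, L p ≤ B) (p : E3) :
    ∃ q, ∀ x, L x - k * ‖p - x‖ ≤ L q - k * ‖p - q‖ := by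
  refine Continuous.exists_forall_ge' (by fun_prop) p ?_
  filter_upwards [((tendsto_dist_left_cocompact_atTop p).const_mul_atTop hk).eventually_ge_atTop
    (B - L p)] with x hx
  rw [dist_eq_norm] at hx
  rw [sub_self, norm_zero]
  linarith [hB x]

theorem x7_chain {Y : E3 → ℝ} {κ k₁ B : ℝ} (hκ : 0 < κ) (hk : κ < k₁) (hY : Continuous Y)
    (hpos : ∀ p, 0 < Y p) (hB : ∀ p, Y p ≤ B)
    (h6 : ∀ H δ : ℝ, 0 < δ → ∃ M : ℝ, ∀ q : E3, (∀ x, Y (q + x) ≤ Real.exp (k₁ * ‖x‖) * Y q) →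
      M ≤ Real.exp (k₁ * ‖q‖) * Y q → H < |q 2| ∧
        ∀ h : E3, ‖h‖ ≤ H → (1 - δ) * Real.exp (-κ * ‖h‖) * Y q ≤ Y (q + h)) :
    ∃ M : ℝ, ∀ p, Real.exp (k₁ * ‖p‖) * Y p ≤ M := by
  obtain ⟨L, rfl⟩ : ∃ L : E3 → ℝ, Y = fun p => Real.exp (L p) :=
    ⟨fun p => Real.log (Y p), funext fun p => (Real.exp_log (hpos p)).symm⟩
  have hL : Continuous L := by simpa using hY.log fun p => (hpos p).ne'
  obtain ⟨H, hH⟩ : ∃ H : ℝ, H * (k₁ - κ) = k₁ + κ := ⟨_, div_mul_cancel₀ _ (by linarith)⟩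
  have H1 : 1 ≤ H := by nlinarith
  obtain ⟨M, hM⟩ := h6 (2 * H + 1) (1 - Real.exp ((κ - k₁) / 2))
    (sub_pos.2 (Real.exp_lt_one_iff.2 (by linarith)))
  simp only [sub_sub_cancel, ← Real.exp_add, Real.exp_le_exp] at hM ⊢
  have key : ∀ p, M ≤ Real.exp (k₁ * ‖p‖ + L p) → ∃ q, ‖p - q‖ < 1 ∧ L p ≤ L q ∧
      2 * H + 1 < |q 2| ∧ ∀ h : E3, ‖h‖ ≤ 2 * H + 1 → (κ - k₁) / 2 + -κ * ‖h‖ + L q ≤ L (q + h) := by
    intro p hp
    obtain ⟨q, hq⟩ := xs7_max (hκ.trans hk) hL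
      (fun p => (Real.le_log_iff_exp_le ((hpos p).trans_le (hB p))).2 (hB p)) p
    have a1 := hq p
    rw [sub_self, norm_zero] at a1
    obtain ⟨b1, b2⟩ := hM q (fun x => by
      have := hq (q + x)
      rw [← sub_sub] at this
      nlinarith [norm_sub_le (p - q) x]) (hp.trans (Real.exp_le_exp.2 (by
        nlinarith [norm_sub_norm_le p q])))
    refine ⟨q, lt_of_not_ge fun h => ?_, by nlinarith [norm_nonneg (p - q)], b1, b2⟩
    have r0 : 0 < ‖p - q‖ := by linarith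
    have e1 : ‖‖p - q‖⁻¹ • (p - q)‖ = 1 := by
      rw [norm_smul, norm_inv, norm_norm, inv_mul_cancel₀ r0.ne']
    have e2 : ‖p - (q + ‖p - q‖⁻¹ • (p - q))‖ = ‖p - q‖ - 1 := by
      rw [← sub_sub, show p - q - ‖p - q‖⁻¹ • (p - q) = (1 - ‖p - q‖⁻¹) • (p - q) by module,
        norm_smul, Real.norm_of_nonneg (sub_nonneg.2 (inv_le_one_of_one_le₀ h)), sub_mul,
        inv_mul_cancel₀ r0.ne', one_mul]
    have c1 := b2 _ (e1.trans_le (by linarith))
    have c2 := hq (q + ‖p - q‖⁻¹ • (p - q))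
    rw [e1] at c1
    rw [e2] at c2
    linarith
  have e : H * (1 / (2 * H)) = 1 / 2 := by field_simp
  have k2 : ∀ p, M ≤ Real.exp (k₁ * ‖p‖ + L p) → H * (1 / (2 * H)) < |p 2| := fun p hp => by
    obtain ⟨q, a1, -, a2, -⟩ := key p hp
    have := abs_coord_le (p - q) 2
    rw [PiLp.sub_apply, abs_sub_comm] at this
    linarith [abs_sub_abs_le_abs_sub (q 2) (p 2)]
  refine ⟨M, fun p => (not_le.1 (x7_geo (P := fun p => M ≤ Real.exp (k₁ * ‖p‖ + L p))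
    (H := H) (β := 1 / (2 * H)) (by linarith) (by positivity) k2 (fun p hp v hv => ?_) p)).le⟩
  obtain ⟨q, a1, a2, -, a3⟩ := key p hp
  have p0 : 0 < ‖p‖ := by linarith [k2 p hp, abs_coord_le p 2]
  have v1 : ‖H • v‖ ≤ 1 / 2 := by
    rw [norm_smul, Real.norm_of_nonneg (by linarith), ← e]
    exact mul_le_mul_of_nonneg_left hv (by linarith)
  have v2 : ‖H • (‖p‖⁻¹ • p + v)‖ ≤ H + 1 / 2 := by
    rw [smul_add]
    refine (norm_add_le _ _).trans (add_le_add (le_of_eq ?_) v1)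
    rw [norm_smul, norm_smul, norm_inv, norm_norm, inv_mul_cancel₀ p0.ne', mul_one,
      Real.norm_of_nonneg (by linarith)]
  have v3 : ‖p‖ + H - 1 / 2 ≤ ‖p + H • (‖p‖⁻¹ • p + v)‖ := by
    have := norm_sub_le (p + H • (‖p‖⁻¹ • p + v)) (H • v)
    rw [show p + H • (‖p‖⁻¹ • p + v) - H • v = (1 + H * ‖p‖⁻¹) • p by module, norm_smul,
      Real.norm_of_nonneg (by positivity), add_mul, mul_assoc, inv_mul_cancel₀ p0.ne'] at this
    linarith
  have v4 := norm_add_le (p - q) (H • (‖p‖⁻¹ • p + v))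
  have v5 := a3 (p - q + H • (‖p‖⁻¹ • p + v)) (by linarith)
  rw [← add_assoc, add_sub_cancel] at v5
  exact hp.trans (Real.exp_le_exp.2 (by nlinarith))

theorem x7_int {u : E3 → ℝ} (hu : MemLp u 2 volume) {k₀ k₁ k₂ M : ℝ} (h0 : 0 ≤ k₀)
    (h01 : k₀ < k₁) (h2 : 0 ≤ k₂) (h : ∀ p, Real.exp (k₁ * ‖p‖) * √(wn k₂ u p) ≤ M) :
    Integrable fun x => Real.exp (2 * k₀ * ‖x‖) * u x ^ 2 := by
  have hm : AEStronglyMeasurable (fun z : E3 × E3 => Real.exp (2 * k₀ * ‖z.1‖) *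
      (Real.exp (-k₂ * jb (z.2 - z.1)) * u z.2) ^ 2) (volume.prod volume) :=
    (by fun_prop : Continuous fun z : E3 × E3 => Real.exp (2 * k₀ * ‖z.1‖)).aestronglyMeasurable.mul
      ((((wt_cont k₂).comp continuous_swap).aestronglyMeasurable.mul hu.1.comp_snd).pow 2)
  have hF := (integrable_prod_iff hm).2 ⟨.of_forall fun p =>
    (wn_int h2 hu p).integrable_sq.const_mul (Real.exp (2 * k₀ * ‖p‖)), ((integrable_pow_exp 0 (c := 2 * (k₁ - k₀))
      (by linarith)).const_mul (M ^ 2)).mono' hm.norm.integral_prod_right' (.of_forall fun p => by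
        have a1 := pow_le_pow_left₀ (by positivity) (h p) 2
        rw [mul_pow, Real.sq_sqrt (wn_nonneg _ _ _), ← Real.exp_nat_mul] at a1
        simp only [norm_mul, Real.norm_eq_abs, Real.abs_exp, abs_pow, sq_abs, pow_zero, one_mul]
        rw [integral_const_mul, ← wn,
          abs_of_nonneg (mul_nonneg (Real.exp_pos _).le (wn_nonneg k₂ u p))]
        refine le_trans (le_of_eq ?_) (mul_le_mul_of_nonneg_right a1 (Real.exp_pos _).le)
        rw [mul_right_comm _ (wn k₂ u p), ← Real.exp_add]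
        congr 2
        push_cast
        ring)⟩
  have v0 : 0 < volume.real (Metric.ball (0 : E3) 1) :=
    ENNReal.toReal_pos (Metric.measure_ball_pos _ _ one_pos).ne' measure_ball_lt_top.ne
  refine (hF.integral_prod_right.const_mul (Real.exp (2 * k₀ + 4 * k₂) /
    volume.real (Metric.ball (0 : E3) 1))).mono'
    ((by fun_prop : Continuous fun x : E3 => Real.exp (2 * k₀ * ‖x‖)).aestronglyMeasurable.mul
      (hu.1.pow 2)) (hF.prod_left_ae.mono fun x hx => ?_)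
  have a1 := (setIntegral_ge_of_const_le_real (c := Real.exp (2 * k₀ * ‖x‖ - (2 * k₀ + 4 * k₂)) *
    u x ^ 2) (s := Metric.ball x 1) measurableSet_ball measure_ball_lt_top.ne (fun p hp => by
      rw [mul_pow, ← mul_assoc, ← Real.exp_nat_mul, ← Real.exp_add]
      rw [mem_ball_iff_norm'] at hp
      refine mul_le_mul_of_nonneg_right (Real.exp_le_exp.2 ?_) (sq_nonneg _)
      push_cast
      nlinarith [jb_le (x - p), norm_sub_norm_le x p]) hx.integrableOn).trans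
    (setIntegral_le_integral hx (.of_forall fun p => by positivity))
  rw [Measure.real, Measure.addHaar_ball_center, ← Measure.real, Real.exp_sub] at a1
  rw [Real.norm_of_nonneg (by positivity), div_mul_eq_mul_div, le_div_iff₀ v0,
    ← div_le_iff₀' (Real.exp_pos _)]
  exact le_trans (le_of_eq (by ring)) a1

end Vale.Agent.P363
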