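import Vale.Agent.P363.Iface
import Vale.Agent.P363.X.S6b
import Vale.Agent.P363.X.S6c
import Vale.Agent.P363.X.S7

/-!
# P363 X/S67

Parts X6-X7 (helper43): `NoNode` forces faster decay than `e^{-κ |x|}`.
-/

open MeasureTheory Filter Topology Set
open scoped ContDiff

set_option linter.unusedSectionVars false

noncomputable section

namespace Vale.Agent.P363

theorem x67_lip {k : ℝ} (hk : 0 ≤ k) {u : E3 → ℝ} (hu : MemLp u 2 volume) (p q : E3) :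
    √(wn k u p) ≤ Real.exp (k * ‖p - q‖) * √(wn k u q) := by
  refine Real.sqrt_le_iff.2 ⟨by positivity, (wn_lip hk hu p q).trans (le_of_eq ?_)⟩
  rw [mul_pow, Real.sq_sqrt (wn_nonneg _ _ _), ← Real.exp_nat_mul]
  push_cast
  ring_nf

theorem x67_harn {D : E3 → ℝ} (hD : Continuous D) (h0 : (∀ x, 0 ≤ D x) ∨ ∀ x, D x ≤ 0)
    {C k₁ k₂ κ : ℝ} (h1 : 0 ≤ k₁) (h12 : k₁ < k₂) (hb : ∀ x, |D x| ≤ C * Real.exp (k₁ * ‖x‖))
    (hκ : 0 < κ) (hT : ∀ t : ℝ, 0 < t → ∀ x, GT (κ ^ 2 / 2) t D x = D x) (h : E3) :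
    Real.exp (-κ * ‖h‖) * √(wn k₂ D 0) ≤ √(wn k₂ D h) := by
  have key : ∀ x, Real.exp (-κ * ‖h‖) * |D x| ≤ |D (h + x)| := by
    intro x
    rw [add_comm]
    rcases h0 with h0 | h0
    · rw [abs_of_nonneg (h0 _), abs_of_nonneg (h0 _)]
      exact harnack hD h0 hb hκ hT x h
    · rw [abs_of_nonpos (h0 _), abs_of_nonpos (h0 _)]
      refine harnack (D := fun y => -D y) hD.neg (fun y => neg_nonneg.2 (h0 y)) (C := C) (c := k₁)
        (fun y => by rw [abs_neg]; exact hb y) hκ (fun t ht y => ?_) x h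
      rw [← hT t ht y]
      simp only [GT, mul_neg, integral_neg]
  have e := x6b_shift k₂ D h 0 1
  simp only [div_one, one_pow, add_zero] at e
  refine Real.le_sqrt_of_sq_le ?_
  rw [mul_pow, Real.sq_sqrt (wn_nonneg _ _ _), ← e, wn, wn, ← integral_const_mul]
  have hb' : ∀ y, |D (h + y)| ≤ |C| * Real.exp (k₁ * ‖h‖) * Real.exp (k₁ * ‖y‖) := by
    intro y
    refine (hb _).trans ?_
    rw [mul_assoc, ← Real.exp_add]
    refine mul_le_mul (le_abs_self _) (Real.exp_le_exp.2 ?_) (Real.exp_pos _).le (abs_nonneg _)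
    nlinarith [norm_add_le h y]
  refine integral_mono_of_nonneg (Eventually.of_forall fun y => by positivity)
    (x6b_int h1 h12 (hD.comp (continuous_const.add continuous_id)).aestronglyMeasurable hb' 0)
    (Eventually.of_forall fun y => ?_)
  have a1 := pow_le_pow_left₀ (by positivity) (key y) 2
  rw [mul_pow, sq_abs, sq_abs] at a1
  have a2 := mul_le_mul_of_nonneg_left a1 (sq_nonneg (Real.exp (-k₂ * jb (y - 0))))
  simp only [mul_pow]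
  linarith

theorem x67_far {k₁ B : ℝ} (h1 : 0 ≤ k₁) {Y : ℕ → ℝ} (hB : ∀ j, Y j ≤ B) {q : ℕ → E3}
    (hq : Tendsto (fun j => Real.exp (k₁ * ‖q j‖) * Y j) atTop atTop) (R : ℝ) :
    ∀ᶠ j in atTop, R ≤ ‖q j‖ := by
  filter_upwards [hq.eventually_gt_atTop (Real.exp (k₁ * R) * |B|)] with j hj
  by_contra hc
  have a1 : Real.exp (k₁ * ‖q j‖) ≤ Real.exp (k₁ * R) :=
    Real.exp_le_exp.2 (mul_le_mul_of_nonneg_left (not_le.1 hc).le h1)
  have a2 := mul_le_mul_of_nonneg_left ((hB j).trans (le_abs_self B))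
    (Real.exp_pos (k₁ * ‖q j‖)).le
  have a3 := mul_le_mul_of_nonneg_right a1 (abs_nonneg B)
  linarith

theorem x67_sign {ρ u D : E3 → ℝ} (huρ : ∀ᵐ x, u x = √(ρ x)) (hN : NoNode ρ)
    (hD : Continuous D) {q : ℕ → E3} {Y : ℕ → ℝ} (hY : ∀ j, 0 < Y j)
    (hq : ∀ R : ℝ, ∀ᶠ j in atTop, R ≤ ‖q j‖)
    (hl : ∀ L : ℝ, (∀ j, IntegrableOn (fun x => (u (q j + x) / Y j - |D x|) ^ 2) (Metric.ball 0 L)) ∧
      Tendsto (fun j => ∫ x in Metric.ball (0 : E3) L, (u (q j + x) / Y j - |D x|) ^ 2) atTop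
        (𝓝 0)) : (∀ x, 0 ≤ D x) ∨ ∀ x, D x ≤ 0 := by
  by_contra hc
  push Not at hc
  obtain ⟨⟨b, hb⟩, a, ha⟩ := hc
  obtain ⟨f, c, C, c0, f0, f1, f2⟩ := hN
  set L : ℝ := ‖a‖ + ‖b - a‖ + 1 with hL
  obtain ⟨K, hK⟩ := f2 L (by positivity)
  refine x6_nosign hD (C := C) (K := K) c0 ha (h := b - a) (by rwa [add_sub_cancel]) hL.ge
    fun η hη ε hε => ?_
  obtain ⟨j, j1, j2⟩ := ((hq (L + 8)).and ((hl L).2.eventually (ge_mem_nhds hε))).exists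
  obtain ⟨T, hT, hg⟩ := exists_sym_shift e3 (q j)
  have Yj := hY j
  refine ⟨(Y j)⁻¹ • T f, fun x => u (q j + x) / Y j, ?_, ?_, (hl L).1 j, j2, ?_⟩
  · filter_upwards [hT.mp.quasiMeasurePreserving.ae f0] with x hx
    rw [S.smul_f, hT.f]
    positivity
  · filter_upwards [hT.mp.quasiMeasurePreserving.ae f1, hT.mp.quasiMeasurePreserving.ae huρ]
      with x h1 h2 hx
    rw [mem_ball_zero_iff] at hx
    have b1 : ‖q j‖ ≤ ‖x + q j‖ + ‖x‖ := by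
      have := norm_sub_le (x + q j) x
      rwa [add_sub_cancel_left] at this
    obtain ⟨c1, c2⟩ := h1 (by linarith)
    rw [S.smul_f, hT.f, add_comm (q j) x, h2, ← mul_div_assoc, ← mul_div_assoc, ← div_eq_inv_mul]
    exact ⟨div_le_div_of_nonneg_right c1 Yj.le, div_le_div_of_nonneg_right c2 Yj.le⟩
  · refine le_trans (le_of_eq ?_) (hK (q j) j1 (η * Y j) (by positivity))
    rw [← hT.mp.setIntegral_preimage_emb hT.emb _ (Metric.ball (q j) L)]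
    have e : (fun x => x + q j) ⁻¹' Metric.ball (q j) L = Metric.ball 0 L := by
      ext x
      simp [Metric.mem_ball, dist_eq_norm]
    rw [e]
    refine integral_congr_ae (Eventually.of_forall fun x => Finset.sum_congr rfl fun k _ => ?_)
    rw [S.smul_f, S.smul_g, hT.f, hg]
    have e2 : (Y j)⁻¹ * f.f (x + q j) + η = (Y j)⁻¹ * (f.f (x + q j) + η * Y j) := by
      field_simp
    rw [e2, mul_div_mul_left _ _ (inv_ne_zero Yj.ne')]

theorem x67_seq {ρ u G : E3 → ℝ} {κ k₁ k₂ K K' : ℝ} (hκ : 0 < κ) (h1 : 0 ≤ k₁) (h12 : k₁ < k₂)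
    (hK : 0 ≤ K) (hu : MemLp u 2 volume) (huρ : ∀ᵐ x, u x = √(ρ x)) (hN : NoNode ρ)
    (hG : MemLp G 2 volume) (hGc : Continuous G) (hodd : ∀ x, G (rf 2 x) = -G x)
    (hb : ∀ x, |G x| ≤ K * √(wn k₂ u x) ∧
      ∀ x', ‖x' - x‖ ≤ 1 → |G x' - G x| ≤ K * ‖x' - x‖ * √(wn k₂ u x))
    (hs1 : Sml k₂ u (wn k₂ fun x => u x - |G x|))
    (hs2 : ∀ t : ℝ, 0 < t → Sml k₂ u fun p => (GT (κ ^ 2 / 2) t G p - G p) ^ 2)
    (hpos : ∀ p, 0 < wn k₂ u p) {q : ℕ → E3}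
    (hq : ∀ j x, √(wn k₂ u (q j + x)) ≤ K' * Real.exp (k₁ * ‖x‖) * √(wn k₂ u (q j)))
    (hq' : Tendsto (fun j => Real.exp (k₁ * ‖q j‖) * √(wn k₂ u (q j))) atTop atTop) :
    (¬∀ j, q j 2 = 0) ∧ ∃ φ : ℕ → ℕ, StrictMono φ ∧ ∀ h : E3, ∃ l : ℝ, Real.exp (-κ * ‖h‖) ≤ l ∧
      Tendsto (fun j => √(wn k₂ u (q (φ j) + h)) / √(wn k₂ u (q (φ j)))) atTop (𝓝 l) := by
  obtain ⟨φ, D, C, hφ, hD, Db, hl, hT, hY, hL⟩ :=
    x6_lim h1 h12 hK hu hG hGc hb hs1 hs2 hpos hq hq'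
  have Y0 : ∀ p, 0 < √(wn k₂ u p) := fun p => Real.sqrt_pos.2 (hpos p)
  have one : √(wn k₂ D 0) = 1 := by
    have a1 := hY 0
    simp only [add_zero, div_self (Y0 _).ne'] at a1
    exact tendsto_nhds_unique a1 tendsto_const_nhds
  have far := x67_far h1 (B := √(∫ x, u x ^ 2)) (Y := fun j => √(wn k₂ u (q (φ j))))
    (fun j => Real.sqrt_le_sqrt (wn_le (h1.trans h12.le) hu _)) (q := fun j => q (φ j))
    (hq'.comp hφ.tendsto_atTop)
  have sg := x67_sign huρ hN hD (fun j => Y0 (q (φ j))) far hL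
  refine ⟨fun h0 => ?_, φ, hφ, fun h => ⟨_, ?_, hY h⟩⟩
  · have od : ∀ x, D (rf 2 x) = -D x := by
      intro x
      refine tendsto_nhds_unique (hl (rf 2 x)) ((hl x).neg.congr fun j => ?_)
      have e : q (φ j) + rf 2 x = rf 2 (q (φ j) + x) := by
        simp only [rf, PiLp.add_apply, h0, zero_add, add_sub_assoc]
      rw [e, hodd, neg_div]
    have z : D = fun _ => 0 := by
      funext x
      have a1 := od x
      rcases sg with sg | sg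
      · linarith [sg x, sg (rf 2 x)]
      · linarith [sg x, sg (rf 2 x)]
    simp [z, wn] at one
  · have := x67_harn hD sg h1 h12 Db hκ hT h
    rwa [one, mul_one] at this

theorem x67_six {Y : E3 → ℝ} {κ k₁ k₂ : ℝ} (h1 : 0 ≤ k₁) (h2 : 0 ≤ k₂) (hpos : ∀ p, 0 < Y p)
    (lip : ∀ p q, Y p ≤ Real.exp (k₂ * ‖p - q‖) * Y q)
    (hs : ∀ (K' : ℝ) (q : ℕ → E3), (∀ j x, Y (q j + x) ≤ K' * Real.exp (k₁ * ‖x‖) * Y (q j)) →
      Tendsto (fun j => Real.exp (k₁ * ‖q j‖) * Y (q j)) atTop atTop →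
      (¬∀ j, q j 2 = 0) ∧ ∃ φ : ℕ → ℕ, StrictMono φ ∧ ∀ h : E3, ∃ l : ℝ,
        Real.exp (-κ * ‖h‖) ≤ l ∧ Tendsto (fun j => Y (q (φ j) + h) / Y (q (φ j))) atTop (𝓝 l))
    (H δ : ℝ) (hδ : 0 < δ) : ∃ M : ℝ, ∀ q : E3, (∀ x, Y (q + x) ≤ Real.exp (k₁ * ‖x‖) * Y q) →
      M ≤ Real.exp (k₁ * ‖q‖) * Y q → H < |q 2| ∧
        ∀ h : E3, ‖h‖ ≤ H → (1 - δ) * Real.exp (-κ * ‖h‖) * Y q ≤ Y (q + h) := by
  have A : ∃ M : ℝ, ∀ q : E3, (∀ x, Y (q + x) ≤ Real.exp (k₁ * ‖x‖) * Y q) →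
      M ≤ Real.exp (k₁ * ‖q‖) * Y q → H < |q 2| := by
    by_contra hc
    push Not at hc
    choose q q1 q2 q3 using fun j : ℕ => hc j
    have n1 : ∀ j, ‖(q j 2) • e3 2‖ ≤ H := fun j => by
      rw [norm_smul, norm_e3, mul_one]
      exact q3 j
    have l1 : ∀ j, Y (q j) ≤ Real.exp (k₂ * H) * Y (q j - (q j 2) • e3 2) := fun j => by
      refine (lip _ (q j - (q j 2) • e3 2)).trans (mul_le_mul_of_nonneg_right
        (Real.exp_le_exp.2 (mul_le_mul_of_nonneg_left ?_ h2)) (hpos _).le)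
      rw [sub_sub_cancel]
      exact n1 j
    refine (hs (Real.exp (k₁ * H) * Real.exp (k₂ * H)) (fun j => q j - (q j 2) • e3 2)
      (fun j x => ?_) ?_).1 fun j => by simp [e3]
    · rw [sub_add, sub_eq_add_neg (q j)]
      refine (q1 j _).trans ?_
      have a1 : Real.exp (k₁ * ‖-((q j 2) • e3 2 - x)‖) ≤
          Real.exp (k₁ * H) * Real.exp (k₁ * ‖x‖) := by
        rw [← Real.exp_add, Real.exp_le_exp, norm_neg]
        nlinarith [norm_sub_le ((q j 2) • e3 2) x, n1 j]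
      refine (mul_le_mul a1 (l1 j) (hpos _).le (by positivity)).trans (le_of_eq ?_)
      ring
    · refine tendsto_atTop_mono (fun j => ?_) (tendsto_natCast_atTop_atTop.atTop_div_const
        (show 0 < Real.exp (k₁ * H) * Real.exp (k₂ * H) by positivity))
      rw [div_le_iff₀ (by positivity)]
      refine (q2 j).trans ?_
      have a1 : Real.exp (k₁ * ‖q j‖) ≤
          Real.exp (k₁ * H) * Real.exp (k₁ * ‖q j - (q j 2) • e3 2‖) := by
        rw [← Real.exp_add, Real.exp_le_exp]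
        have := norm_add_le (q j - (q j 2) • e3 2) ((q j 2) • e3 2)
        rw [sub_add_cancel] at this
        nlinarith [n1 j]
      refine (mul_le_mul a1 (l1 j) (hpos _).le (by positivity)).trans (le_of_eq ?_)
      ring
  have B : ∃ M : ℝ, ∀ q : E3, (∀ x, Y (q + x) ≤ Real.exp (k₁ * ‖x‖) * Y q) →
      M ≤ Real.exp (k₁ * ‖q‖) * Y q →
        ∀ h : E3, ‖h‖ ≤ H → (1 - δ) * Real.exp (-κ * ‖h‖) * Y q ≤ Y (q + h) := by
    by_contra hc
    push Not at hc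
    choose q q1 q2 h h3 h4 using fun j : ℕ => hc j
    obtain ⟨h₀, -, ψ, hψ, hl⟩ := (isCompact_closedBall (0 : E3) H).tendsto_subseq (x := h)
      fun j => mem_closedBall_zero_iff.2 (h3 j)
    obtain ⟨-, φ, hφ, hφ'⟩ := hs 1 (fun j => q (ψ j)) (fun j x => by rw [one_mul]; exact q1 _ x)
      (tendsto_atTop_mono (fun j => q2 (ψ j)) (tendsto_natCast_atTop_atTop.comp hψ.tendsto_atTop))
    obtain ⟨l, l1, l2⟩ := hφ' h₀
    have c1 : Continuous fun z : E3 =>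
        Real.exp (k₂ * ‖h₀ - z‖) * ((1 - δ) * Real.exp (-κ * ‖z‖)) := by fun_prop
    have t1 := (c1.tendsto h₀).comp (hl.comp hφ.tendsto_atTop)
    have a1 := le_of_tendsto_of_tendsto' l2 t1 fun j => by
      rw [div_le_iff₀ (hpos _)]
      have b1 := lip (q (ψ (φ j)) + h₀) (q (ψ (φ j)) + h (ψ (φ j)))
      rw [add_sub_add_left_eq_sub] at b1
      refine b1.trans ?_
      have b2 := mul_le_mul_of_nonneg_left (h4 (ψ (φ j))).le
        (Real.exp_pos (k₂ * ‖h₀ - h (ψ (φ j))‖)).le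
      simp only [Function.comp]
      linarith
    rw [sub_self, norm_zero, mul_zero, Real.exp_zero, one_mul] at a1
    nlinarith [Real.exp_pos (-κ * ‖h₀‖)]
  obtain ⟨M, hM⟩ := A
  obtain ⟨M', hM'⟩ := B
  exact ⟨max M M', fun q q1 q2 => ⟨hM q q1 ((le_max_left _ _).trans q2),
    hM' q q1 ((le_max_right _ _).trans q2)⟩⟩

theorem x67 {ρ u s : E3 → ℝ} {d : S e3} {κ k₂ C : ℝ} (hκ : 0 < κ) (hk : κ < k₂)
    (hu : MemLp u 2 volume) (huρ : ∀ᵐ x, u x = √(ρ x)) (hs : MemLp s 2 volume)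
    (heq : ∀ ξ : S e3, kin d ξ + κ ^ 2 / 2 * ip d ξ = ∫ x, s x * ξ.f x)
    (hsle : ∀ᵐ x : E3, 1 ≤ ‖x‖ → |s x| ≤ C / ‖x‖ * u x)
    (hodd : ∀ᵐ x, d.f (rf 2 x) = -d.f x) (hdu : ∀ᵐ x, |d.f x| ≤ u x)
    (h4 : ∀ ε : ℝ, 0 < ε → ∃ Cε : ℝ, ∀ p : E3,
      wn k₂ (fun x => √(u x ^ 2 - d.f x ^ 2)) p ≤
        ε * wn k₂ u p + Cε * Real.exp (-2 * k₂ * ‖p‖))
    (hN : NoNode ρ) :
    ∃ k₀ : ℝ, κ < k₀ ∧ Integrable fun x => Real.exp (2 * k₀ * ‖x‖) * u x ^ 2 := by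
  have h2 : 0 ≤ k₂ := by linarith
  by_cases hz : ∀ᵐ x, u x = 0
  · refine ⟨κ + 1, by linarith, (integrable_zero _ _ _).congr ?_⟩
    filter_upwards [hz] with x hx
    simp [hx]
  have hpos : ∀ p, 0 < wn k₂ u p := by
    intro p
    refine (wn_nonneg _ _ _).lt_of_ne fun h0 => hz ?_
    have := (integral_eq_zero_iff_of_nonneg (fun x => sq_nonneg _)
      (wn_int h2 hu p).integrable_sq).1 h0.symm
    filter_upwards [this] with x hx
    simpa using hx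
  obtain ⟨G, K, K0, hG, hGc, hGo, hb, hs1, hs2⟩ := x6_G h2 hu hs heq hsle hodd hdu h4
  have h1 : 0 ≤ (κ + k₂) / 2 := by linarith
  obtain ⟨M, hM⟩ := x7_chain (Y := fun p => √(wn k₂ u p)) (k₁ := (κ + k₂) / 2)
    (B := √(∫ x, u x ^ 2)) hκ (by linarith) (continuous_wn h2 hu).sqrt
    (fun p => Real.sqrt_pos.2 (hpos p)) (fun p => Real.sqrt_le_sqrt (wn_le h2 hu p))
    (x67_six h1 h2 (fun p => Real.sqrt_pos.2 (hpos p)) (x67_lip h2 hu) fun K' q a b =>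
      x67_seq hκ h1 (by linarith) K0 hu huρ hN hG hGc hGo hb hs1 hs2 hpos a b)
  exact ⟨(κ + (κ + k₂) / 2) / 2, by linarith, x7_int hu (by linarith) (by linarith) h2 hM⟩

end Vale.Agent.P363
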