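import Vale.Agent.P363.X.Sub
import Vale.Agent.P363.X.Bar
import Vale.Agent.P363.X.Low
import Vale.Agent.P363.X.Core
import Vale.Agent.P363.X.Q1
import Vale.Agent.P363.X.Q2
import Vale.Agent.P363.X.S67
import Vale.Agent.P363.X.Lb

/-!
# P363 X/Main

Block X: assembly (helper85), see `notes/P363.md`.
-/

open MeasureTheory Filter Topology Set
open scoped ContDiff

set_option linter.unusedSectionVars false

noncomputable section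

namespace Vale.Agent.P363

variable {R lam c C η : ℝ} {ψ : S (eN 4)} {Φ : S (eN 3)} {E₄ E₃ g : ℝ}

theorem xmain_rho_nonneg {n : ℕ} (i : Fin (n + 1)) (f : Cfg (n + 1) → ℝ) (x : E3) :
    0 ≤ rho i f x := integral_nonneg fun _ => sq_nonneg _

theorem xmain_sub (h : Exact R lam c C η ψ Φ E₄ E₃ g) {u : S e3} (hu : (slotFib 0 ψ).IsSqrt u)
    (ξ : S e3) (hξ : ∀ᵐ x, 0 ≤ ξ.f x) : qf (fun x => VR R x + (E₃ - E₄)) u ξ ≤ 0 := by
  refine slot_sub h.lam_pos.le 0 h.eψ ?_ hu ξ hξ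
  have ha : Anti ((0 : Fin 4).succAbove 1) ((0 : Fin 4).succAbove 2) ψ.f := h.a23
  filter_upwards [anti_rsl 0 ha] with x hx
  have h1 := h.gap _ hx
  have h2 := bil_ip.cs ip_nonneg Φ (rsl 0 ψ x)
  rw [h.nΦ, one_mul] at h2
  nlinarith [h.g_pos]

theorem xmain_sup (h : Exact R lam c C η ψ Φ E₄ E₃ g) (hη : η ≤ 1 / 8) {u : S e3}
    (hu : (slotFib 0 ψ).IsSqrt u) : ∀ᵐ x, u.f x ≤ 1 + 4 * √(8 * C) := by
  have hn := sqrt_norms 0 hu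
  refine sub_sup (R := R) (m := E₃ - E₄) ?_ (fun x => ?_) (xmain_sub h hu) ?_ (hn.2.trans h.kinψ)
  · linarith [(abs_le.1 h.E43).1]
  · rw [hu.f]; exact Real.sqrt_nonneg _
  · rw [hn.1, h.nψ]

theorem xmain_phi (h : Exact R lam c C η ψ Φ E₄ E₃ g) (hη : η ≤ 1 / 80) (j : Fin 3) :
    ∀ᵐ y : E3, rho j Φ.f y ≤ ((1 + 4 * √(8 * C)) * Real.exp 6) ^ 2 * Real.exp (-‖y‖ / 2) := by
  obtain ⟨u, hu⟩ := (slotFib j Φ).exists_sqrt
  have hn := sqrt_norms j hu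
  have hs : ∀ ξ : S e3, (∀ᵐ x, 0 ≤ ξ.f x) → qf (fun x => VR R x + (-1 - η - E₃)) u ξ ≤ 0 :=
    slot_sub h.lam_pos.le j h.eΦ (Eventually.of_forall fun x => h.two _) hu
  have hm : 1 / 10 ≤ -1 - η - E₃ := by linarith [(abs_le.1 h.E3_le).2]
  have h0 : ∀ x, 0 ≤ u.f x := fun x => by rw [hu.f]; exact Real.sqrt_nonneg _
  have hb := sub_sup (by linarith) h0 hs (by rw [hn.1, h.nΦ]) (hn.2.trans h.kinΦ)
  have hd := decay_exp h.R_pos.le (by linarith [h.R_le]) hm (by positivity) hs hb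
  filter_upwards [hd] with y hy
  have e1 : rho j Φ.f y = u.f y ^ 2 := by
    rw [hu.f, slotFib_n, Real.sq_sqrt (xmain_rho_nonneg _ _ _)]
  have e2 : Real.exp (-‖y‖ / 2) = Real.exp (-‖y‖ / 4) ^ 2 := by
    rw [← Real.exp_nat_mul]; congr 1; push_cast; ring
  rw [e1, e2, ← mul_pow]
  exact pow_le_pow_left₀ (h0 y) hy 2

theorem x_bounds (C : ℝ) : ∃ c' C' η₀ : ℝ, 0 < c' ∧ 0 < η₀ ∧
    ∀ {R lam c η : ℝ} {ψ : S (eN 4)} {Φ : S (eN 3)} {E₄ E₃ g : ℝ},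
      Exact R lam c C η ψ Φ E₄ E₃ g → η ≤ η₀ → (∀ᵐ x, rho 0 ψ.f x ≤ C') ∧
        ∀ᵐ x : E3, 3 ≤ ‖x‖ → ‖x‖ ≤ 6 → c' ≤ rho 0 ψ.f x := by
  obtain ⟨K, hK⟩ := core_eq C
  obtain ⟨c', η₁, hc', hη₁, hl⟩ := shell_low K
  refine ⟨c', (1 + 4 * √(8 * C)) ^ 2, min η₁ (1 / 8), hc', by positivity, ?_⟩
  intro R lam c η ψ Φ E₄ E₃ g h hη
  have h1 : η ≤ η₁ := hη.trans (min_le_left _ _)
  have h2 : η ≤ 1 / 8 := hη.trans (min_le_right _ _)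
  constructor
  · obtain ⟨u, hu⟩ := (slotFib 0 ψ).exists_sqrt
    filter_upwards [xmain_sup h h2 hu] with x hx
    rw [hu.f, slotFib_n] at hx
    rw [← Real.sq_sqrt (xmain_rho_nonneg 0 ψ.f x)]
    exact pow_le_pow_left₀ (Real.sqrt_nonneg _) hx 2
  · have hE : |E₄| ≤ 2 := by
      have a1 := abs_le.1 h.E43
      have a2 := abs_le.1 h.E3_le
      rw [abs_le]; constructor <;> linarith [a1.1, a1.2, a2.1, a2.2]
    obtain ⟨s, hs, hsK, heq⟩ := hK h.lam_pos.le (by linarith [h.lam_le]) hE h.nψ h.kinψ h.eψ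
    obtain ⟨b, hb, hd⟩ := h.core
    filter_upwards [hl h1 hs hsK heq hb hd,
      (slotFib 0 ψ).pr_sq_le (prd ![orb 4, orb 0, orb 4]).mem] with x hx hx' _ h6
    rw [core_norm, mul_one, slotFib_n] at hx'
    exact (hx h6).trans hx'

theorem x_main (C : ℝ) : ∃ η₀ : ℝ, 0 < η₀ ∧
    ∀ {R lam c η : ℝ} {ψ : S (eN 4)} {Φ : S (eN 3)} {E₄ E₃ g : ℝ},
      Exact R lam c C η ψ Φ E₄ E₃ g → η ≤ η₀ → ¬NoNode (rho 0 ψ.f) := by
  obtain ⟨K, hK0, hK⟩ := ker_phi (((1 + 4 * √(8 * C)) * Real.exp 6) ^ 2)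
  obtain ⟨η₁, hη₁, h5⟩ := x5_core ((1 + 4 * √(8 * C)) * Real.exp 21) (K + 2) 20
  refine ⟨min η₁ (1 / 200), by positivity, ?_⟩
  intro R lam c η ψ Φ E₄ E₃ g h hη hN
  have h1 : η ≤ η₁ := hη.trans (min_le_left _ _)
  have h2 : η ≤ 1 / 200 := hη.trans (min_le_right _ _)
  have hΦ : KerB K Φ := hK Φ (xmain_phi h (by linarith))
  obtain ⟨u, hu⟩ := (slotFib 0 ψ).exists_sqrt
  have huf : ∀ x, u.f x = √(rho 0 ψ.f x) := hu.f
  have hu2 : ∀ x, u.f x ^ 2 = rho 0 ψ.f x := fun x => by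
    rw [huf, Real.sq_sqrt (xmain_rho_nonneg _ _ _)]
  have hE := abs_le.1 h.E43
  obtain ⟨κ, hκ0, hκ⟩ : ∃ κ : ℝ, 0 < κ ∧ κ ^ 2 / 2 = E₃ - E₄ :=
    ⟨√(2 * (E₃ - E₄)), Real.sqrt_pos.2 (by linarith), by
      rw [Real.sq_sqrt (by linarith)]; ring⟩
  have hκ1 : 12 / 25 ≤ κ := by
    by_contra hc
    push Not at hc
    nlinarith
  have hκ2 : κ ≤ 1 := by
    by_contra hc
    push Not at hc
    nlinarith
  obtain ⟨k, hk0, hk⟩ : ∃ k : ℝ, 0 < k ∧ k ^ 2 = κ ^ 2 + g :=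
    ⟨√(κ ^ 2 + g), Real.sqrt_pos.2 (by linarith [h.g_pos, sq_nonneg κ]),
      Real.sq_sqrt (by linarith [h.g_pos, sq_nonneg κ])⟩
  have hκk : κ < k := by
    by_contra hc
    push Not at hc
    nlinarith [h.g_pos]
  obtain ⟨s, hs, heq, hsb⟩ := x3 h (by linarith) hK0 hΦ
  rw [← hκ] at heq
  have hdu : ∀ᵐ x, |((slotFib 0 ψ).pr Φ.mem).f x| ≤ u.f x := by
    simpa only [huf] using dys_le h
  have hsb' : ∀ᵐ x : E3, 1 ≤ ‖x‖ →
      |s x - (1 - 3 * lam) / ‖x‖ * ((slotFib 0 ψ).pr Φ.mem).f x| ≤ (K + 2) / ‖x‖ ^ 2 * u.f x := by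
    simpa only [huf] using hsb
  have hdec := decay_pow (C := 1 + 4 * √(8 * C)) h.R_pos.le (by linarith [h.R_le]) hκ1 hκ2
    (by positivity) (by rw [hκ]; exact xmain_sub h hu) (xmain_sup h (by linarith) hu)
  obtain ⟨b, hb, hd⟩ := h.dys
  have hsle : ∀ᵐ x : E3, 1 ≤ ‖x‖ → |s x| ≤ (K + 3) / ‖x‖ * u.f x := by
    filter_upwards [hdu, hsb'] with x hx hx' h1x
    have hp : 0 < ‖x‖ := by linarith
    have hu0 : 0 ≤ u.f x := (abs_nonneg _).trans hx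
    have a1 : |(1 - 3 * lam) / ‖x‖ * ((slotFib 0 ψ).pr Φ.mem).f x| ≤ 1 / ‖x‖ * u.f x := by
      rw [abs_mul, abs_div, abs_of_pos hp, abs_of_nonneg (by linarith [h.lam_le])]
      exact mul_le_mul (div_le_div_of_nonneg_right (by linarith [h.lam_pos]) hp.le) hx
        (abs_nonneg _) (by positivity)
    have a2 : (K + 2) / ‖x‖ ^ 2 * u.f x ≤ (K + 2) / ‖x‖ * u.f x :=
      mul_le_mul_of_nonneg_right
        (div_le_div_of_nonneg_left (by linarith) hp (by nlinarith)) hu0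
    have a3 := abs_add_le (s x - (1 - 3 * lam) / ‖x‖ * ((slotFib 0 ψ).pr Φ.mem).f x)
      ((1 - 3 * lam) / ‖x‖ * ((slotFib 0 ψ).pr Φ.mem).f x)
    rw [sub_add_cancel] at a3
    have a4 : (K + 3) / ‖x‖ * u.f x = (K + 2) / ‖x‖ * u.f x + 1 / ‖x‖ * u.f x := by ring
    linarith [hx' h1x]
  have hρ : Integrable (rho 0 ψ.f) := (slotFib 0 ψ).int_n
  have h4 : ∀ ε : ℝ, 0 < ε → ∃ Cε : ℝ, ∀ p : E3,
      wn k (fun x => √(u.f x ^ 2 - ((slotFib 0 ψ).pr Φ.mem).f x ^ 2)) p ≤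
        ε * wn k u.f p + Cε * Real.exp (-2 * k * ‖p‖) := by
    intro ε hε
    have e : u.f = fun x => √(rho 0 ψ.f x) := funext huf
    simp only [hu2]
    rw [e]
    refine x4_wn (m := E₃ - E₄ + g)
      (y := fun x => rho 0 ψ.f x - ((slotFib 0 ψ).pr Φ.mem).f x ^ 2) hk0 (by linarith [h.g_pos]) hK0 hρ
      (hρ.sub ((slotFib 0 ψ).pr Φ.mem).int_sq).1 ?_
      (fun ζ hζ T hT hz => x4_test h (by linarith) hK0 hΦ hζ hT hz) hε
    filter_upwards [hdu] with x hx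
    have := sq_le_sq' (abs_le.1 hx).1 (abs_le.1 hx).2
    rw [hu2] at this
    exact ⟨by linarith, by linarith [sq_nonneg (((slotFib 0 ψ).pr Φ.mem).f x)]⟩
  obtain ⟨k₀, hk₀, hi⟩ := x67 hκ0 hκk u.mem (Eventually.of_forall huf) hs heq hsle (dys_odd h) hdu
    h4 hN
  exact h5 h1 hκ0 (by rw [hκ]; exact h.E43) h.lam_pos.le h.lam_le u.mem hs heq hsb' hdu hdec hb hd
    k₀ hk₀ hi

end Vale.Agent.P363
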