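import Vale.Agent.P363.X.Rad
import Vale.Agent.P363.A.Trunc

/-!
# P363 X/Comp  (TASK, sub-lead helper85)

X2, comparison with a radial supersolution.  For `N > T + 1` let `ξ` be the function of `kin_rad` for `F = (1 - β₀) * B * β₃` (`β₀` switches on `[T - 1/2, T]`, `β₃` on `[2N + 1, 2N + 2]`, `exists_cut`), so `F = B`,
and the same for the derivatives, on `(T, 2N + 1)`.  `w = (u - ξ)₊` (`exists_pos` or `posPart`), `θ = (1 - β₁ ‖x‖) * β₂ ‖x‖` (`β₁` switches on `[T, T + 1]`, `β₂` on `[N, 2N]`), test function `θ² w` (`mul1`).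
`qf U u (θ² w) ≤ 0 ≤ qf U ξ (θ² w)`, and `kin (u - ξ) (θ² w) = 1/2 ∫ (θ² |∇w|² + 2 θ w ∇θ·∇w) ≥ -1/2 ∫ |∇θ|² w² ≥ -(K/N)²/2 * ip u u` (`w = 0` on `T ≤ ‖x‖ ≤ T + 1`, `w ≤ |u|` where `ξ = B ≥ 0`).
So `c * ∫ θ² w² ≤ (K/N)²/2 * ip u u`; for fixed `N₀` the integral of `(u - B)₊²` over `T + 1 ≤ ‖x‖ ≤ N₀` is zero.
-/

open MeasureTheory Filter Topology Set
open scoped ContDiff

set_option linter.unusedSectionVars false

noncomputable section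

namespace Vale.Agent.P363

theorem xComp_cacc (a u : S e3) {θ : E3 → ℝ} (hθ : Mul1 θ) {L : ℝ}
    (hL : ∀ᵐ x, (∑ k, fderiv ℝ θ x (e3 k) ^ 2) * max (a.f x) 0 ^ 2 ≤ L * u.f x ^ 2) :
    ∃ η v : S e3, (∀ x, v.f x = θ x * max (a.f x) 0) ∧ (∀ x, η.f x = θ x * v.f x) ∧
      -(L / 2 * ip u u) ≤ kin a η := by
  obtain ⟨w, -, hw, -, -, -, hg⟩ := exists_pos a
  refine ⟨S.of (mul1 (S.of (mul1 w hθ)) hθ), S.of (mul1 w hθ), fun x => by simp [hw],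
    fun x => by simp, ?_⟩
  rw [kin_eq, ip_self]
  have h1 : ∫ x, -(L * u.f x ^ 2) ≤
      ∫ x, ∑ k, a.g k x * (S.of (mul1 (S.of (mul1 w hθ)) hθ)).g k x := by
    refine integral_mono_ae (u.int_sq.const_mul L).neg
      (integrable_finsetSum _ fun k _ => S.int_gmul _ _ k k) ?_
    filter_upwards [hL, ae_all_iff.2 hg] with x h1 h2
    refine le_trans (neg_le_neg h1) ?_
    rw [Finset.sum_mul, ← Finset.sum_neg_distrib]
    refine Finset.sum_le_sum fun k _ => ?_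
    simp only [S.of_f, S.of_g, hw, h2 k]
    by_cases h : 0 < a.f x
    · rw [if_pos h]
      nlinarith [sq_nonneg (θ x * a.g k x + fderiv ℝ θ x (e3 k) * max (a.f x) 0)]
    · rw [if_neg h, max_eq_right (not_lt.1 h)]
      simp
  rw [integral_neg, integral_const_mul] at h1
  linarith

theorem xComp_sup {U : E3 → ℝ} (hU : FB e3 U) {B B1 B2 : ℝ → ℝ}
    (h1 : ∀ r, 0 < r → HasDerivAt B (B1 r) r) (h2 : ∀ r, 0 < r → HasDerivAt B1 (B2 r) r)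
    (h3 : ContinuousOn B2 (Ioi 0)) {T M : ℝ} (hT : 1 ≤ T) (hM : T ≤ M)
    (hsup : ∀ x : E3, T ≤ ‖x‖ → 0 ≤ -(1 / 2) * (B2 ‖x‖ + 2 / ‖x‖ * B1 ‖x‖) + U x * B ‖x‖) :
    ∃ ξ : S e3, (∀ x : E3, T ≤ ‖x‖ → ‖x‖ ≤ M → ξ.f x = B ‖x‖) ∧
      ∀ η : S e3, (∀ x, 0 ≤ η.f x) → (∀ x, η.f x ≠ 0 → T < ‖x‖ ∧ ‖x‖ < M) → 0 ≤ qf U ξ η := by
  obtain ⟨K, -, hK⟩ := exists_cut
  obtain ⟨β₀, a1, -, -, a2, a3, -⟩ := hK (T - 1 / 2) T (by linarith) (by linarith)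
  obtain ⟨β₃, b1, -, -, b2, b3, -⟩ := hK M (M + 1) (by linarith) (by linarith)
  set γ : ℝ → ℝ := fun r => (1 - β₀ r) * β₃ r with hγ
  have g0 : ContDiff ℝ ∞ γ := (contDiff_const.sub a1).mul b1
  have g1 : ContDiff ℝ ∞ (deriv γ) := (contDiff_infty_iff_deriv.1 g0).2
  have g2 : ContDiff ℝ ∞ (deriv (deriv γ)) := (contDiff_infty_iff_deriv.1 g1).2
  have d0 : ∀ r, HasDerivAt γ (deriv γ r) r := fun r =>
    ((g0.differentiable (by simp)) r).hasDerivAt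
  have d1 : ∀ r, HasDerivAt (deriv γ) (deriv (deriv γ) r) r := fun r =>
    ((g1.differentiable (by simp)) r).hasDerivAt
  have one : ∀ r, T ≤ r → r ≤ M → γ r = 1 := fun r p q => by
    simp only [hγ, a3 r p, b2 r q]; ring
  have loc : ∀ r, T < r → r < M → deriv γ r = 0 ∧ deriv (deriv γ) r = 0 := by
    have z : ∀ r ∈ Ioo T M, deriv γ r = 0 := fun r hr => by
      have : γ =ᶠ[𝓝 r] fun _ => 1 := by
        filter_upwards [Ioo_mem_nhds hr.1 hr.2] with s hs using one s hs.1.le hs.2.le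
      rw [this.deriv_eq, deriv_const]
    intro r p q
    refine ⟨z r ⟨p, q⟩, ?_⟩
    have : deriv γ =ᶠ[𝓝 r] fun _ => 0 := by
      filter_upwards [Ioo_mem_nhds p q] with s hs using z s hs
    rw [this.deriv_eq, deriv_const]
  have cB : ContinuousOn B (Ioi 0) := fun r hr => (h1 r hr).continuousAt.continuousWithinAt
  have cB1 : ContinuousOn B1 (Ioi 0) := fun r hr => (h2 r hr).continuousAt.continuousWithinAt
  obtain ⟨ξ, e1, e2⟩ := kin_rad (F := fun r => γ r * B r)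
    (F1 := fun r => deriv γ r * B r + γ r * B1 r)
    (F2 := fun r => (deriv (deriv γ) r * B r + deriv γ r * B1 r) + (deriv γ r * B1 r + γ r * B2 r))
    (fun r hr => (d0 r).mul (h1 r hr))
    (fun r hr => ((d1 r).mul (h1 r hr)).add ((d0 r).mul (h2 r hr)))
    (((g2.continuous.continuousOn.mul cB).add (g1.continuous.continuousOn.mul cB1)).add
      ((g1.continuous.continuousOn.mul cB1).add (g0.continuous.continuousOn.mul h3)))
    (r₀ := T - 1 / 2) (r₁ := M + 1) (by linarith) (by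
      rintro r (h | h)
      · simp [hγ, a2 r h]
      · simp [hγ, b3 r h])
  refine ⟨ξ, fun x p q => by rw [e1, one _ p q, one_mul], fun η n1 n2 => ?_⟩
  obtain ⟨i1, i2⟩ := e2 η
  rw [qf, bil_kin.symm, i2, pot, ← integral_const_mul, ← integral_add (i1.const_mul _) (hU.int ξ η)]
  refine integral_nonneg fun x => ?_
  by_cases h : η.f x = 0
  · simp [h]
  · obtain ⟨p, q⟩ := n2 x h
    have := mul_nonneg (n1 x) (hsup x p.le)
    simp only [e1, one _ p.le q.le, (loc _ p q).1, (loc _ p q).2, Pi.zero_apply]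
    linarith

theorem xComp_est {U : E3 → ℝ} (hU : FB e3 U) {u : S e3}
    (hs : ∀ η : S e3, (∀ᵐ x, 0 ≤ η.f x) → qf U u η ≤ 0) {B B1 B2 : ℝ → ℝ}
    (h1 : ∀ r, 0 < r → HasDerivAt B (B1 r) r) (h2 : ∀ r, 0 < r → HasDerivAt B1 (B2 r) r)
    (h3 : ContinuousOn B2 (Ioi 0)) {T c : ℝ} (hT : 1 ≤ T) (hc : 0 < c) (hB : ∀ r, T ≤ r → 0 ≤ B r)
    (hsup : ∀ x : E3, T ≤ ‖x‖ → 0 ≤ -(1 / 2) * (B2 ‖x‖ + 2 / ‖x‖ * B1 ‖x‖) + U x * B ‖x‖)
    (hpos : ∀ x : E3, T ≤ ‖x‖ → c ≤ U x)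
    (hin : ∀ᵐ x : E3, T ≤ ‖x‖ → ‖x‖ ≤ T + 1 → u.f x ≤ B ‖x‖) :
    ∃ K : ℝ, ∀ N₀ N : ℝ, T + 1 ≤ N₀ → N₀ ≤ N →
      IntegrableOn (fun x : E3 => max (u.f x - B ‖x‖) 0 ^ 2) {x | T + 1 ≤ ‖x‖ ∧ ‖x‖ ≤ N₀} ∧
      c * ∫ x in {x : E3 | T + 1 ≤ ‖x‖ ∧ ‖x‖ ≤ N₀}, max (u.f x - B ‖x‖) 0 ^ 2 ≤
        (K / N) ^ 2 / 2 * ip u u := by
  obtain ⟨K, -, hK⟩ := exists_cut
  refine ⟨K, fun N₀ N n0 n1 => ?_⟩
  have hN : 0 < N := by linarith
  obtain ⟨β₁, -, -, a0, a2, a3, -, -, a4, a5, a6, a7, a8⟩ := hK T (T + 1) (by linarith) (by linarith)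
  obtain ⟨β₂, -, -, b0, b2, b3, -, -, b4, b5, b6, b7, b8⟩ := hK N (2 * N) hN (by linarith)
  obtain ⟨ξ, x1, x2⟩ := xComp_sup hU h1 h2 h3 hT (M := 2 * N) (by linarith) hsup
  set θ : E3 → ℝ := fun x => (1 - β₁ ‖x‖) * β₂ ‖x‖ with hθ
  have t0 : ContDiff ℝ ∞ θ := (contDiff_const.sub a5).mul b5
  have t1 : Mul1 θ := mul1_of_compact (t0.of_le (by simp)) (b6.mul_left)
  have t2 : ∀ x k, fderiv ℝ θ x (e3 k) = (1 - β₁ ‖x‖) * fderiv ℝ (fun x : E3 => β₂ ‖x‖) x (e3 k) -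
      β₂ ‖x‖ * fderiv ℝ (fun x : E3 => β₁ ‖x‖) x (e3 k) := by
    intro x k
    have p := (((a5.differentiable (by simp)) x).hasFDerivAt.const_sub 1).mul
      ((b5.differentiable (by simp)) x).hasFDerivAt
    rw [show fderiv ℝ θ x = _ from p.fderiv]
    simp only [add_apply, smul_apply,
      neg_apply, smul_eq_mul]
    ring
  have hL : ∀ᵐ x, (∑ k, fderiv ℝ θ x (e3 k) ^ 2) * max ((u - ξ).f x) 0 ^ 2 ≤
      (K / N) ^ 2 * u.f x ^ 2 := by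
    filter_upwards [hin] with x hx
    have hr : 0 ≤ (K / N) ^ 2 * u.f x ^ 2 := by positivity
    rcases le_total ‖x‖ T with p | p
    · simpa [t2, a8, a2 _ p, (a4 _ (Or.inl p)).1] using hr
    rcases le_total ‖x‖ (T + 1) with q | q
    · have : max ((u - ξ).f x) 0 = 0 := by
        rw [S.sub_f, x1 x p (by linarith)]
        exact max_eq_right (sub_nonpos.2 (hx p q))
      rw [this]
      simpa using hr
    rcases le_total ‖x‖ (2 * N) with s | s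
    · have e : ∑ k, fderiv ℝ θ x (e3 k) ^ 2 = ‖fderiv ℝ (fun x : E3 => β₂ ‖x‖) x‖ ^ 2 := by
        rw [← sum_sq_apply_e3]
        simp [t2, a8, a3 _ q, (a4 _ (Or.inr q)).1]
      have e2 : ‖fderiv ℝ (fun x : E3 => β₂ ‖x‖) x‖ ≤ K / N := by
        have := b7 x
        rwa [show 2 * N - N = N by ring] at this
      have e3 : max ((u - ξ).f x) 0 ≤ |u.f x| := by
        rw [S.sub_f, x1 x p s]
        exact trunc_le (hB _ p)
      rw [e, ← sq_abs (u.f x)]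
      gcongr
    · simpa [t2, a8, b8, b3 _ s, (b4 _ (Or.inr s)).1] using hr
  obtain ⟨η, v, v1, v2, v3⟩ := xComp_cacc (u - ξ) u t1 hL
  have p0 : ∀ x, 0 ≤ η.f x := fun x => by
    rw [v2, v1, ← mul_assoc]
    exact mul_nonneg (mul_self_nonneg _) (le_max_right _ _)
  have p1 : ∀ x, θ x ≠ 0 → T < ‖x‖ ∧ ‖x‖ < 2 * N := fun x h => by
    constructor
    · by_contra q
      exact h (by simp [hθ, a2 _ (not_lt.1 q)])
    · by_contra q
      exact h (by simp [hθ, b3 _ (not_lt.1 q)])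
  have q1 := x2 η p0 fun x h => p1 x fun z => h (by rw [v2, z, zero_mul])
  have q2 := hs η (ae_of_all _ p0)
  have q3 : kin (u - ξ) η + pot U (u - ξ) η ≤ 0 := by
    have := hU.bil_qf.sub_left u ξ η
    rw [qf] at this
    linarith
  have q4 : c * ∫ x, v.f x ^ 2 ≤ pot U (u - ξ) η := by
    rw [pot, ← integral_const_mul]
    refine integral_mono (v.int_sq.const_mul c) (hU.int _ _) fun x => ?_
    have e : (u - ξ).f x * η.f x = v.f x ^ 2 := by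
      rw [v2, v1]
      rcases le_total ((u - ξ).f x) 0 with h | h
      · rw [max_eq_right h]; ring
      · rw [max_eq_left h]; ring
    simp only [e]
    by_cases h : θ x = 0
    · simp [v1, h]
    · exact mul_le_mul_of_nonneg_right (hpos x (p1 x h).1.le) (sq_nonneg _)
  have mA : MeasurableSet {x : E3 | T + 1 ≤ ‖x‖ ∧ ‖x‖ ≤ N₀} :=
    ((isClosed_le continuous_const continuous_norm).inter
      (isClosed_le continuous_norm continuous_const)).measurableSet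
  have eA : EqOn (fun x => v.f x ^ 2) (fun x : E3 => max (u.f x - B ‖x‖) 0 ^ 2)
      {x : E3 | T + 1 ≤ ‖x‖ ∧ ‖x‖ ≤ N₀} := fun x hx => by
    have k1 : T + 1 ≤ ‖x‖ := hx.1
    have k2 : ‖x‖ ≤ N₀ := hx.2
    simp only [v1, hθ, a3 _ k1, b2 _ (k2.trans n1), S.sub_f, x1 x (by linarith) (by linarith)]
    ring
  refine ⟨v.int_sq.integrableOn.congr_fun eA mA, ?_⟩
  rw [← setIntegral_congr_fun mA eA]
  have q5 : ∫ x in {x : E3 | T + 1 ≤ ‖x‖ ∧ ‖x‖ ≤ N₀}, v.f x ^ 2 ≤ ∫ x, v.f x ^ 2 :=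
    setIntegral_le_integral v.int_sq (ae_of_all _ fun x => sq_nonneg _)
  have q6 := mul_le_mul_of_nonneg_left q5 hc.le
  linarith

theorem compare {U : E3 → ℝ} (hU : FB e3 U) {u : S e3}
    (hs : ∀ η : S e3, (∀ᵐ x, 0 ≤ η.f x) → qf U u η ≤ 0) {B B1 B2 : ℝ → ℝ}
    (h1 : ∀ r, 0 < r → HasDerivAt B (B1 r) r) (h2 : ∀ r, 0 < r → HasDerivAt B1 (B2 r) r)
    (h3 : ContinuousOn B2 (Ioi 0)) {T c : ℝ} (hT : 1 ≤ T) (hc : 0 < c) (hB : ∀ r, T ≤ r → 0 ≤ B r)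
    (hsup : ∀ x : E3, T ≤ ‖x‖ → 0 ≤ -(1 / 2) * (B2 ‖x‖ + 2 / ‖x‖ * B1 ‖x‖) + U x * B ‖x‖)
    (hpos : ∀ x : E3, T ≤ ‖x‖ → c ≤ U x)
    (hin : ∀ᵐ x : E3, T ≤ ‖x‖ → ‖x‖ ≤ T + 1 → u.f x ≤ B ‖x‖) :
    ∀ᵐ x : E3, T ≤ ‖x‖ → u.f x ≤ B ‖x‖ := by
  obtain ⟨K, hK⟩ := xComp_est hU hs h1 h2 h3 hT hc hB hsup hpos hin
  have key : ∀ N₀ : ℝ, T + 1 ≤ N₀ → ∀ᵐ x : E3, T + 1 ≤ ‖x‖ ∧ ‖x‖ ≤ N₀ → u.f x ≤ B ‖x‖ := by
    intro N₀ n0
    have mA : MeasurableSet {x : E3 | T + 1 ≤ ‖x‖ ∧ ‖x‖ ≤ N₀} :=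
      ((isClosed_le continuous_const continuous_norm).inter
        (isClosed_le continuous_norm continuous_const)).measurableSet
    have l1 : Tendsto (fun N : ℝ => (K / N) ^ 2 / 2 * ip u u) atTop (𝓝 (0 ^ 2 / 2 * ip u u)) :=
      (((tendsto_const_nhds.div_atTop tendsto_id).pow 2).div_const 2).mul_const _
    have l2 := ge_of_tendsto l1 (by
      filter_upwards [eventually_ge_atTop N₀] with N hN using (hK N₀ N n0 hN).2)
    have nn : 0 ≤ fun x : E3 => max (u.f x - B ‖x‖) 0 ^ 2 := fun x => sq_nonneg _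
    have l3 : ∫ x in {x : E3 | T + 1 ≤ ‖x‖ ∧ ‖x‖ ≤ N₀}, max (u.f x - B ‖x‖) 0 ^ 2 = 0 := by
      refine le_antisymm ?_ (integral_nonneg nn)
      by_contra q
      have := mul_pos hc (not_le.1 q)
      simp at l2
      linarith
    rw [integral_eq_zero_iff_of_nonneg nn (hK N₀ N₀ n0 le_rfl).1, EventuallyEq,
      ae_restrict_iff' mA] at l3
    filter_upwards [l3] with x hx h
    have e : max (u.f x - B ‖x‖) 0 = 0 := pow_eq_zero_iff (two_ne_zero) |>.1 (hx h)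
    have := le_max_left (u.f x - B ‖x‖) 0
    linarith
  have k2 := ae_all_iff.2 fun m : ℕ => key (T + 1 + m) (by simp)
  filter_upwards [hin, k2] with x p q r
  rcases le_total ‖x‖ (T + 1) with s | s
  · exact p r s
  · obtain ⟨m, hm⟩ := exists_nat_ge ‖x‖
    exact q m ⟨s, by linarith⟩

end Vale.Agent.P363
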