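import Vale.Agent.P363.X.Split
import Vale.Agent.P363.A.Cut

/-!
# P363 X/Ker  (TASK, sub-lead helper85)

X3, the kernel estimate.  For `y ≠ x`: `(1/‖x-y‖ - 1/‖x‖)² ≤ ‖y‖² / (‖x‖² ‖x-y‖²)`.  If `‖y‖ ≤ ‖x‖/2` then `1/‖x-y‖² ≤ 4/‖x‖²`; otherwise `‖y‖² e^{-‖y‖/2} ≤ 4 K₁ e^{-‖y‖/4} / ‖x‖²` with `r⁴ e^{-r/4} ≤ K₁`,
and `e^{-‖y‖/4}/‖x-y‖² ≤ indicator (ball x 1) (1/‖y-x‖²) + e^{-‖y‖/4}` has a bounded integral (`integrableOn_inv_sq`, translation invariance, `integrable_pow_exp`).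
`ker_phi`: `Wx x Y - 3/‖x‖` is a sum of three terms, each handled by `integrable_slot`, `integral_slot` (or `memLp_point` with centre `x`); replace `M` by `max M 0`.
-/

open MeasureTheory Filter Topology Set
open scoped ContDiff

set_option linter.unusedSectionVars false

noncomputable section

namespace Vale.Agent.P363

theorem xker_pt {r d ρ : ℝ} (hr : 1 ≤ r) (hd : 0 ≤ d) (h : |r - d| ≤ ρ) :
    (1 / d - 1 / r) ^ 2 ≤ 4 / r ^ 4 * (ρ ^ 2 + ρ ^ 4 * (1 / d ^ 2)) := by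
  have hr0 : 0 < r := by linarith
  have h1 : (r - d) ^ 2 ≤ ρ ^ 2 := sq_le_sq' (abs_le.1 h).1 (abs_le.1 h).2
  have h2 : r ^ 2 ≤ 4 * (d ^ 2 + ρ ^ 2) := by
    nlinarith [(abs_le.1 h).2, sq_nonneg (d - ρ), abs_nonneg (r - d)]
  rcases hd.eq_or_lt with rfl | hd
  · simp only [div_zero, zero_sub, ne_eq, OfNat.ofNat_ne_zero, not_false_eq_true, zero_pow, mul_zero,
      add_zero, neg_sq]
    rw [show (1 / r) ^ 2 = r ^ 2 / r ^ 4 by field_simp, div_mul_eq_mul_div]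
    gcongr
    linarith
  · calc (1 / d - 1 / r) ^ 2 = (r - d) ^ 2 * r ^ 2 / (d ^ 2 * r ^ 4) := by field_simp
      _ ≤ ρ ^ 2 * (4 * (d ^ 2 + ρ ^ 2)) / (d ^ 2 * r ^ 4) := by gcongr
      _ = _ := by field_simp

theorem xker_exp {ρ : ℝ} (h : 0 ≤ ρ) : ρ ^ 4 * Real.exp (-ρ / 2) ≤ 384 := by
  have h1 := Real.pow_div_factorial_le_exp (ρ / 2) (by positivity) 4
  rw [neg_div, Real.exp_neg, ← div_eq_mul_inv, div_le_iff₀ (Real.exp_pos _)]
  norm_num [Nat.factorial] at h1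
  linarith

theorem ker_le : ∃ K : ℝ, 0 ≤ K ∧ ∀ x : E3, 1 ≤ ‖x‖ →
    Integrable (fun y : E3 => (1 / ‖x - y‖ - 1 / ‖x‖) ^ 2 * Real.exp (-‖y‖ / 2)) ∧
      ∫ y : E3, (1 / ‖x - y‖ - 1 / ‖x‖) ^ 2 * Real.exp (-‖y‖ / 2) ≤ K / ‖x‖ ^ 4 := by
  obtain ⟨k, hk⟩ : ∃ k : E3 → ℝ, k = (Metric.ball (0 : E3) 1).indicator fun z => 1 / ‖z - 0‖ ^ 2 :=
    ⟨_, rfl⟩
  have hki : Integrable k := hk ▸ (integrableOn_inv_sq 0 1).integrable_indicator measurableSet_ball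
  have hk1 : ∀ z, 0 ≤ k z ∧ 1 / ‖z‖ ^ 2 ≤ k z + 1 := fun z => by
    rw [hk]
    by_cases hz : z ∈ Metric.ball (0 : E3) 1
    · rw [indicator_of_mem hz, sub_zero]
      exact ⟨by positivity, by linarith⟩
    · rw [indicator_of_notMem hz, zero_add]
      exact ⟨le_rfl, div_le_one_of_le₀ (one_le_pow₀ (by simpa using hz)) (by positivity)⟩
  have hG : Integrable fun y : E3 => (‖y‖ ^ 2 + ‖y‖ ^ 4) * Real.exp (-‖y‖ / 2) := by
    refine ((integrable_pow_exp 2 one_half_pos).add (integrable_pow_exp 4 one_half_pos)).congr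
      (ae_of_all _ fun y => ?_)
    simp only [Pi.add_apply]
    rw [show -(1 / 2 : ℝ) * ‖y‖ = -‖y‖ / 2 by ring, add_mul]
  refine ⟨4 * |(∫ y : E3, (‖y‖ ^ 2 + ‖y‖ ^ 4) * Real.exp (-‖y‖ / 2)) + 384 * ∫ z, k z|,
    by positivity, fun x hx => ?_⟩
  have hb : Integrable fun y : E3 => 4 / ‖x‖ ^ 4 *
      ((‖y‖ ^ 2 + ‖y‖ ^ 4) * Real.exp (-‖y‖ / 2) + 384 * k (y - x)) :=
    (hG.add ((hki.comp_sub_right x).const_mul 384)).const_mul _
  have hle : ∀ y : E3, (1 / ‖x - y‖ - 1 / ‖x‖) ^ 2 * Real.exp (-‖y‖ / 2) ≤ 4 / ‖x‖ ^ 4 *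
      ((‖y‖ ^ 2 + ‖y‖ ^ 4) * Real.exp (-‖y‖ / 2) + 384 * k (y - x)) := fun y => by
    have h1 := xker_pt hx (norm_nonneg (x - y)) (ρ := ‖y‖)
      (by simpa using abs_norm_sub_norm_le x (x - y))
    obtain ⟨h2, h3⟩ := hk1 (y - x)
    rw [norm_sub_rev] at h3
    have h4 := mul_le_mul_of_nonneg_right (xker_exp (norm_nonneg y)) h2
    calc _ ≤ 4 / ‖x‖ ^ 4 * (‖y‖ ^ 2 + ‖y‖ ^ 4 * (k (y - x) + 1)) * Real.exp (-‖y‖ / 2) := by
          gcongr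
          exact h1.trans (by gcongr)
      _ = 4 / ‖x‖ ^ 4 * ((‖y‖ ^ 2 + ‖y‖ ^ 4) * Real.exp (-‖y‖ / 2) +
          ‖y‖ ^ 4 * Real.exp (-‖y‖ / 2) * k (y - x)) := by ring
      _ ≤ _ := by gcongr
  have hi : Integrable fun y : E3 => (1 / ‖x - y‖ - 1 / ‖x‖) ^ 2 * Real.exp (-‖y‖ / 2) :=
    hb.mono' (Measurable.aestronglyMeasurable (by fun_prop)) (ae_of_all _ fun y => by
      rw [Real.norm_of_nonneg (by positivity)]
      exact hle y)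
  refine ⟨hi, (integral_mono hi hb hle).trans ?_⟩
  rw [integral_const_mul, integral_add hG ((hki.comp_sub_right x).const_mul 384), integral_const_mul,
    integral_sub_right_eq_self k x, div_mul_eq_mul_div]
  gcongr
  exact le_abs_self _

/-- The kernel bound for a three-particle state. -/
def KerB (K : ℝ) (Φ : S (eN 3)) : Prop :=
  ∀ x : E3, 1 ≤ ‖x‖ → MemLp (fun Y => (Wx x Y - 3 / ‖x‖) * Φ.f Y) 2 volume ∧
    ∫ Y, ((Wx x Y - 3 / ‖x‖) * Φ.f Y) ^ 2 ≤ (K / ‖x‖ ^ 2) ^ 2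

theorem ker_phi (M : ℝ) : ∃ K : ℝ, 0 ≤ K ∧ ∀ Φ : S (eN 3),
    (∀ j : Fin 3, ∀ᵐ y : E3, rho j Φ.f y ≤ M * Real.exp (-‖y‖ / 2)) → KerB K Φ := by
  obtain ⟨K, hK, h⟩ := ker_le
  have hM : 0 ≤ max M 0 := le_max_right _ _
  refine ⟨3 * √(max M 0 * K), by positivity, fun Φ hΦ x hx => ?_⟩
  obtain ⟨h1, h2⟩ := h x hx
  have hm : Measurable fun y : E3 => 1 / ‖x - y‖ - 1 / ‖x‖ := by fun_prop
  have key : ∀ j : Fin 3, MemLp (fun Y : Cfg 3 => (1 / ‖x - Y j‖ - 1 / ‖x‖) * Φ.f Y) 2 volume ∧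
      ∫ Y : Cfg 3, ((1 / ‖x - Y j‖ - 1 / ‖x‖) * Φ.f Y) ^ 2 ≤ max M 0 * (K / ‖x‖ ^ 4) := fun j => by
    have h3 := (integral_slot j Φ (w := fun _ => 1) (by simpa using Φ.mem.integrable_sq)).1
    simp only [one_mul] at h3
    have h4 : ∀ᵐ y : E3, (1 / ‖x - y‖ - 1 / ‖x‖) ^ 2 * rho j Φ.f y ≤
        max M 0 * ((1 / ‖x - y‖ - 1 / ‖x‖) ^ 2 * Real.exp (-‖y‖ / 2)) := (hΦ j).mono fun y hy => by
      rw [mul_left_comm]
      gcongr
      exact hy.trans (by gcongr; exact le_max_left _ _)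
    have h5 : Integrable fun y : E3 => (1 / ‖x - y‖ - 1 / ‖x‖) ^ 2 * rho j Φ.f y :=
      (h1.const_mul (max M 0)).mono' ((hm.pow_const 2).aestronglyMeasurable.mul h3.1)
        (h4.mono fun y hy => (Real.norm_of_nonneg (mul_nonneg (sq_nonneg _)
          (integral_nonneg fun _ => sq_nonneg _))).trans_le hy)
    have h6 := integrable_slot j Φ (hm.pow_const 2).aestronglyMeasurable h5
    simp only [mul_pow]
    refine ⟨(memLp_two_iff_integrable_sq ((hm.comp (measurable_pi_apply j)).aestronglyMeasurable.mul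
      Φ.mem.1)).2 (by simpa only [Pi.mul_apply, Function.comp_apply, mul_pow] using h6), ?_⟩
    refine (integral_slot j Φ (w := fun y => (1 / ‖x - y‖ - 1 / ‖x‖) ^ 2) h6).2.trans_le
      ((integral_mono_ae h5 (h1.const_mul _) h4).trans ?_)
    rw [integral_const_mul]
    gcongr
  have e : (fun Y => (Wx x Y - 3 / ‖x‖) * Φ.f Y) =
      fun Y => ∑ j : Fin 3, (1 / ‖x - Y j‖ - 1 / ‖x‖) * Φ.f Y := funext fun Y => by
    simp only [Wx, Fin.sum_univ_three]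
    ring
  have hL : MemLp (fun Y => (Wx x Y - 3 / ‖x‖) * Φ.f Y) 2 volume := by
    rw [e]
    exact memLp_finsetSum _ fun j _ => (key j).1
  refine ⟨hL, ?_⟩
  have hs : Integrable fun Y : Cfg 3 => ∑ j : Fin 3, ((1 / ‖x - Y j‖ - 1 / ‖x‖) * Φ.f Y) ^ 2 :=
    integrable_finsetSum _ fun j _ => (key j).1.integrable_sq
  refine (integral_mono hL.integrable_sq (hs.const_mul 3) fun Y => ?_).trans ?_
  · have h3 := sq_sum_le_card_mul_sum_sq (s := Finset.univ)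
      (f := fun j : Fin 3 => (1 / ‖x - Y j‖ - 1 / ‖x‖) * Φ.f Y)
    rw [← congrFun e Y] at h3
    simpa using h3
  · rw [integral_const_mul, integral_finsetSum _ fun j _ => (key j).1.integrable_sq,
      Fin.sum_univ_three, div_pow, mul_pow, Real.sq_sqrt (by positivity)]
    calc _ ≤ 3 * (max M 0 * (K / ‖x‖ ^ 4) + max M 0 * (K / ‖x‖ ^ 4) + max M 0 * (K / ‖x‖ ^ 4)) := by
          gcongr
          exacts [(key 0).2, (key 1).2, (key 2).2]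
      _ = _ := by ring

end Vale.Agent.P363
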