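import Vale.Agent.P363.H.Orb

/-!
# P363 X/Lb1  (block X5, helper86)

Definitions and small tools for the lower bound `x5_core`.
-/

open MeasureTheory Filter Topology Set
open scoped ContDiff

set_option linter.unusedSectionVars false

noncomputable section

namespace Vale.Agent.P363

/-- A cut-off function switching on `[r, r + 1]`. -/
structure LbCut (K r : ℝ) (β : ℝ → ℝ) : Prop where
  sm : ContDiff ℝ ∞ β
  anti : Antitone β
  bd : ∀ t, 0 ≤ β t ∧ β t ≤ 1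
  one : ∀ t, t ≤ r → β t = 1
  zero : ∀ t, r + 1 ≤ t → β t = 0
  d1 : ∀ t, |deriv β t| ≤ K
  d2 : ∀ t, |deriv (deriv β) t| ≤ K
  dz : ∀ t, t ≤ r ∨ r + 1 ≤ t → deriv β t = 0 ∧ deriv (deriv β) t = 0

/-- The growing comparison function `t ^ (-a) e ^ (κ t)`. -/
def lbf (κ a t : ℝ) : ℝ := Real.exp (κ * t - a * Real.log t)

/-- The commutator term. -/
def lbN (κ a : ℝ) (β : ℝ → ℝ) (t : ℝ) : ℝ :=
  (deriv (deriv β) t + 2 * deriv β t * (κ - a / t) + 4 * deriv β t / t) * lbf κ a t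

theorem lb_cut : ∃ K : ℝ, 0 < K ∧ ∀ r : ℝ, 0 < r → ∃ β : ℝ → ℝ, LbCut K r β := by
  obtain ⟨K, hK, h⟩ := exists_cut
  refine ⟨K, hK, fun r hr => ?_⟩
  obtain ⟨β, a1, a2, a3, a4, a5, a6, a7, a8, -⟩ := h r (r + 1) hr (by linarith)
  refine ⟨β, a1, a2, a3, a4, a5, fun t => ?_, fun t => ?_, a8⟩
  · simpa using a6 t
  · simpa using a7 t

theorem LbCut.hd1 {K r : ℝ} {β : ℝ → ℝ} (h : LbCut K r β) (t : ℝ) :
    HasDerivAt β (deriv β t) t :=
  ((contDiff_infty_iff_deriv.1 h.sm).1 t).hasDerivAt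

theorem LbCut.hd2 {K r : ℝ} {β : ℝ → ℝ} (h : LbCut K r β) (t : ℝ) :
    HasDerivAt (deriv β) (deriv (deriv β) t) t :=
  ((contDiff_infty_iff_deriv.1 (contDiff_infty_iff_deriv.1 h.sm).2).1 t).hasDerivAt

theorem lbf_pos (κ a t : ℝ) : 0 < lbf κ a t := Real.exp_pos _

theorem lbf_deriv (κ a : ℝ) {t : ℝ} (ht : 0 < t) :
    HasDerivAt (lbf κ a) ((κ - a / t) * lbf κ a t) t := by
  have h := (((hasDerivAt_id t).const_mul κ).sub ((Real.hasDerivAt_log ht.ne').const_mul a)).exp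
  refine h.congr_deriv ?_
  simp only [lbf, id, Pi.sub_apply, div_eq_mul_inv]
  ring

theorem lbf_meas (κ a : ℝ) : Measurable (lbf κ a) := by
  unfold lbf
  fun_prop

theorem lbN_meas (κ a : ℝ) (β : ℝ → ℝ) : Measurable (lbN κ a β) := by
  have h1 := measurable_deriv β
  have h2 := measurable_deriv (deriv β)
  have h3 := lbf_meas κ a
  unfold lbN
  fun_prop

theorem lbf_le {κ a t : ℝ} (ha : 1 ≤ a) (ht : 1 ≤ t) : t * lbf κ a t ≤ Real.exp (κ * t) := by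
  have h0 : 0 ≤ Real.log t := Real.log_nonneg ht
  have h1 : t = Real.exp (Real.log t) := (Real.exp_log (by linarith)).symm
  calc t * lbf κ a t = Real.exp (Real.log t + (κ * t - a * Real.log t)) := by
        rw [Real.exp_add, ← h1, lbf]
    _ ≤ _ := Real.exp_le_exp.2 (by nlinarith)

theorem lbN_zero {K r : ℝ} {β : ℝ → ℝ} (h : LbCut K r β) (κ a : ℝ) {t : ℝ}
    (ht : t ≤ r ∨ r + 1 ≤ t) : lbN κ a β t = 0 := by
  simp [lbN, (h.dz t ht).1, (h.dz t ht).2]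

theorem lbN_le {K r : ℝ} {β : ℝ → ℝ} (h : LbCut K r β) (hr : 1 ≤ r) {κ a : ℝ} (h0 : 0 ≤ κ)
    (h1 : κ ≤ 1) (h2 : 1 ≤ a) (h3 : a ≤ 5) (x : E3) :
    |x 2 * lbN κ a β ‖x‖| ≤ 17 * K * Real.exp (κ * ‖x‖) := by
  have hK : 0 ≤ K := (abs_nonneg _).trans (h.d1 0)
  by_cases hx : ‖x‖ ≤ r
  · rw [lbN_zero h κ a (Or.inl hx), mul_zero, abs_zero]
    positivity
  have ht : 1 ≤ ‖x‖ := by linarith [not_le.1 hx]
  have e1 : a / ‖x‖ ≤ 5 := (div_le_self (by linarith) ht).trans h3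
  have e0 : 0 ≤ a / ‖x‖ := by positivity
  have e2 : |κ - a / ‖x‖| ≤ 6 := abs_le.2 ⟨by linarith, by linarith⟩
  have e3 : |2 * deriv β ‖x‖ * (κ - a / ‖x‖)| ≤ 12 * K := by
    rw [abs_mul, abs_mul, abs_two]
    nlinarith [h.d1 ‖x‖, abs_nonneg (deriv β ‖x‖), abs_nonneg (κ - a / ‖x‖)]
  have e4 : |4 * deriv β ‖x‖ / ‖x‖| ≤ 4 * K := by
    rw [abs_div, abs_mul, abs_norm, abs_of_pos (by norm_num : (0 : ℝ) < 4)]
    exact (div_le_self (by positivity) ht).trans (by linarith [h.d1 ‖x‖])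
  have e5 : |deriv (deriv β) ‖x‖ + 2 * deriv β ‖x‖ * (κ - a / ‖x‖) + 4 * deriv β ‖x‖ / ‖x‖| ≤
      17 * K := (abs_add_three _ _ _).trans (by linarith [h.d2 ‖x‖])
  have e6 := lbf_le (κ := κ) h2 ht
  have e7 := lbf_pos κ a ‖x‖
  rw [lbN, abs_mul, abs_mul, abs_of_pos e7]
  calc _ ≤ ‖x‖ * (17 * K * lbf κ a ‖x‖) := by
        gcongr
        exact abs_coord_le x 2
    _ = 17 * K * (‖x‖ * lbf κ a ‖x‖) := by ring
    _ ≤ _ := by gcongr

theorem lb_mem {g : E3 → ℝ} (hg : Measurable g) {C R : ℝ} (hb : ∀ x, ‖x‖ ≤ R → |g x| ≤ C)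
    (hz : ∀ x, R ≤ ‖x‖ → g x = 0) : MemLp g 2 volume ∧
      ∫ x, g x ^ 2 ≤ C ^ 2 * volume.real (Metric.closedBall (0 : E3) R) := by
  have hfin : volume (Metric.closedBall (0 : E3) R) ≠ ⊤ := measure_closedBall_lt_top.ne
  have hm : MeasurableSet (Metric.closedBall (0 : E3) R) := measurableSet_closedBall
  have h1 : ∀ x, |g x| ≤ (Metric.closedBall (0 : E3) R).indicator (fun _ => C) x := fun x => by
    by_cases hx : ‖x‖ ≤ R
    · rw [indicator_of_mem (mem_closedBall_zero_iff.2 hx)]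
      exact hb x hx
    · rw [indicator_of_notMem (mt mem_closedBall_zero_iff.1 hx), hz x (not_le.1 hx).le, abs_zero]
  have h2 : MemLp g 2 volume :=
    (memLp_indicator_const 2 hm C (Or.inr hfin)).mono' hg.aestronglyMeasurable (ae_of_all _ h1)
  refine ⟨h2, ?_⟩
  have h3 : Integrable ((Metric.closedBall (0 : E3) R).indicator fun _ => C ^ 2) :=
    (integrable_indicator_iff hm).2 (integrableOn_const hfin)
  calc ∫ x, g x ^ 2 ≤ ∫ x, (Metric.closedBall (0 : E3) R).indicator (fun _ => C ^ 2) x := by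
        refine integral_mono h2.integrable_sq h3 fun x => ?_
        by_cases hx : ‖x‖ ≤ R
        · rw [indicator_of_mem (mem_closedBall_zero_iff.2 hx), ← sq_abs]
          exact pow_le_pow_left₀ (abs_nonneg _) (hb x hx) 2
        · simp [indicator_of_notMem (mt mem_closedBall_zero_iff.1 hx), hz x (not_le.1 hx).le]
    _ = _ := by rw [integral_indicator_const _ hm, smul_eq_mul, mul_comm]

theorem lb_tail {G : E3 → ℝ} (hG : Integrable G) :
    Tendsto (fun m : ℕ => ∫ x in {x : E3 | (m : ℝ) ≤ ‖x‖}, G x) atTop (𝓝 0) := by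
  have h := tendsto_setIntegral_of_antitone (s := fun m : ℕ => {x : E3 | (m : ℝ) ≤ ‖x‖}) (f := G)
    (μ := volume) (fun m => measurableSet_le measurable_const measurable_norm)
    (fun m l hml x (hx : (l : ℝ) ≤ ‖x‖) => show (m : ℝ) ≤ ‖x‖ from (Nat.cast_le.2 hml).trans hx)
    ⟨0, hG.integrableOn⟩
  have e : (⋂ m : ℕ, {x : E3 | (m : ℝ) ≤ ‖x‖}) = ∅ := by
    refine eq_empty_of_forall_notMem fun x hx => ?_
    obtain ⟨m, hm⟩ := exists_nat_gt ‖x‖
    exact absurd (mem_iInter.1 hx m) (not_le.2 hm)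
  rwa [e, setIntegral_empty] at h

end Vale.Agent.P363
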