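import Vale.Agent.P363.X.Lb1

/-!
# P363 X/Lb2  (block X5)

The Laplacian of `x 2 * F ‖x‖`.  `kin_C2` with `ξ x = x 2 * F ‖x‖`; `ξ` is `C²` (near a point with `‖x‖ < r` it vanishes, elsewhere `contDiffAt_norm`), compact support as in `exists_cut`.
For `y ≠ 0`: `fderiv ξ y (e3 k) = e3 k 2 * F ‖y‖ + y 2 * (F1 ‖y‖ / ‖y‖ * y k)` (`fderiv_radial`, `hasFDerivAt_coord`, `hasFDerivAt_norm'`); differentiate once more at `x ≠ 0` (`Filter.EventuallyEq.fderiv_eq`),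
sum over `k` with `sum_sq_coord`; `x ≠ 0` a.e. (`ae_norm_ne 0`).
-/

open MeasureTheory Filter Topology Set
open scoped ContDiff

set_option linter.unusedSectionVars false

noncomputable section

namespace Vale.Agent.P363

theorem lb2_rad {G : ℝ → ℝ} {g : ℝ} {x : E3} (hx : x ≠ 0) (h : HasDerivAt G g ‖x‖) :
    HasFDerivAt (fun y : E3 => G ‖y‖) (g • ‖x‖⁻¹ • innerSL ℝ x) x :=
  h.comp_hasFDerivAt x (hasFDerivAt_norm' hx)

theorem lb2_inner (x : E3) (k : Fin 3) : inner ℝ x (e3 k) = x k := by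
  simp [e3, EuclideanSpace.inner_single_right]

theorem lb_test (d : S e3) {F F1 F2 : ℝ → ℝ} (hF : ∀ t, 0 < t → ContDiffAt ℝ 2 F t)
    (h1 : ∀ t, 0 < t → HasDerivAt F (F1 t) t) (h2 : ∀ t, 0 < t → HasDerivAt F1 (F2 t) t) {r s : ℝ}
    (hr : 0 < r) (hz : ∀ t, t ≤ r ∨ s ≤ t → F t = 0) :
    ∃ ξ : S e3, (∀ x, ξ.f x = x 2 * F ‖x‖) ∧
      kin d ξ = -(1 / 2) * ∫ x, d.f x * (x 2 * (F2 ‖x‖ + 4 * F1 ‖x‖ / ‖x‖)) := by
  have c2 : ContDiff ℝ 2 fun x : E3 => x 2 * F ‖x‖ := by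
    refine ((contDiff_coord 2).of_le (WithTop.coe_le_coe.2 (le_top : (2 : ℕ∞) ≤ ⊤))).mul
      (contDiff_iff_contDiffAt.2 fun x => ?_)
    by_cases hx : x = 0
    · refine (contDiffAt_const (c := 0)).congr_of_eventuallyEq ?_
      filter_upwards [Metric.ball_mem_nhds x hr] with y hy
      exact hz _ (.inl (by simpa [hx] using (mem_ball_iff_norm.1 hy).le))
    · exact (hF _ (norm_pos_iff.2 hx)).comp x (contDiffAt_norm ℝ hx)
  have cs : HasCompactSupport fun x : E3 => x 2 * F ‖x‖ :=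
    HasCompactSupport.intro (isCompact_closedBall 0 s) fun x hx => by
      rw [hz _ (.inr (not_le.1 (mt mem_closedBall_zero_iff.2 hx)).le), mul_zero]
  obtain ⟨ξ, a1, -, a2⟩ := kin_C2 d c2 cs
  refine ⟨ξ, fun x => by rw [a1], a2.trans (congrArg _ (integral_congr_ae ?_))⟩
  filter_upwards [ae_norm_ne 0] with x hx
  have x0 : x ≠ 0 := norm_ne_zero_iff.1 hx
  have x1 := norm_pos_iff.2 x0
  have e : ∀ k, fderiv ℝ (fun y => fderiv ℝ (fun x : E3 => x 2 * F ‖x‖) y (e3 k)) x (e3 k) =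
      2 * (e3 k 2 * x k) * (F1 ‖x‖ / ‖x‖) + x 2 * (F1 ‖x‖ / ‖x‖) +
        x k ^ 2 * (x 2 * ((F2 ‖x‖ * ‖x‖ - F1 ‖x‖) / ‖x‖ ^ 3)) := fun k => by
    have b : (fun y => fderiv ℝ (fun x : E3 => x 2 * F ‖x‖) y (e3 k)) =ᶠ[𝓝 x]
        fun y => e3 k 2 * F ‖y‖ + y 2 * (F1 ‖y‖ / ‖y‖ * y k) := by
      filter_upwards [isOpen_ne.mem_nhds x0] with y hy
      rw [((hasFDerivAt_coord 2 y).fun_mul (lb2_rad hy (h1 _ (norm_pos_iff.2 hy)))).fderiv]
      simp [lb2_inner]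
      ring
    rw [b.fderiv_eq, (((lb2_rad x0 (h1 _ x1)).const_mul _).fun_add ((hasFDerivAt_coord 2 x).fun_mul
      ((lb2_rad x0 ((h2 _ x1).fun_div (hasDerivAt_id' _) hx)).fun_mul
        (hasFDerivAt_coord k x)))).fderiv]
    simp [lb2_inner, e3_apply k k]
    field_simp
    ring
  simp only [e, Finset.sum_add_distrib, ← Finset.sum_mul, sum_sq_coord]
  simp [e3_apply]
  left
  field_simp
  ring

end Vale.Agent.P363
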