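import Vale.Agent.P363.X.Lb1

/-!
# P363 X/Lb3  (block X5)

`lb_sym`: `∫ x k ^ 2 * h ‖x‖` does not depend on `k` (`LinearIsometryEquiv.piLpCongrLeft 2 ℝ ℝ (Equiv.swap k 2)`, `LinearIsometryEquiv.measurePreserving`), sum over `k` (`sum_sq_coord`), `integral_radial`.
`lb_main`: `(orb 4).f x = nrm 4 * (x 2 * exp (-‖x‖ / 2))` (`orb_f`, `raw_p 2` or `rfl`), `lb_sym` with `h t = exp (-t / 2) * lbN κ a β t` (integrable by `lb_mem`-type bound: `lbN_le`, `lbN_zero`, or continuity on the compact `Icc T (T + 1)`).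
The radial integral is over `[T, T + 1]` (`lbN_zero`, `setIntegral_eq_of_subset_of_forall_diff_eq_zero`, `intervalIntegral.integral_of_le`).
Put `P t = t ^ 4 * exp (-t / 2) * lbf κ a t = exp ((κ - 1 / 2) t + (4 - a) log t) ≥ 1 / 2` on `[T, T + 1]` (`log t ≤ t`, `Real.add_one_le_exp`), `g t = P t * β' t + β t / 4`.
`t ^ 4 * h t = (P β')' + P β' (κ + 1 / 2 - a / t) ≤ g' t` because `β' ≤ 0` (`Antitone.deriv_nonpos`) and `κ + 1 / 2 - a / t ≥ 1 / 2`; `intervalIntegral.integral_le_sub_of_hasDeriv_right_of_le`, `g (T + 1) - g T = -1 / 4`.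
-/

open MeasureTheory Filter Topology Set
open scoped ContDiff

set_option linter.unusedSectionVars false

noncomputable section

namespace Vale.Agent.P363

theorem lb3_swap (h : ℝ → ℝ) (k : Fin 3) :
    ∫ x : E3, x k ^ 2 * h ‖x‖ = ∫ x : E3, x 2 ^ 2 * h ‖x‖ := by
  obtain ⟨T, hT⟩ := exists_sym_rot (LinearIsometryEquiv.piLpCongrLeft 2 ℝ ℝ (Equiv.swap k 2))
  rw [← hT.integral fun x : E3 => x 2 ^ 2 * h ‖x‖]
  refine integral_congr_ae (ae_of_all _ fun x => ?_)
  have e : (LinearIsometryEquiv.piLpCongrLeft 2 ℝ ℝ (Equiv.swap k 2) x) 2 = x k := by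
    have e1 : (LinearIsometryEquiv.piLpCongrLeft 2 ℝ ℝ (Equiv.swap k 2) x) 2 =
        x ((Equiv.swap k 2).symm 2) := rfl
    rw [e1, Equiv.symm_swap, Equiv.swap_apply_right]
  simp only [LinearIsometryEquiv.norm_map, e]

theorem lb_sym {h : ℝ → ℝ} (hm : Measurable h) (hi : Integrable fun x : E3 => ‖x‖ ^ 2 * h ‖x‖) :
    ∫ x : E3, x 2 ^ 2 * h ‖x‖ = 4 * Real.pi / 3 * ∫ t in Ioi (0 : ℝ), t ^ 4 * h t := by
  have hk : ∀ k : Fin 3, Integrable fun x : E3 => x k ^ 2 * h ‖x‖ := fun k => by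
    refine hi.mono ((((contDiff_coord k).continuous.measurable.pow_const 2).mul
      (hm.comp measurable_norm)).aestronglyMeasurable) (ae_of_all _ fun x => ?_)
    rw [norm_mul, norm_mul]
    refine mul_le_mul_of_nonneg_right ?_ (norm_nonneg _)
    rw [norm_pow, norm_pow, norm_norm, Real.norm_eq_abs]
    exact pow_le_pow_left₀ (abs_nonneg _) (abs_coord_le x k) 2
  have h1 : ∫ x : E3, ‖x‖ ^ 2 * h ‖x‖ = ∑ k : Fin 3, ∫ x : E3, x k ^ 2 * h ‖x‖ := by
    rw [← integral_finsetSum _ fun k _ => hk k]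
    refine integral_congr_ae (ae_of_all _ fun x => ?_)
    simp only
    rw [← Finset.sum_mul, sum_sq_coord]
  rw [Fin.sum_univ_three, lb3_swap h 0, lb3_swap h 1,
    integral_radial fun r => r ^ 2 * h r] at h1
  have h2 : ∫ r in Ioi (0 : ℝ), r ^ 2 * (r ^ 2 * h r) = ∫ t in Ioi (0 : ℝ), t ^ 4 * h t :=
    integral_congr_ae (ae_of_all _ fun x => by ring)
  rw [h2] at h1
  linarith

theorem lb3_cont {K T : ℝ} {β : ℝ → ℝ} (h : LbCut K T β) (κ a : ℝ) {t : ℝ} (ht : 0 < t) :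
    ContinuousAt (lbN κ a β) t := by
  have h1 : ContinuousAt (deriv β) t := (h.hd2 t).continuousAt
  have h2 : ContinuousAt (deriv (deriv β)) t :=
    (contDiff_infty_iff_deriv.1 (contDiff_infty_iff_deriv.1 h.sm).2).2.continuous.continuousAt
  have h3 : ContinuousAt (lbf κ a) t := (lbf_deriv κ a ht).continuousAt
  have h4 : ContinuousAt (fun s : ℝ => a / s) t := continuousAt_const.div continuousAt_id ht.ne'
  have h5 : ContinuousAt (fun s : ℝ => 4 * deriv β s / s) t :=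
    (continuousAt_const.mul h1).div continuousAt_id ht.ne'
  exact ((h2.add ((continuousAt_const.mul h1).mul (continuousAt_const.sub h4))).add h5).mul h3

theorem lb3_P {T κ a δ t : ℝ} (hT : 20 ≤ T) (hκ : |κ - 1 / 2| ≤ δ) (ha : |a - 4| ≤ δ)
    (hδ : δ * (T + 1) ≤ 1 / 4) (h1 : T ≤ t) (h2 : t ≤ T + 1) :
    1 / 4 ≤ t ^ 4 * Real.exp (-t / 2) * lbf κ a t * (κ + 1 / 2 - a / t) := by
  have ht : 0 < t := by linarith
  have hδ0 : 0 ≤ δ := (abs_nonneg _).trans hκ
  have k1 := abs_le.1 hκ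
  have a1 := abs_le.1 ha
  have hδ1 : δ ≤ 1 / 84 := by nlinarith
  have l0 : 0 ≤ Real.log t := Real.log_nonneg (by linarith)
  have l1 : Real.log t ≤ t := (Real.log_le_sub_one_of_pos ht).trans (by linarith)
  have e1 : t ^ 4 * Real.exp (-t / 2) * lbf κ a t =
      Real.exp ((κ - 1 / 2) * t + (4 - a) * Real.log t) := by
    have e2 : t ^ 4 = Real.exp (4 * Real.log t) := by
      rw [show (4 : ℝ) = ((4 : ℕ) : ℝ) by norm_num, Real.exp_nat_mul, Real.exp_log ht]
    rw [e2, lbf, ← Real.exp_add, ← Real.exp_add]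
    congr 1
    ring
  have e3 : -(1 / 2) ≤ (κ - 1 / 2) * t + (4 - a) * Real.log t := by
    have f1 : -δ * t ≤ (κ - 1 / 2) * t := mul_le_mul_of_nonneg_right k1.1 ht.le
    have f2 : -δ * Real.log t ≤ (4 - a) * Real.log t :=
      mul_le_mul_of_nonneg_right (by linarith) l0
    have f3 : δ * Real.log t ≤ δ * (T + 1) := mul_le_mul_of_nonneg_left (by linarith) hδ0
    have f4 : δ * t ≤ δ * (T + 1) := mul_le_mul_of_nonneg_left h2 hδ0
    linarith
  have e4 : 1 / 2 ≤ t ^ 4 * Real.exp (-t / 2) * lbf κ a t := by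
    rw [e1]
    linarith [Real.add_one_le_exp ((κ - 1 / 2) * t + (4 - a) * Real.log t)]
  have e5 : a / t ≤ 1 / 4 := by
    rw [div_le_iff₀ ht]
    linarith
  have e6 : 1 / 2 ≤ κ + 1 / 2 - a / t := by linarith
  calc (1 / 4 : ℝ) = 1 / 2 * (1 / 2) := by norm_num
    _ ≤ _ := mul_le_mul e4 e6 (by norm_num) (by linarith)

theorem lb3_int {K T κ a δ : ℝ} {β : ℝ → ℝ} (h : LbCut K T β) (hT : 20 ≤ T) (hκ : |κ - 1 / 2| ≤ δ)
    (ha : |a - 4| ≤ δ) (hδ : δ * (T + 1) ≤ 1 / 4)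
    (hi : IntegrableOn (fun t => t ^ 4 * (Real.exp (-t / 2) * lbN κ a β t)) (Icc T (T + 1))) :
    ∫ t in T..(T + 1), t ^ 4 * (Real.exp (-t / 2) * lbN κ a β t) ≤ -(1 / 4) := by
  have hd : ∀ t, 0 < t → HasDerivAt
      (fun s => s ^ 4 * Real.exp (-s / 2) * lbf κ a s * deriv β s + β s / 4)
      (t ^ 4 * Real.exp (-t / 2) * lbf κ a t *
        (deriv (deriv β) t + (4 / t - 1 / 2 + κ - a / t) * deriv β t) + deriv β t / 4) t := by
    intro t ht
    have d1 : HasDerivAt (fun s : ℝ => Real.exp (-s / 2)) (Real.exp (-t / 2) * (-1 / 2)) t :=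
      ((hasDerivAt_neg t).div_const 2).exp
    have d2 := (((((hasDerivAt_pow 4 t).mul d1).mul (lbf_deriv κ a ht)).mul (h.hd2 t)).add
      ((h.hd1 t).div_const 4))
    refine d2.congr_deriv ?_
    simp only [Pi.mul_apply]
    have ht' := ht.ne'
    field_simp
    ring
  have h1 := intervalIntegral.integral_le_sub_of_hasDeriv_right_of_le (a := T) (b := T + 1)
    (by linarith) (fun t ht => (hd t (by linarith [ht.1])).continuousAt.continuousWithinAt)
    (fun t ht => (hd t (by linarith [ht.1])).hasDerivWithinAt) hi (fun t ht => ?_)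
  · refine h1.trans (le_of_eq ?_)
    rw [(h.dz T (Or.inl le_rfl)).1, (h.dz (T + 1) (Or.inr le_rfl)).1, h.one T le_rfl,
      h.zero (T + 1) le_rfl]
    ring
  · have h2 := lb3_P hT hκ ha hδ ht.1.le ht.2.le
    have h3 : deriv β t ≤ 0 := h.anti.deriv_nonpos
    have h4 := mul_le_mul_of_nonpos_right h2 h3
    have e : t ^ 4 * (Real.exp (-t / 2) * lbN κ a β t) =
        t ^ 4 * Real.exp (-t / 2) * lbf κ a t *
          (deriv (deriv β) t + (4 / t - 1 / 2 + κ - a / t) * deriv β t) +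
        t ^ 4 * Real.exp (-t / 2) * lbf κ a t * (κ + 1 / 2 - a / t) * deriv β t := by
      unfold lbN
      ring
    rw [e]
    linarith

theorem lb_main {K T κ a δ : ℝ} {β : ℝ → ℝ} (h : LbCut K T β) (hT : 20 ≤ T) (hκ : |κ - 1 / 2| ≤ δ)
    (ha : |a - 4| ≤ δ) (hδ : δ * (T + 1) ≤ 1 / 4) :
    ∫ x, (orb 4).f x * (x 2 * lbN κ a β ‖x‖) ≤ -(nrm 4 * Real.pi / 3) := by
  have hi : IntegrableOn (fun t => t ^ 4 * (Real.exp (-t / 2) * lbN κ a β t)) (Icc T (T + 1)) := by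
    refine ContinuousOn.integrableOn_Icc fun t ht => ContinuousAt.continuousWithinAt ?_
    have h1 := lb3_cont h κ a (show 0 < t by linarith [ht.1])
    have h2 : ContinuousAt (fun s : ℝ => Real.exp (-s / 2)) t := by fun_prop
    exact (continuousAt_pow t 4).mul (h2.mul h1)
  have hz : ∀ t, t ∉ Ioc T (T + 1) → t ^ 4 * (Real.exp (-t / 2) * lbN κ a β t) = 0 := fun t ht => by
    rw [lbN_zero h κ a, mul_zero, mul_zero]
    by_contra hc
    push Not at hc
    exact ht ⟨hc.1, hc.2.le⟩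
  have hi2 : IntegrableOn (fun t => t ^ 4 * (Real.exp (-t / 2) * lbN κ a β t)) (Ioi 0) :=
    (hi.mono_set Ioc_subset_Icc_self).of_forall_sdiff_eq_zero measurableSet_Ioi
      fun t ht => hz t ht.2
  have hi3 : Integrable fun x : E3 => ‖x‖ ^ 2 * (Real.exp (-‖x‖ / 2) * lbN κ a β ‖x‖) :=
    integrable_radial (f := fun r => r ^ 2 * (Real.exp (-r / 2) * lbN κ a β r))
      (hi2.congr_fun (fun t _ => by ring) measurableSet_Ioi)
  have hm : Measurable fun t : ℝ => Real.exp (-t / 2) * lbN κ a β t :=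
    (by fun_prop : Measurable fun t : ℝ => Real.exp (-t / 2)).mul (lbN_meas κ a β)
  have h1 := lb_sym hm hi3
  have h2 : ∫ t in Ioi (0 : ℝ), t ^ 4 * (Real.exp (-t / 2) * lbN κ a β t) =
      ∫ t in T..(T + 1), t ^ 4 * (Real.exp (-t / 2) * lbN κ a β t) := by
    rw [intervalIntegral.integral_of_le (by linarith)]
    exact setIntegral_eq_of_subset_of_forall_sdiff_eq_zero measurableSet_Ioi
      (fun t ht => show 0 < t by linarith [ht.1]) fun t ht => hz t ht.2
  have h3 := lb3_int h hT hκ ha hδ hi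
  have h4 : ∫ x, (orb 4).f x * (x 2 * lbN κ a β ‖x‖) =
      nrm 4 * ∫ x : E3, x 2 ^ 2 * (Real.exp (-‖x‖ / 2) * lbN κ a β ‖x‖) := by
    rw [← integral_const_mul]
    refine integral_congr_ae (ae_of_all _ fun x => ?_)
    have e : (orb 4).f x = nrm 4 * (x 2 * Real.exp (-‖x‖ / 2)) := rfl
    simp only [e]
    ring
  rw [h4, h1, h2]
  have h5 := mul_le_mul_of_nonneg_left h3
    (show 0 ≤ nrm 4 * (4 * Real.pi / 3) by have := nrm_pos 4; positivity)
  linarith

end Vale.Agent.P363
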