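import Vale.Agent.P363.X.Split
import Vale.Agent.P363.A.Cut

/-!
# P363 X/Q0  (TASK, sub-lead helper85)

X4, preparations.  `q_orth`: the slice of `Q = a - tens i d Φ` at `x` is `rsl i a x - d x • Φ` almost everywhere (`rsl_ae`), `ip_rsl_pr`, `ip_rsl_self`, bilinearity.
`kinI_mul_ge`: pointwise `g (ζ² g + 2 ζ z q) ≥ -z² q²`, `fderiv` of `ζ²`, `sum_sq_apply_e3`, `integral_slot`.
-/

open MeasureTheory Filter Topology Set
open scoped ContDiff

set_option linter.unusedSectionVars false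

noncomputable section

namespace Vale.Agent.P363

variable {n : ℕ}

theorem q_orth (i : Fin (n + 1)) (a : S (eN (n + 1))) {Φ : S (eN n)} (hΦ : ip Φ Φ = 1) :
    ∀ᵐ x : E3, ip Φ (rsl i (a - tens i ((slotFib i a).pr Φ.mem) Φ) x) = 0 ∧
      rho i (a - tens i ((slotFib i a).pr Φ.mem) Φ).f x =
        rho i a.f x - ((slotFib i a).pr Φ.mem).f x ^ 2 := by
  obtain ⟨d, hd⟩ : ∃ d, d = (slotFib i a).pr Φ.mem := ⟨_, rfl⟩
  have h0 := ip_rsl_pr i a Φ
  rw [← hd] at h0 ⊢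
  filter_upwards [h0, rsl_ae i a, rsl_ae i (a - tens i d Φ), ip_rsl_self i a,
    ip_rsl_self i (a - tens i d Φ)] with x h1 h2 h3 h4 h5
  have e : (rsl i (a - tens i d Φ) x).f =ᵐ[volume] (rsl i a x - d.f x • Φ).f :=
    Eventually.of_forall fun Y => by
      rw [h3.1, S.sub_f, S.sub_f, S.smul_f, h2.1, tens_f, Fin.insertNth_apply_same,
        Fin.removeNth_insertNth]
  constructor
  · rw [bil_ip.symm, ip_congr e, bil_ip.sub_left, bil_ip.smul, bil_ip.symm, h1, hΦ, mul_one,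
      sub_self]
  · rw [← h5, ip_congr e, bil_ip.symm, ip_congr e, bil_ip.sub_sq, bil_ip.smul_sq,
      bil_ip.smul_right, bil_ip.symm _ Φ, h1, hΦ, h4]
    ring

theorem kinI_mul_ge (i : Fin (n + 1)) (Q b : S (eN (n + 1))) {ζ : E3 → ℝ} (hζ : Mul1 ζ)
    (hb : ∀ k X, b.g (i, k) X = ζ (X i) * ζ (X i) * Q.g (i, k) X +
      fderiv ℝ (fun x => ζ x * ζ x) (X i) (e3 k) * Q.f X) :
    -(1 / 2 * ∫ x, ‖fderiv ℝ ζ x‖ ^ 2 * rho i Q.f x) ≤ kinI i Q b := by
  obtain ⟨h1, C, hC⟩ := hζ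
  have hc : Continuous fun X : Cfg (n + 1) => ‖fderiv ℝ ζ (X i)‖ ^ 2 :=
    ((h1.continuous_fderiv one_ne_zero).comp (continuous_apply i)).norm.pow 2
  have hI : Integrable fun X : Cfg (n + 1) => ‖fderiv ℝ ζ (X i)‖ ^ 2 * Q.f X ^ 2 :=
    Q.int_sq.bdd_mul (c := C ^ 2) hc.aestronglyMeasurable (Eventually.of_forall fun X => by
      rw [Real.norm_of_nonneg (sq_nonneg _)]
      exact pow_le_pow_left₀ (norm_nonneg _) (hC _).2 2)
  rw [← (integral_slot i Q (w := fun x => ‖fderiv ℝ ζ x‖ ^ 2) hI).2, kinI,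
    ← integral_finsetSum _ fun k _ => Q.int_gmul b _ _, ← mul_neg, ← integral_neg]
  refine mul_le_mul_of_nonneg_left (integral_mono hI.neg
    (integrable_finsetSum _ fun k _ => Q.int_gmul b _ _) fun X => ?_) (by norm_num)
  have hd := (h1.differentiable one_ne_zero (X i)).hasFDerivAt
  change -(‖fderiv ℝ ζ (X i)‖ ^ 2 * Q.f X ^ 2) ≤ ∑ k, Q.g (i, k) X * b.g (i, k) X
  rw [← sum_sq_apply_e3, Finset.sum_mul, ← Finset.sum_neg_distrib]
  refine Finset.sum_le_sum fun k _ => ?_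
  have e : fderiv ℝ (fun x => ζ x * ζ x) (X i) (e3 k) =
      2 * ζ (X i) * fderiv ℝ ζ (X i) (e3 k) := by
    have h2 : fderiv ℝ (fun x => ζ x * ζ x) (X i) = _ := (hd.mul hd).fderiv
    rw [h2, add_apply, smul_apply, smul_eq_mul]
    ring
  rw [hb, e]
  nlinarith [sq_nonneg (ζ (X i) * Q.g (i, k) X + fderiv ℝ ζ (X i) (e3 k) * Q.f X)]

end Vale.Agent.P363
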