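import Vale.Agent.P363.Iface
import Vale.Agent.P363.A.Cut
import Vale.Agent.P363.A.Limit

/-!
# P363 X/Rad  (TASK, sub-lead helper85)

Testing against radial functions.  `F ∘ norm` is `C²` with compact support (near the origin it vanishes; elsewhere `contDiffAt_norm`; `F` is `C²` on `Ioi 0`: `contDiffOn_succ_iff_deriv_of_isOpen`).
`kin_C2`; off the origin `fderiv_radial` gives the first derivatives `F1 ‖y‖ * (y k / ‖y‖)` in a neighbourhood, differentiate once more and sum with `sum_sq_coord`.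
-/

open MeasureTheory Filter Topology Set
open scoped ContDiff

set_option linter.unusedSectionVars false

noncomputable section

namespace Vale.Agent.P363

theorem xrad_lap {F F1 F2 : ℝ → ℝ} (h1 : ∀ r, 0 < r → HasDerivAt F (F1 r) r)
    (h2 : ∀ r, 0 < r → HasDerivAt F1 (F2 r) r) {x : E3} (hx : x ≠ 0) :
    ∑ k, fderiv ℝ (fun y => fderiv ℝ (fun z : E3 => F ‖z‖) y (e3 k)) x (e3 k) =
      F2 ‖x‖ + 2 / ‖x‖ * F1 ‖x‖ := by
  have hn := norm_pos_iff.2 hx
  have hG := (h2 _ hn).fun_div (hasDerivAt_id' _) hn.ne'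
  have e : ∀ k, fderiv ℝ (fun y => fderiv ℝ (fun z : E3 => F ‖z‖) y (e3 k)) x (e3 k) =
      F1 ‖x‖ / ‖x‖ + (F2 ‖x‖ * ‖x‖ - F1 ‖x‖) / ‖x‖ ^ 3 * x k ^ 2 := fun k => by
    have e1 : (fun y => fderiv ℝ (fun z : E3 => F ‖z‖) y (e3 k)) =ᶠ[𝓝 x]
        fun y : E3 => F1 ‖y‖ / ‖y‖ * y k := by
      filter_upwards [eventually_ne_nhds hx] with y hy
      rw [(fderiv_radial hy (h1 _ (norm_pos_iff.2 hy)) k).2]
      ring
    obtain ⟨d1, d2⟩ := fderiv_radial hx hG k
    rw [e1.fderiv_eq, fderiv_fun_mul d1 (hasFDerivAt_coord k x).differentiableAt,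
      (hasFDerivAt_coord k x).fderiv, add_apply,
      smul_apply, smul_apply, d2]
    simp only [smul_eq_mul, EuclideanSpace.coe_proj, e3_apply, if_true]
    field_simp
  simp only [e, Finset.sum_add_distrib, ← Finset.mul_sum, sum_sq_coord, Finset.sum_const,
    Finset.card_univ, Fintype.card_fin, nsmul_eq_mul]
  field_simp
  ring

theorem kin_rad {F F1 F2 : ℝ → ℝ} (h1 : ∀ r, 0 < r → HasDerivAt F (F1 r) r)
    (h2 : ∀ r, 0 < r → HasDerivAt F1 (F2 r) r) (h3 : ContinuousOn F2 (Ioi 0)) {r₀ r₁ : ℝ}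
    (h0 : 0 < r₀) (hz : ∀ r, r ≤ r₀ ∨ r₁ ≤ r → F r = 0) :
    ∃ b : S e3, (∀ x, b.f x = F ‖x‖) ∧ ∀ a : S e3,
      Integrable (fun x => a.f x * (F2 ‖x‖ + 2 / ‖x‖ * F1 ‖x‖)) ∧
      kin a b = -(1 / 2) * ∫ x, a.f x * (F2 ‖x‖ + 2 / ‖x‖ * F1 ‖x‖) := by
  have c1 : ContDiffOn ℝ 1 F1 (Ioi 0) :=
    (contDiffOn_succ_iff_deriv_of_isOpen (n := 0) isOpen_Ioi).2
      ⟨fun r hr => (h2 r hr).differentiableAt.differentiableWithinAt, by simp,
        contDiffOn_zero.2 (h3.congr fun r hr => (h2 r hr).deriv)⟩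
  have c2 : ContDiffOn ℝ 2 F (Ioi 0) :=
    (contDiffOn_succ_iff_deriv_of_isOpen (n := 1) isOpen_Ioi).2
      ⟨fun r hr => (h1 r hr).differentiableAt.differentiableWithinAt, by simp,
        c1.congr fun r hr => (h1 r hr).deriv⟩
  have c3 : ContDiff ℝ 2 fun x : E3 => F ‖x‖ := contDiff_iff_contDiffAt.2 fun x => by
    rcases eq_or_ne x 0 with rfl | hx
    · refine (contDiffAt_const (c := 0)).congr_of_eventuallyEq ?_
      filter_upwards [Metric.ball_mem_nhds (0 : E3) h0] with y hy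
      exact hz _ (Or.inl (mem_ball_zero_iff.1 hy).le)
    · exact (c2.contDiffAt (Ioi_mem_nhds (norm_pos_iff.2 hx))).comp x (contDiffAt_norm ℝ hx)
  have c4 : HasCompactSupport fun x : E3 => F ‖x‖ :=
    HasCompactSupport.intro (isCompact_closedBall 0 r₁) fun x hx =>
      hz _ (Or.inr (not_le.1 fun h => hx (mem_closedBall_zero_iff.2 h)).le)
  obtain ⟨b, hb, -, -⟩ := kin_C2 (0 : S e3) c3 c4
  refine ⟨b, congrFun hb, fun a => ?_⟩
  have e : (fun x => a.f x * ∑ k, fderiv ℝ (fun y => fderiv ℝ (fun z : E3 => F ‖z‖) y (e3 k)) x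
      (e3 k)) =ᵐ[volume] fun x => a.f x * (F2 ‖x‖ + 2 / ‖x‖ * F1 ‖x‖) :=
    (ae_norm_ne 0).mono fun x hx => congrArg _ (xrad_lap h1 h2 (norm_ne_zero_iff.1 hx))
  obtain ⟨b', hb', -, h⟩ := kin_C2 a c3 c4
  refine ⟨Integrable.congr ?_ e, ?_⟩
  · simp only [mul_comm (a.f _), Finset.sum_mul]
    refine integrable_finsetSum _ fun k _ => int_test ?_
      ((c4.fderiv_apply ℝ _).fderiv_apply ℝ _) a.mem
    exact ((((c3.fderiv_right (m := 1) (by norm_num)).clm_apply contDiff_const).continuous_fderiv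
      one_ne_zero).clm_apply continuous_const)
  · rw [← integral_congr_ae e, ← h, bil_kin.1 a, bil_kin.1 a]
    exact kin_congr (by rw [hb, hb']) a

end Vale.Agent.P363
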