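import Vale.Agent.P363.B.Wt

/-!
# P363 X/S6a

The smoothed Dyson function `G = GT (κ²/2) 1 d` and negligible quantities.
-/

open MeasureTheory Filter Topology Set
open scoped ContDiff

set_option linter.unusedSectionVars false

noncomputable section

namespace Vale.Agent.P363

/-- `F` is negligible against the weighted norm of `u`. -/
def Sml (k : ℝ) (u F : E3 → ℝ) : Prop :=
  ∀ ε : ℝ, 0 < ε → ∃ C : ℝ, ∀ p : E3, F p ≤ ε * wn k u p + C * Real.exp (-2 * k * ‖p‖)

theorem Sml.mono {k : ℝ} {u F F' : E3 → ℝ} (h : Sml k u F) (hle : ∀ p, F' p ≤ F p) :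
    Sml k u F' := fun ε hε => (h ε hε).imp fun _ hC p => (hle p).trans (hC p)

theorem Sml.const_mul {k : ℝ} {u F : E3 → ℝ} (h : Sml k u F) {K : ℝ} (hK : 0 ≤ K) :
    Sml k u fun p => K * F p := by
  intro ε hε
  obtain ⟨δ, δ0, hδ⟩ := exists_pos_mul_lt hε K
  obtain ⟨C, hC⟩ := h δ δ0
  refine ⟨K * C, fun p => ?_⟩
  have h1 := mul_le_mul_of_nonneg_left (hC p) hK
  have h2 := mul_le_mul_of_nonneg_right hδ.le (wn_nonneg k u p)
  nlinarith

theorem Sml.add {k : ℝ} {u F F' : E3 → ℝ} (h : Sml k u F) (h' : Sml k u F') :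
    Sml k u fun p => F p + F' p := by
  intro ε hε
  obtain ⟨C, hC⟩ := h (ε / 2) (by positivity)
  obtain ⟨C', hC'⟩ := h' (ε / 2) (by positivity)
  refine ⟨C + C', fun p => ?_⟩
  have h1 := hC p
  have h2 := hC' p
  linarith

theorem x6a_src {k C : ℝ} (hk : 0 ≤ k) {u s : E3 → ℝ} (hu : MemLp u 2 volume)
    (hs : MemLp s 2 volume) (hsle : ∀ᵐ x : E3, 1 ≤ ‖x‖ → |s x| ≤ C / ‖x‖ * u x) :
    Sml k u (wn k s) := by
  intro ε hε
  have hε' : 0 < √ε := Real.sqrt_pos.2 hε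
  set T : ℝ := max 1 (|C| / √ε) with hT
  have T1 : 1 ≤ T := le_max_left _ _
  have T2 : |C| ≤ √ε * T := by
    have := le_max_right 1 (|C| / √ε)
    rw [← hT, div_le_iff₀ hε'] at this
    linarith
  refine ⟨Real.exp (2 * k * T) * ∫ x, s x ^ 2, fun p => ?_⟩
  have i1 := (wn_int hk hu p).integrable_sq.const_mul ε
  have i2 := hs.integrable_sq.const_mul (Real.exp (2 * k * T) * Real.exp (-2 * k * ‖p‖))
  have e : ε * wn k u p + (Real.exp (2 * k * T) * ∫ x, s x ^ 2) * Real.exp (-2 * k * ‖p‖) =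
      ∫ x, (ε * (Real.exp (-k * jb (x - p)) * u x) ^ 2 +
        Real.exp (2 * k * T) * Real.exp (-2 * k * ‖p‖) * s x ^ 2) := by
    rw [integral_add i1 i2, integral_const_mul, integral_const_mul, wn]
    ring
  rw [e]
  refine integral_mono_of_nonneg (Eventually.of_forall fun _ => sq_nonneg _) (i1.add i2) ?_
  filter_upwards [hsle] with x hx
  rcases le_or_gt T ‖x‖ with h | h
  · have x0 : 0 < ‖x‖ := by linarith
    have a1 : |s x| ≤ √ε * |u x| := by
      refine (hx (T1.trans h)).trans ((le_abs_self _).trans ?_)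
      rw [abs_mul, abs_div, abs_of_pos x0]
      refine mul_le_mul_of_nonneg_right ?_ (abs_nonneg _)
      rw [div_le_iff₀ x0]
      exact T2.trans (mul_le_mul_of_nonneg_left h hε'.le)
    have a2 : s x ^ 2 ≤ ε * u x ^ 2 := by
      have := pow_le_pow_left₀ (abs_nonneg _) a1 2
      rwa [mul_pow, Real.sq_sqrt hε.le, sq_abs, sq_abs] at this
    have a3 := mul_le_mul_of_nonneg_left a2 (sq_nonneg (Real.exp (-k * jb (x - p))))
    have a4 : 0 ≤ Real.exp (2 * k * T) * Real.exp (-2 * k * ‖p‖) * s x ^ 2 := by positivity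
    simp only [mul_pow]
    nlinarith
  · have a1 : Real.exp (-k * jb (x - p)) ^ 2 ≤ Real.exp (2 * k * T) * Real.exp (-2 * k * ‖p‖) := by
      rw [← Real.exp_nat_mul, ← Real.exp_add, Real.exp_le_exp]
      have b1 := norm_le_jb (x - p)
      have b2 : ‖p‖ ≤ ‖x‖ + ‖x - p‖ := by
        have := norm_sub_le x (x - p)
        rwa [sub_sub_cancel] at this
      push_cast
      nlinarith
    have a2 := mul_le_mul_of_nonneg_right a1 (sq_nonneg (s x))
    have a3 : 0 ≤ ε * (Real.exp (-k * jb (x - p)) * u x) ^ 2 := by positivity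
    simp only [mul_pow] at a3 ⊢
    linarith

theorem x6a_mem {f : E3 → ℝ} (hf : MemLp f 2 volume) (m : ℝ) {t : ℝ} (ht : 0 < t) :
    MemLp (GT m t f) 2 volume := by
  have e : GT m t f = fun x => Real.exp (-m * t) * GT 0 t f x := by
    funext x
    simp [GT]
  rw [e]
  exact (GT_memLp hf ht).const_mul _

theorem x6a_two {k : ℝ} (hk : 0 ≤ k) {f g h : E3 → ℝ} (hg : MemLp g 2 volume)
    (hh : MemLp h 2 volume) (hle : ∀ᵐ x, |f x| ≤ |g x| + |h x|) (p : E3) :
    wn k f p ≤ 2 * wn k g p + 2 * wn k h p := by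
  have i1 := (wn_int hk hg p).integrable_sq.const_mul 2
  have i2 := (wn_int hk hh p).integrable_sq.const_mul 2
  rw [wn, wn, wn, ← integral_const_mul, ← integral_const_mul, ← integral_add i1 i2]
  refine integral_mono_of_nonneg (Eventually.of_forall fun _ => sq_nonneg _) (i1.add i2) ?_
  filter_upwards [hle] with x hx
  have a1 : f x ^ 2 ≤ 2 * g x ^ 2 + 2 * h x ^ 2 := by
    have := pow_le_pow_left₀ (abs_nonneg _) hx 2
    rw [sq_abs] at this
    nlinarith [sq_nonneg (|g x| - |h x|), sq_abs (g x), sq_abs (h x)]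
  have a2 := mul_le_mul_of_nonneg_left a1 (sq_nonneg (Real.exp (-k * jb (x - p))))
  simp only [mul_pow]
  linarith

theorem x6_G {u s : E3 → ℝ} {d : S e3} {m k C : ℝ} (hk : 0 ≤ k)
    (hu : MemLp u 2 volume) (hs : MemLp s 2 volume)
    (heq : ∀ ξ : S e3, kin d ξ + m * ip d ξ = ∫ x, s x * ξ.f x)
    (hsle : ∀ᵐ x : E3, 1 ≤ ‖x‖ → |s x| ≤ C / ‖x‖ * u x)
    (hodd : ∀ᵐ x, d.f (rf 2 x) = -d.f x) (hdu : ∀ᵐ x, |d.f x| ≤ u x)
    (h4 : Sml k u (wn k fun x => √(u x ^ 2 - d.f x ^ 2))) :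
    ∃ (G : E3 → ℝ) (K : ℝ), 0 ≤ K ∧ MemLp G 2 volume ∧ Continuous G ∧ (∀ x, G (rf 2 x) = -G x) ∧
      (∀ x, |G x| ≤ K * √(wn k u x) ∧
        ∀ x', ‖x' - x‖ ≤ 1 → |G x' - G x| ≤ K * ‖x' - x‖ * √(wn k u x)) ∧
      Sml k u (wn k fun x => u x - |G x|) ∧
      ∀ t : ℝ, 0 < t → Sml k u fun p => (GT m t G p - G p) ^ 2 := by
  obtain ⟨K, K0, hK⟩ := GT_le_wn hk m one_pos
  have hsm := x6a_src hk hu hs hsle
  have hd : ∀ x, √(wn k d.f x) ≤ √(wn k u x) := fun x => Real.sqrt_le_sqrt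
    (wn_mono hk hu (hdu.mono fun x hx => hx.trans (le_abs_self _)) x)
  refine ⟨GT m 1 d.f, K, K0, x6a_mem d.mem m one_pos,
    (uniformContinuous_GT d.mem m one_pos).continuous, fun x => ?_, fun x => ⟨?_, fun x' hx' => ?_⟩,
    ?_, fun t ht => ?_⟩
  · rw [← GT_rf, GT_congr (g := fun y => -d.f y) hodd]
    simp only [GT, mul_neg, integral_neg]
  · exact (hK _ d.mem x).1.trans (mul_le_mul_of_nonneg_left (hd x) K0)
  · exact ((hK _ d.mem x).2 x' hx').trans (mul_le_mul_of_nonneg_left (hd x) (by positivity))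
  · obtain ⟨K', K0', hK'⟩ := wn_duh hk m one_pos
    have hy : MemLp (fun x => √(u x ^ 2 - d.f x ^ 2)) 2 volume := by
      refine hu.of_le (Real.continuous_sqrt.comp_aestronglyMeasurable
        ((hu.1.pow 2).sub (d.mem.1.pow 2))) (Eventually.of_forall fun x => ?_)
      rw [Real.norm_of_nonneg (Real.sqrt_nonneg _), Real.norm_eq_abs, ← Real.sqrt_sq_eq_abs]
      exact Real.sqrt_le_sqrt (by nlinarith [sq_nonneg (d.f x)])
    refine ((h4.const_mul zero_le_two).add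
      ((hsm.const_mul K0').const_mul zero_le_two)).mono fun p => ?_
    refine (x6a_two hk hy (hK' s hs).1 ?_ p).trans ?_
    · filter_upwards [hdu, duhamel_eq d hs heq one_pos] with x h1 h2
      have a1 : u x - |d.f x| ≤ √(u x ^ 2 - d.f x ^ 2) := by
        refine Real.le_sqrt_of_sq_le ?_
        nlinarith [sq_abs (d.f x), abs_nonneg (d.f x)]
      have a2 := abs_abs_sub_abs_le_abs_sub (d.f x) (GT m 1 d.f x)
      have a3 : d.f x - GT m 1 d.f x = ∫ r in Ioc (0 : ℝ) 1, GT m r s x := by linarith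
      rw [a3] at a2
      have a4 := abs_le.1 a2
      rw [abs_of_nonneg (Real.sqrt_nonneg _), abs_le]
      constructor <;> linarith [a4.1, a4.2, Real.sqrt_nonneg (u x ^ 2 - d.f x ^ 2)]
    · have := (hK' s hs).2 p
      linarith
  · obtain ⟨K', K0', hK'⟩ := wn_duh hk m ht
    refine ((hsm.const_mul K0').const_mul (sq_nonneg K)).mono fun p => ?_
    have e1 : GT m t (GT m 1 d.f) p = GT m 1 (GT m t d.f) p := by
      rw [GT_semigroup d.mem m ht one_pos, GT_semigroup d.mem m one_pos ht, add_comm]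
    have e2 : GT m 1 d.f p = GT m 1 (GT m t d.f) p +
        GT m 1 (fun x => ∫ r in Ioc (0 : ℝ) t, GT m r s x) p := by
      rw [← GT_add (x6a_mem d.mem m ht) (hK' s hs).1 m one_pos]
      exact GT_congr (duhamel_eq d hs heq ht) m 1 p
    have e3' : (GT m t (GT m 1 d.f) p - GT m 1 d.f p) ^ 2 =
        |GT m 1 (fun x => ∫ r in Ioc (0 : ℝ) t, GT m r s x) p| ^ 2 := by
      rw [e1, sq_abs]
      conv_lhs => rw [e2]
      ring
    rw [e3']
    refine (pow_le_pow_left₀ (abs_nonneg _) (hK _ (hK' s hs).1 p).1 2).trans ?_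
    rw [mul_pow, Real.sq_sqrt (wn_nonneg _ _ _)]
    exact mul_le_mul_of_nonneg_left ((hK' s hs).2 p) (sq_nonneg K)

end Vale.Agent.P363
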