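import Vale.Agent.P363.Iface

/-!
# P363 X/Split

Splitting off one slot.  `Wee_ins`: `2 * Wee X` is the full double sum of `1 / ‖X i - X k‖` (diagonal terms are `1 / 0 = 0`), `Fin.sum_univ_succAbove` twice.
`qf_split`: `qf_rsl`, `UN_ins`, `pot_add`, `FB.slot`, `FB.rest`.  `ip_rsl`, `pair_memLp`: `integral_ins`, `rsl_ae`; for `pair_memLp` Cauchy-Schwarz in `Y` for almost every `x` (as in `red_memLp`).
`dys_eq`: test the equation of `a` with `tens i ξ Ξ`; `qf_rsl` for `U`, the slices of `tens i ξ Ξ` are `ξ x • Ξ` (`qf_congr`), `ip_rsl_pr`, `kinI_tens`, `ip_tens`, `pair_memLp`.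
-/

open MeasureTheory Filter Topology Set
open scoped ContDiff

set_option linter.unusedSectionVars false

noncomputable section

namespace Vale.Agent.P363

variable {n : ℕ}

/-- The repulsion between a point and the remaining particles. -/
def Wx (x : E3) (Y : Cfg n) : ℝ := ∑ j, 1 / ‖x - Y j‖

theorem Wx_nonneg (x : E3) (Y : Cfg n) : 0 ≤ Wx x Y := Finset.sum_nonneg fun _ _ => by positivity

theorem xsplit_two (X : Cfg n) : 2 * Wee X = ∑ i, ∑ k, 1 / ‖X i - X k‖ := by
  have h1 : ∀ i : Fin n, ∑ k, 1 / ‖X i - X k‖ =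
      ∑ k, (if i < k then 1 / ‖X i - X k‖ else 0) + ∑ k, (if k < i then 1 / ‖X k - X i‖ else 0) := by
    intro i
    rw [← Finset.sum_add_distrib]
    refine Finset.sum_congr rfl fun k _ => ?_
    rcases lt_trichotomy i k with h | h | h
    · simp [h, h.not_gt]
    · simp [h]
    · simp [h, h.not_gt, norm_sub_rev]
  have h2 : Wee X = ∑ i, ∑ k, (if i < k then 1 / ‖X i - X k‖ else 0) := by
    refine Finset.sum_congr rfl fun i _ => ?_
    rw [← Finset.sum_filter]
    refine Finset.sum_congr ?_ fun _ _ => rfl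
    ext k
    simp
  simp only [h1, Finset.sum_add_distrib]
  rw [Finset.sum_comm (f := fun i k : Fin n => if k < i then 1 / ‖X k - X i‖ else 0), ← h2]
  ring

theorem Wee_ins (i : Fin (n + 1)) (X : Cfg (n + 1)) :
    Wee X = Wx (X i) (Fin.removeNth i X) + Wee (Fin.removeNth i X) := by
  have h1 := xsplit_two X
  have h2 := xsplit_two (Fin.removeNth i X : Cfg n)
  rw [Fin.sum_univ_succAbove _ i] at h1
  simp only [Fin.sum_univ_succAbove _ i, Finset.sum_add_distrib, sub_self, norm_zero, div_zero,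
    zero_add] at h1
  have h3 : ∑ j : Fin n, 1 / ‖X (i.succAbove j) - X i‖ = Wx (X i) (Fin.removeNth i X) :=
    Finset.sum_congr rfl fun j _ => by rw [norm_sub_rev]; rfl
  have h4 : ∑ j : Fin n, 1 / ‖X i - X (i.succAbove j)‖ = Wx (X i) (Fin.removeNth i X) := rfl
  have h5 : ∑ j : Fin n, ∑ k : Fin n, 1 / ‖X (i.succAbove j) - X (i.succAbove k)‖ =
      ∑ j : Fin n, ∑ k : Fin n, 1 / ‖(Fin.removeNth i X : Cfg n) j - (Fin.removeNth i X : Cfg n) k‖ :=
    rfl
  rw [h3, h4, h5] at h1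
  linarith

theorem UN_ins (R lam : ℝ) (i : Fin (n + 1)) (X : Cfg (n + 1)) :
    UN R lam X = VR R (X i) + lam * Wx (X i) (Fin.removeNth i X) +
      UN R lam (Fin.removeNth i X) := by
  have h : ∑ j : Fin n, VR R (X (i.succAbove j)) = ∑ j, VR R ((Fin.removeNth i X : Cfg n) j) := rfl
  rw [UN, UN, Wee_ins i X, Fin.sum_univ_succAbove _ i, h]
  ring

theorem fb_Wx (i : Fin (n + 1)) : FB (eN (n + 1)) fun X => Wx (X i) (Fin.removeNth i X) :=
  fb_sum Finset.univ fun j _ => fb_pair i (i.succAbove j)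

theorem memLp_Wx (i : Fin (n + 1)) (a : S (eN (n + 1))) :
    MemLp (fun X => Wx (X i) (Fin.removeNth i X) * a.f X) 2 volume := by
  have h := memLp_finsetSum' (p := 2) (μ := volume) Finset.univ
    fun (j : Fin n) _ => (memLp_pair a i (i.succAbove j)).1
  refine (memLp_congr_ae (Eventually.of_forall fun X => ?_)).1 h
  simp only [Finset.sum_apply, Wx, Finset.sum_mul]
  rfl

theorem memLp_VR_slot (R : ℝ) (i : Fin n) (a : S (eN n)) :
    MemLp (fun X => VR R (X i) * a.f X) 2 volume ∧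
      ∫ X, (VR R (X i) * a.f X) ^ 2 ≤ 8 * kin a a := by
  obtain ⟨h1, h2⟩ := memLp_point a i (R • e3 2)
  obtain ⟨h3, h4⟩ := memLp_point a i (-(R • e3 2))
  simp only [sub_neg_eq_add] at h3 h4
  have e : (fun X : Cfg n => VR R (X i) * a.f X) = fun X =>
      -(1 / 2) * (1 / ‖X i - R • e3 2‖ * a.f X) + -(1 / 2) * (1 / ‖X i + R • e3 2‖ * a.f X) := by
    funext X
    rw [VR]
    ring
  have hm : MemLp (fun X => VR R (X i) * a.f X) 2 volume := by
    rw [e]
    exact (h1.const_mul _).add (h3.const_mul _)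
  refine ⟨hm, ?_⟩
  have hk := kinI_le i a
  calc ∫ X, (VR R (X i) * a.f X) ^ 2
      ≤ ∫ X, (1 / 2 * (1 / ‖X i - R • e3 2‖ * a.f X) ^ 2 +
          1 / 2 * (1 / ‖X i + R • e3 2‖ * a.f X) ^ 2) := by
        refine integral_mono hm.integrable_sq
          ((h1.integrable_sq.const_mul _).add (h3.integrable_sq.const_mul _)) fun X => ?_
        have := congrFun e X
        beta_reduce at this ⊢
        rw [this]
        nlinarith [sq_nonneg (1 / ‖X i - R • e3 2‖ * a.f X - 1 / ‖X i + R • e3 2‖ * a.f X)]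
    _ ≤ 8 * kin a a := by
        rw [integral_add (h1.integrable_sq.const_mul _) (h3.integrable_sq.const_mul _),
          integral_const_mul, integral_const_mul]
        linarith

theorem qf_split (R lam : ℝ) (i : Fin (n + 1)) (a b : S (eN (n + 1))) :
    Integrable (fun x => qf (UN R lam) (rsl i a x) (rsl i b x)) ∧
    qf (UN R lam) a b = kinI i a b + pot (fun X => VR R (X i)) a b +
      lam * pot (fun X => Wx (X i) (Fin.removeNth i X)) a b +
      ∫ x, qf (UN R lam) (rsl i a x) (rsl i b x) := by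
  obtain ⟨h1, h2⟩ := qf_rsl (fb_UN R lam) i a b
  refine ⟨h1, ?_⟩
  have e : (UN R lam : Cfg (n + 1) → ℝ) = fun X => (VR R (X i) +
      lam * Wx (X i) (Fin.removeNth i X)) + UN R lam (Fin.removeNth i X) :=
    funext fun X => UN_ins R lam i X
  rw [h2, qf]
  conv_lhs => rw [e]
  rw [pot_add (((fb_VR R).slot i).add ((fb_Wx i).const_mul lam)) ((fb_UN R lam).rest i),
    pot_add ((fb_VR R).slot i) ((fb_Wx i).const_mul lam), pot_const_mul]
  ring

theorem ip_rsl_self (i : Fin (n + 1)) (a : S (eN (n + 1))) :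
    ∀ᵐ x : E3, ip (rsl i a x) (rsl i a x) = rho i a.f x := by
  filter_upwards [rsl_ae i a] with x hx
  simp only [ip, rho, hx.1, sq]

theorem ip_rsl_pr (i : Fin (n + 1)) (a : S (eN (n + 1))) (Ξ : S (eN n)) :
    ∀ᵐ x : E3, ip Ξ (rsl i a x) = ((slotFib i a).pr Ξ.mem).f x := by
  filter_upwards [rsl_ae i a] with x hx
  simp only [ip, slotFib_pr, pair, hx.1, mul_comm]

theorem anti_rsl (i : Fin (n + 1)) {j l : Fin n} {a : S (eN (n + 1))}
    (h : Anti (i.succAbove j) (i.succAbove l) a.f) : ∀ᵐ x : E3, Anti j l (rsl i a x).f := by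
  filter_upwards [rsl_ae i a, h.slice i] with x hx hx'
  have e : (rsl i a x).f = fun Y => a.f (Fin.insertNth i x Y) := funext hx.1
  rw [e]
  exact hx'

theorem xsplit_cs {Z : Type} [MeasurableSpace Z] {μ : Measure Z} {f g : Z → ℝ} (hf : MemLp f 2 μ)
    (hg : MemLp g 2 μ) : (∫ z, f z * g z ∂μ) ^ 2 ≤ (∫ z, f z ^ 2 ∂μ) * ∫ z, g z ^ 2 ∂μ := by
  have key : ∀ t : ℝ, 0 ≤ (∫ z, f z ^ 2 ∂μ) * (t * t) + (2 * ∫ z, f z * g z ∂μ) * t +
      ∫ z, g z ^ 2 ∂μ := by
    intro t
    have h1 := hf.integrable_sq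
    have h2 := hg.integrable_sq
    have h3 : Integrable (fun z => f z * g z) μ := hf.integrable_mul hg
    have h4 : Integrable (fun z => f z ^ 2 * (t * t) + 2 * t * (f z * g z)) μ :=
      (h1.mul_const _).add (h3.const_mul _)
    have h5 : ∫ z, (t * f z + g z) ^ 2 ∂μ =
        ∫ z, (f z ^ 2 * (t * t) + 2 * t * (f z * g z) + g z ^ 2) ∂μ :=
      integral_congr_ae (Eventually.of_forall fun z => by ring)
    have h6 : 0 ≤ ∫ z, (t * f z + g z) ^ 2 ∂μ := integral_nonneg fun _ => sq_nonneg _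
    rw [h5, integral_add h4 h2, integral_add (h1.mul_const _) (h3.const_mul _), integral_mul_const,
      integral_const_mul] at h6
    linarith
  have := discrim_le_zero key
  rw [discrim] at this
  nlinarith

theorem pair_memLp (i : Fin (n + 1)) {f : Cfg (n + 1) → ℝ} {Ξ : Cfg n → ℝ} (hf : MemLp f 2 volume)
    (hΞ : MemLp Ξ 2 volume) : MemLp (pair i f Ξ) 2 volume ∧
      ∫ x, pair i f Ξ x ^ 2 ≤ (∫ X, f X ^ 2) * ∫ Y, Ξ Y ^ 2 ∧
      ∀ φ : E3 → ℝ, MemLp φ 2 volume →
        ∫ X, φ (X i) * Ξ (Fin.removeNth i X) * f X = ∫ x, pair i f Ξ x * φ x := by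
  have hF : AEStronglyMeasurable (fun z : E3 × Cfg n => f (Fin.insertNth i z.1 z.2))
      (volume.prod volume) := (hf.comp_measurePreserving (mp_ins i)).1
  have hm : AEStronglyMeasurable (pair i f Ξ) volume :=
    (hF.mul hΞ.1.comp_snd).integral_prod_right'
  obtain ⟨a1, -, a3, -, a5, -⟩ := integral_ins i hf.integrable_sq
  have hb : ∀ᵐ x : E3, pair i f Ξ x ^ 2 ≤
      (∫ Y : Cfg n, f (Fin.insertNth i x Y) ^ 2) * ∫ Y, Ξ Y ^ 2 := by
    filter_upwards [a3, hF.prodMk_left] with x hx hx'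
    exact xsplit_cs ((memLp_two_iff_integrable_sq hx').2 hx) hΞ
  have hi : Integrable fun x => pair i f Ξ x ^ 2 := by
    refine (a1.mul_const (∫ Y, Ξ Y ^ 2)).mono' (hm.pow 2) ?_
    filter_upwards [hb] with x hx
    rwa [Real.norm_of_nonneg (sq_nonneg _)]
  refine ⟨(memLp_two_iff_integrable_sq hm).2 hi, ?_, fun φ hφ => ?_⟩
  · rw [a5, ← integral_mul_const]
    exact integral_mono_ae hi (a1.mul_const _) hb
  · have hG : Integrable fun X : Cfg (n + 1) => φ (X i) * Ξ (Fin.removeNth i X) * f X :=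
      (memLp_tensor i hφ hΞ).integrable_mul hf
    rw [(integral_ins i hG).2.2.2.2.1]
    refine integral_congr_ae (Eventually.of_forall fun x => ?_)
    simp only [Fin.insertNth_apply_same, Fin.removeNth_insertNth, pair]
    rw [← integral_mul_const]
    exact integral_congr_ae (Eventually.of_forall fun Y => by ring)

theorem rsl_tens (i : Fin (n + 1)) (ξ : S e3) (Ξ : S (eN n)) :
    ∀ᵐ x : E3, (rsl i (tens i ξ Ξ) x).f =ᵐ[volume] (ξ.f x • Ξ).f := by
  filter_upwards [rsl_ae i (tens i ξ Ξ)] with x hx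
  refine Eventually.of_forall fun Y => ?_
  rw [hx.1, tens_f, S.smul_f]
  simp only [Fin.insertNth_apply_same, Fin.removeNth_insertNth]

theorem dys_eq {U : Cfg n → ℝ} {U' : Cfg (n + 1) → ℝ} (hU : FB (eN n) U) (hU' : FB (eN (n + 1)) U')
    (i : Fin (n + 1)) {a : S (eN (n + 1))} {Ξ : S (eN n)} {E E' : ℝ}
    (ha : ∀ b, qf U' a b = E * ip a b) (hΞ : ∀ b, qf U Ξ b = E' * ip Ξ b)
    (hW : MemLp (fun X => (U' X - U (Fin.removeNth i X)) * a.f X) 2 volume) (ξ : S e3) :
    kin ((slotFib i a).pr Ξ.mem) ξ + (E' - E) * ip ((slotFib i a).pr Ξ.mem) ξ =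
      ∫ x, -pair i (fun X => (U' X - U (Fin.removeNth i X)) * a.f X) Ξ.f x * ξ.f x := by
  have h1 := ha (tens i ξ Ξ)
  rw [hU'.bil_qf.symm, bil_ip.symm, ip_tens, qf] at h1
  have h2 := (qf_rsl hU i (tens i ξ Ξ) a).2
  rw [kinI_tens] at h2
  have h3 : ∫ x, qf U (rsl i (tens i ξ Ξ) x) (rsl i a x) = E' * ip ξ ((slotFib i a).pr Ξ.mem) := by
    rw [ip, ← integral_const_mul]
    refine integral_congr_ae ?_
    filter_upwards [rsl_tens i ξ Ξ, ip_rsl_pr i a Ξ] with x hx hx'
    rw [qf_congr U hx, hU.bil_qf.smul, hΞ, hx']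
    ring
  have h4 := pot_sub hU' (hU.rest i) (tens i ξ Ξ) a
  have h5 : pot (fun X => U' X - U (Fin.removeNth i X)) (tens i ξ Ξ) a =
      ∫ x, pair i (fun X => (U' X - U (Fin.removeNth i X)) * a.f X) Ξ.f x * ξ.f x := by
    rw [← (pair_memLp i hW Ξ.mem).2.2 ξ.f ξ.mem, pot]
    exact integral_congr_ae (Eventually.of_forall fun X => by simp only [tens_f]; ring)
  simp only [neg_mul, integral_neg]
  rw [bil_kin.symm, bil_ip.symm, ← h5]
  linarith

end Vale.Agent.P363
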