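import Vale.Agent.P363.X.Split
import Vale.Agent.P363.B.Duhamel

/-!
# P363 X/Sub  (TASK, sub-lead helper85)

X1.  `slot_sub`: `IsSqrt.sub`; for `μ` take `b` from `exists_mulSlot`, use the equation, `qf_split`; the slices of `b` are `μ x • rsl i a x` (`rsl_ae`, `qf_congr'`), the repulsion term is nonnegative,
`kinI i a b`, `pot (VR ..) a b`, `ip a b` are rewritten by `integral_ins` / `integral_slot`.  `sqrt_norms`: `integral_rho`, `integral_tau`, `kinI_le`.  `sub_sup`: `sup_bound` with `s = -(VR R * u)`, `memLp_VR`.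
-/

open MeasureTheory Filter Topology Set
open scoped ContDiff

set_option linter.unusedSectionVars false

noncomputable section

namespace Vale.Agent.P363

variable {n : ℕ}

theorem xsub_pot {U : E3 → ℝ} (hU : FB e3 U) (i : Fin (n + 1)) {a b : S (eN (n + 1))} {μ : E3 → ℝ}
    (hb : ∀ X, b.f X = μ (X i) * a.f X) :
    Integrable (fun x => U x * (μ x * rho i a.f x)) ∧
      pot (fun X => U (X i)) a b = ∫ x, U x * (μ x * rho i a.f x) := by
  obtain ⟨h1, -, -, -, h2, -⟩ := integral_ins i ((hU.slot i).int a b)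
  have e : (fun x : E3 => ∫ Y : Cfg n, U ((Fin.insertNth i x Y : Cfg (n + 1)) i) *
      (a.f (Fin.insertNth i x Y) * b.f (Fin.insertNth i x Y))) =
      fun x => U x * (μ x * rho i a.f x) := by
    funext x
    unfold rho
    rw [← integral_const_mul, ← integral_const_mul]
    refine integral_congr_ae (Eventually.of_forall fun Y => ?_)
    simp only [hb, Fin.insertNth_apply_same]
    ring
  rw [e] at h1 h2
  exact ⟨h1, h2⟩

theorem xsub_kin (i : Fin (n + 1)) {a b : S (eN (n + 1))} {μ : S e3}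
    (hb : ∀ k X, b.g (i, k) X = μ.f (X i) * a.g (i, k) X + μ.g k (X i) * a.f X) :
    kinI i a b = 1 / 2 * ∫ x, (μ.f x * (slotFib i a).tau x + ∑ k, μ.g k x * (slotFib i a).J k x) := by
  unfold kinI
  congr 1
  have h := fun k => integral_ins i (a.int_gmul b (i, k) (i, k))
  rw [Finset.sum_congr rfl fun k _ => (h k).2.2.2.2.1, ← integral_finsetSum _ fun k _ => (h k).1]
  refine integral_congr_ae ?_
  filter_upwards [(slotFib i a).mem_ae] with x hx
  unfold Fib.tau Fib.J
  rw [Finset.mul_sum, ← Finset.sum_add_distrib]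
  refine Finset.sum_congr rfl fun k _ => ?_
  have i1 : Integrable fun Y => μ.f x * (slotFib i a).D k x Y ^ 2 :=
    ((hx.2 k).integrable_sq).const_mul _
  have i2 : Integrable fun Y => μ.g k x * ((slotFib i a).F x Y * (slotFib i a).D k x Y) :=
    (hx.1.integrable_mul (hx.2 k)).const_mul _
  rw [← integral_const_mul, ← integral_const_mul, ← integral_add i1 i2]
  refine integral_congr_ae (Eventually.of_forall fun Y => ?_)
  simp only [hb, Fin.insertNth_apply_same, slotFib]
  ring

theorem slot_sub {R lam E Er : ℝ} (hl : 0 ≤ lam) (i : Fin (n + 1)) {a : S (eN (n + 1))}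
    (he : ∀ b, qf (UN R lam) a b = E * ip a b)
    (hr : ∀ᵐ x : E3, Er * ip (rsl i a x) (rsl i a x) ≤ qf (UN R lam) (rsl i a x) (rsl i a x))
    {u : S e3} (hu : (slotFib i a).IsSqrt u) (η : S e3) (hη : ∀ᵐ x, 0 ≤ η.f x) :
    qf (fun x => VR R x + (Er - E)) u η ≤ 0 := by
  refine hu.sub ((fb_VR R).add (fb_const _)) ?_ η hη
  rintro μ ⟨C, hC⟩ hi
  obtain ⟨b, hb, hg, -⟩ := exists_mulSlot i a μ (C := C)
    (hC.mono fun x hx => by rw [abs_of_nonneg hx.1]; exact hx.2) hi
  obtain ⟨q1, q2⟩ := qf_split R lam i a b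
  obtain ⟨-, p1⟩ := xsub_pot ((fb_VR R).add (fb_const (Er - E))) i hb
  obtain ⟨p2, p3⟩ := xsub_pot (fb_const Er) i hb
  rw [slotFib_n, ← xsub_kin i hg, ← p1, pot_add ((fb_VR R).slot i) (fb_const _), pot_const]
  rw [pot_const] at p3
  have w0 : 0 ≤ pot (fun X => Wx (X i) (Fin.removeNth i X)) a b := by
    refine integral_nonneg_of_ae ?_
    filter_upwards [ae_slot i hC] with X hX
    have : a.f X * b.f X = μ.f (X i) * a.f X ^ 2 := by rw [hb]; ring
    rw [this]
    exact mul_nonneg (Wx_nonneg _ _) (mul_nonneg hX.1 (sq_nonneg _))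
  have r0 : ∫ x, Er * (μ.f x * rho i a.f x) ≤ ∫ x, qf (UN R lam) (rsl i a x) (rsl i b x) := by
    refine integral_mono_ae p2 q1 ?_
    filter_upwards [hr, hC, rsl_ae i a, rsl_ae i b, ip_rsl_self i a] with x a1 a2 a3 a4 a5
    have e : (rsl i b x).f =ᵐ[volume] (μ.f x • rsl i a x).f :=
      Eventually.of_forall fun Y => by rw [a4.1, S.smul_f, a3.1, hb, Fin.insertNth_apply_same]
    rw [qf_congr' _ _ e, (fb_UN R lam).bil_qf.smul_right, ← a5]
    have := mul_le_mul_of_nonneg_left a1 a2.1
    linarith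
  have := he b
  have := mul_nonneg hl w0
  linarith

theorem sqrt_norms (i : Fin (n + 1)) {a : S (eN (n + 1))} {u : S e3}
    (hu : (slotFib i a).IsSqrt u) : ip u u = ip a a ∧ kin u u ≤ kin a a := by
  constructor
  · rw [ip_self, ← integral_rho i a]
    refine integral_congr_ae (Eventually.of_forall fun x => ?_)
    simp only [hu.f]
    exact Real.sq_sqrt ((slotFib i a).n_nonneg x)
  · refine le_trans ?_ (kinI_le i a)
    rw [kin_self, ← integral_tau]
    refine mul_le_mul_of_nonneg_left ?_ (by norm_num)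
    exact integral_mono_ae (integrable_finsetSum _ fun k _ => u.int_gsq k) (slotFib i a).int_tau hu.le

theorem sub_sup {R m C : ℝ} (hm : 0 ≤ m) {u : S e3} (h0 : ∀ x, 0 ≤ u.f x)
    (hs : ∀ η : S e3, (∀ᵐ x, 0 ≤ η.f x) → qf (fun x => VR R x + m) u η ≤ 0) (h1 : ip u u ≤ 1)
    (hk : kin u u ≤ C) : ∀ᵐ x, u.f x ≤ 1 + 4 * √(8 * C) := by
  obtain ⟨m1, m2⟩ := memLp_VR R u
  have h := sup_bound u (s := fun x => -(VR R x * u.f x)) m1.neg fun η hη => by
    have a1 := hs η (Eventually.of_forall hη)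
    unfold qf at a1
    rw [pot_add (fb_VR R) (fb_const m), pot_const] at a1
    have a2 : 0 ≤ ip u η := integral_nonneg fun x => mul_nonneg (h0 x) (hη x)
    have a3 : ∫ x, -(VR R x * u.f x) * η.f x = -pot (VR R) u η := by
      unfold pot
      rw [← integral_neg]
      refine integral_congr_ae (Eventually.of_forall fun x => ?_)
      simp only
      ring
    have := mul_nonneg hm a2
    linarith
  filter_upwards [h] with x hx
  have b1 : √(ip u u) ≤ 1 := Real.sqrt_le_one.2 h1
  have b2 : √(∫ y, (-(VR R y * u.f y)) ^ 2) ≤ √(8 * C) := by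
    refine Real.sqrt_le_sqrt ?_
    simp only [neg_sq]
    linarith
  linarith

end Vale.Agent.P363
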